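import Vale.Agent.Lib.P137W.LineFubini

/-! From absolute continuity on almost every line to a weak derivative. -/

open MeasureTheory Metric Set Filter Topology
open scoped ENNReal RealInnerProductSpace ContDiff

noncomputable section

namespace ValeP137

variable {d : ℕ} {e : E d} {u : E d → ℝ}

/-- Translates of almost everywhere equal functions are almost everywhere equal. -/
private lemma ae_eq_translate {u u' : E d → ℝ} (h : u =ᵐ[volume] u') (g : E d) :
    (fun y => u (y + g)) =ᵐ[volume] fun y => u' (y + g) :=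
  (measurePreserving_add_right volume g).quasiMeasurePreserving.ae_eq_comp h

/-- Local integrability from a translation bound. -/
theorem locInt_of_bv (hu : AEStronglyMeasurable u volume) {A : ℝ}
    (hbv : ∀ h : E d, ∫⁻ x, ‖u (x + h) - u x‖ₑ ≤ ENNReal.ofReal (A * ‖h‖)) :
    LocallyIntegrable u volume := by
  -- pass to a strongly measurable representative
  set u' := hu.mk u with hu'def
  have hu'm : StronglyMeasurable u' := hu.stronglyMeasurable_mk
  have huu' : u =ᵐ[volume] u' := hu.ae_eq_mk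
  suffices h : LocallyIntegrable u' volume from h.congr huu'.symm
  have hbv' : ∀ h : E d, ∫⁻ x, ‖u' (x + h) - u' x‖ₑ ≤ ENNReal.ofReal (A * ‖h‖) := by
    intro h
    refine le_trans (le_of_eq ?_) (hbv h)
    apply lintegral_congr_ae
    filter_upwards [ae_eq_translate huu' h, huu'] with x h1 h2
    rw [h1, h2]
  -- the two variable integrand
  have hm : Measurable (fun p : E d × E d => ‖u' (p.1 + p.2) - u' p.1‖ₑ) := by
    have h1 : Measurable fun p : E d × E d => u' (p.1 + p.2) :=
      hu'm.measurable.comp (measurable_fst.add measurable_snd)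
    have h2 : Measurable fun p : E d × E d => u' p.1 := hu'm.measurable.comp measurable_fst
    exact (h1.sub h2).enorm
  -- Tonelli
  have hfin : ∀ R : ℕ, ∀ᵐ x : E d, ∫⁻ h in ball (0 : E d) R, ‖u' (x + h) - u' x‖ₑ < ⊤ := by
    intro R
    have hm1 : Measurable fun x : E d => ∫⁻ h in ball (0 : E d) R, ‖u' (x + h) - u' x‖ₑ :=
      hm.lintegral_prod_right' (ν := volume.restrict (ball (0 : E d) R))
    apply ae_lt_top hm1
    have hswap : ∫⁻ x, ∫⁻ h in ball (0 : E d) R, ‖u' (x + h) - u' x‖ₑ =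
        ∫⁻ h in ball (0 : E d) R, ∫⁻ x, ‖u' (x + h) - u' x‖ₑ :=
      lintegral_lintegral_swap (f := fun x h => ‖u' (x + h) - u' x‖ₑ) hm.aemeasurable
    rw [hswap]
    have hbd : ∀ h ∈ ball (0 : E d) R, ∫⁻ x, ‖u' (x + h) - u' x‖ₑ ≤ ENNReal.ofReal (|A| * R) := by
      intro h hh
      refine (hbv' h).trans (ENNReal.ofReal_le_ofReal ?_)
      have h1 : ‖h‖ ≤ R := by
        simpa using (mem_ball_zero_iff.1 hh).le
      calc A * ‖h‖ ≤ |A| * ‖h‖ := by gcongr; exact le_abs_self A
        _ ≤ |A| * R := by gcongr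
    have h2 := setLIntegral_mono' (μ := (volume : Measure (E d))) isOpen_ball.measurableSet hbd
    refine ne_top_of_le_ne_top ?_ h2
    rw [setLIntegral_const]
    exact ENNReal.mul_ne_top ENNReal.ofReal_ne_top measure_ball_lt_top.ne
  obtain ⟨x0, hx0⟩ := (ae_all_iff.2 hfin).exists
  intro y
  -- a ball around `x0` containing `y`
  obtain ⟨R, hR⟩ := exists_nat_gt (dist y x0)
  refine ⟨ball x0 R, isOpen_ball.mem_nhds (mem_ball.2 hR), ?_⟩
  refine ⟨hu'm.aestronglyMeasurable, ?_⟩
  rw [hasFiniteIntegral_iff_enorm]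
  have hshift : ∫⁻ z in ball x0 R, ‖u' z‖ₑ = ∫⁻ h in ball (0 : E d) R, ‖u' (x0 + h)‖ₑ := by
    rw [← lintegral_indicator isOpen_ball.measurableSet, ← lintegral_indicator isOpen_ball.measurableSet,
      ← lintegral_add_left_eq_self _ x0]
    apply lintegral_congr
    intro h
    by_cases hh : h ∈ ball (0 : E d) R
    · have : x0 + h ∈ ball x0 R := by simpa using hh
      rw [indicator_of_mem this, indicator_of_mem hh]
    · have : x0 + h ∉ ball x0 R := by simpa using hh
      rw [indicator_of_notMem this, indicator_of_notMem hh]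
  rw [hshift]
  have hle : ∫⁻ h in ball (0 : E d) R, ‖u' (x0 + h)‖ₑ ≤
      ∫⁻ h in ball (0 : E d) R, (‖u' (x0 + h) - u' x0‖ₑ + ‖u' x0‖ₑ) := by
    apply lintegral_mono
    intro h
    have : u' (x0 + h) = (u' (x0 + h) - u' x0) + u' x0 := by ring
    show ‖u' (x0 + h)‖ₑ ≤ ‖u' (x0 + h) - u' x0‖ₑ + ‖u' x0‖ₑ
    calc ‖u' (x0 + h)‖ₑ = ‖(u' (x0 + h) - u' x0) + u' x0‖ₑ := by rw [← this]
      _ ≤ _ := enorm_add_le _ _
  refine lt_of_le_of_lt hle ?_
  have hm2 : Measurable fun h : E d => ‖u' (x0 + h) - u' x0‖ₑ :=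
    ((hu'm.measurable.comp (measurable_const_add x0)).sub_const _).enorm
  rw [lintegral_add_left hm2, setLIntegral_const]
  exact ENNReal.add_lt_top.2 ⟨hx0 R, ENNReal.mul_lt_top enorm_lt_top measure_ball_lt_top⟩

/-- Weak derivative from absolute continuity on almost every line and a translation bound. -/
theorem weak_of_lines (he : ‖e‖ = 1) (hu : LocallyIntegrable u volume) {A : ℝ≥0∞} (hA : A ≠ ⊤)
    (hac : ∀ᵐ x : E d, ∀ a b : ℝ, AbsolutelyContinuousOnInterval (fun t : ℝ => u (x + t • e)) a b)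
    (hbv : ∀ n : ℕ, ∫⁻ x, ‖u (x + ((n : ℝ) + 1)⁻¹ • e) - u x‖ₑ
      ≤ ENNReal.ofReal ((n : ℝ) + 1)⁻¹ * A) :
    ∃ H : E d → ℝ, Integrable H volume ∧ ∫⁻ x, ‖H x‖ₑ ≤ A ∧
      ∀ φ : E d → ℝ, ContDiff ℝ ∞ φ → HasCompactSupport φ →
        ∫ x, u x * fderiv ℝ φ x e = - ∫ x, φ x * H x := by
  -- a strongly measurable representative
  have hus : AEStronglyMeasurable u volume := hu.aestronglyMeasurable
  set u' := hus.mk u with hu'def
  have hu'm : StronglyMeasurable u' := hus.stronglyMeasurable_mk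
  have huu' : u =ᵐ[volume] u' := hus.ae_eq_mk
  -- the difference quotients
  set g : ℕ → E d := fun n => ((n : ℝ) + 1)⁻¹ • e with hg
  set DQ : ℕ → E d → ℝ := fun n y => ((n : ℝ) + 1) * (u' (y + g n) - u' y) with hDQ
  have hDQm : ∀ n, Measurable (DQ n) := fun n =>
    ((hu'm.measurable.comp (measurable_add_const _)).sub hu'm.measurable).const_mul _
  have hDQs : ∀ n, StronglyMeasurable (DQ n) := fun n => (hDQm n).stronglyMeasurable
  have hDQ0 : ∀ᵐ y : E d, ∀ n, DQ n y = ((n : ℝ) + 1) * (u (y + g n) - u y) := by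
    rw [ae_all_iff]
    intro n
    filter_upwards [ae_eq_translate huu' (g n), huu'] with y h1 h2
    simp only [hDQ]
    rw [h1, h2]
  -- convergence along lines
  have hlim : ∀ᵐ x : E d, ∀ᵐ s : ℝ, Tendsto (fun n => DQ n (x + s • e)) atTop
      (𝓝 (deriv (fun t : ℝ => u (x + t • e)) s)) := by
    filter_upwards [hac, ae_line_of_ae he hDQ0] with x hx1 hx2
    have hdiff : ∀ᵐ s : ℝ, DifferentiableAt ℝ (fun t : ℝ => u (x + t • e)) s := by
      have h1 : ∀ N : ℕ, ∀ᵐ s : ℝ, s ∈ uIcc (-(N : ℝ)) N →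
          DifferentiableAt ℝ (fun t : ℝ => u (x + t • e)) s := fun N =>
        (hx1 (-(N : ℝ)) N).ae_differentiableAt
      filter_upwards [ae_all_iff.2 h1] with s hs
      obtain ⟨N, hN⟩ := exists_nat_ge |s|
      apply hs N
      rw [uIcc_of_le (by linarith [abs_nonneg s])]
      exact abs_le.1 hN
    filter_upwards [hx2, hdiff] with s hs1 hs2
    have hD := hs2.hasDerivAt.tendsto_slope_zero
    have ht : Tendsto (fun n : ℕ => ((n : ℝ) + 1)⁻¹) atTop (𝓝[≠] 0) := by
      rw [tendsto_nhdsWithin_iff]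
      refine ⟨tendsto_inv_atTop_zero.comp (tendsto_atTop_add_const_right _ _ tendsto_natCast_atTop_atTop), ?_⟩
      exact Eventually.of_forall fun n => by
        have : (0 : ℝ) < (n : ℝ) + 1 := by positivity
        exact (inv_pos.2 this).ne'
    have := hD.comp ht
    refine this.congr fun n => ?_
    simp only [Function.comp, smul_eq_mul, inv_inv]
    rw [hs1 n]
    have : x + (s + ((n : ℝ) + 1)⁻¹) • e = x + s • e + g n := by
      simp only [hg, add_smul]
      abel
    rw [this]
  -- the almost everywhere limit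
  have hconv : ∀ᵐ y : E d, ∃ l, Tendsto (fun n => DQ n y) atTop (𝓝 l) := by
    have hA0 : MeasurableSet {y : E d | ∃ l, Tendsto (fun n => DQ n y) atTop (𝓝 l)} :=
      measurableSet_exists_tendsto hDQm
    rw [ae_iff]
    apply null_of_ae_line he hA0.compl
    filter_upwards [hlim] with x hx
    filter_upwards [hx] with s hs
    simp only [mem_compl_iff, mem_setOf_eq, not_not]
    exact ⟨_, hs⟩
  obtain ⟨H, hHm, hHlim⟩ := measurable_limit_of_tendsto_metrizable_ae (L := atTop) (f := DQ)
    (μ := (volume : Measure (E d))) (fun n => (hDQm n).aemeasurable) hconv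
  -- each difference quotient has integral at most `A`
  have hDQbd : ∀ n, ∫⁻ y, ‖DQ n y‖ₑ ≤ A := by
    intro n
    have hpos : (0 : ℝ) < (n : ℝ) + 1 := by positivity
    have h1 : ∀ y, ‖DQ n y‖ₑ = ENNReal.ofReal ((n : ℝ) + 1) * ‖u' (y + g n) - u' y‖ₑ := by
      intro y
      simp only [hDQ]
      rw [enorm_mul, Real.enorm_of_nonneg hpos.le]
    simp_rw [h1]
    rw [lintegral_const_mul' _ _ ENNReal.ofReal_ne_top]
    have h2 : ∫⁻ y, ‖u' (y + g n) - u' y‖ₑ = ∫⁻ y, ‖u (y + g n) - u y‖ₑ := by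
      apply lintegral_congr_ae
      filter_upwards [ae_eq_translate huu' (g n), huu'] with y h1 h2
      rw [h1, h2]
    rw [h2]
    calc ENNReal.ofReal ((n : ℝ) + 1) * ∫⁻ y, ‖u (y + g n) - u y‖ₑ
        ≤ ENNReal.ofReal ((n : ℝ) + 1) * (ENNReal.ofReal ((n : ℝ) + 1)⁻¹ * A) := by
          gcongr
          exact hbv n
      _ = A := by
          rw [← mul_assoc, ← ENNReal.ofReal_mul hpos.le, mul_inv_cancel₀ hpos.ne', ENNReal.ofReal_one,
            one_mul]
  -- Fatou
  have hHint : ∫⁻ x, ‖H x‖ₑ ≤ A := by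
    have hFatou : ∫⁻ y, liminf (fun n => ‖DQ n y‖ₑ) atTop ≤
        liminf (fun n => ∫⁻ y, ‖DQ n y‖ₑ) atTop :=
      lintegral_liminf_le' (fun n => (hDQm n).enorm.aemeasurable)
    have hae : (fun x => ‖H x‖ₑ) =ᵐ[volume] fun y => liminf (fun n => ‖DQ n y‖ₑ) atTop := by
      filter_upwards [hHlim] with y hy
      exact ((continuous_enorm.tendsto _).comp hy).liminf_eq.symm
    rw [lintegral_congr_ae hae]
    refine hFatou.trans ?_
    exact liminf_le_of_le ⟨0, by simp⟩ (fun b hb => by
      obtain ⟨n, hn⟩ := hb.exists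
      exact hn.trans (hDQbd n))
  have hHi : Integrable H volume :=
    ⟨hHm.aestronglyMeasurable, by
      rw [hasFiniteIntegral_iff_enorm]
      exact lt_of_le_of_lt hHint hA.lt_top⟩
  refine ⟨H, hHi, hHint, ?_⟩
  intro φ hφ hφc
  -- the derivative along a line agrees with `H`
  have hHline : ∀ᵐ x : E d, ∀ᵐ s : ℝ, deriv (fun t : ℝ => u (x + t • e)) s = H (x + s • e) := by
    filter_upwards [hlim, ae_line_of_ae he hHlim] with x hx1 hx2
    filter_upwards [hx1, hx2] with s hs1 hs2
    exact tendsto_nhds_unique hs1 hs2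
  have hφ1 : ContDiff ℝ 1 φ := hφ.of_le (by norm_cast)
  have hdφ : Continuous fun y => fderiv ℝ φ y e :=
    (hφ1.continuous_fderiv (by norm_num)).clm_apply continuous_const
  have hdφc : HasCompactSupport fun y => fderiv ℝ φ y e :=
    (hφc.fderiv (𝕜 := ℝ)).comp_left (g := fun L : E d →L[ℝ] ℝ => L e) (by simp)
  -- integrability of the pieces
  have hi1 : Integrable (fun y => u y * fderiv ℝ φ y e) volume := by
    simpa [smul_eq_mul, mul_comm] using
      hu.integrable_smul_left_of_hasCompactSupport hdφ hdφc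
  have hi2 : Integrable (fun y => φ y * H y) volume := by
    obtain ⟨C, hC⟩ := hφc.exists_bound_of_continuous hφ.continuous
    exact hHi.bdd_mul hφ.continuous.aestronglyMeasurable (Eventually.of_forall hC)
  have hi3 : Integrable (fun y => u y * φ y) volume := by
    simpa [smul_eq_mul, mul_comm] using
      hu.integrable_smul_left_of_hasCompactSupport hφ.continuous hφc
  set Fφ : E d → ℝ := fun y => u y * fderiv ℝ φ y e + φ y * H y with hFφ
  have hFi : Integrable Fφ volume := hi1.add hi2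
  -- integration along segments
  have hseg : ∀ᵐ x : E d, ∫ s in (0 : ℝ)..1, Fφ (x + s • e) =
      u (x + e) * φ (x + e) - u x * φ x := by
    filter_upwards [hac, hHline] with x hx1 hx2
    have hψd : ∀ s : ℝ, HasDerivAt (fun t : ℝ => φ (x + t • e)) (fderiv ℝ φ (x + s • e) e) s := by
      intro s
      have h1 : HasDerivAt (fun t : ℝ => x + t • e) e s := by
        simpa using ((hasDerivAt_id s).smul_const e).const_add x
      exact ((hφ.differentiable (by simp)) _).hasFDerivAt.comp_hasDerivAt s h1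
    have hψac : AbsolutelyContinuousOnInterval (fun t : ℝ => φ (x + t • e)) 0 1 := by
      apply ContDiffOn.absolutelyContinuousOnInterval
      apply ContDiff.contDiffOn
      exact hφ1.comp (by fun_prop)
    have h := (hx1 0 1).integral_deriv_mul_eq_sub hψac
    simp only [zero_smul, add_zero, one_smul] at h
    rw [← h]
    apply intervalIntegral.integral_congr_ae
    filter_upwards [hx2] with s hs _
    rw [hs, (hψd s).deriv]
    simp only [hFφ]
    ring
  have hzero : ∫ y, Fφ y = 0 := by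
    have h1 : ∫ x, ∫ s in (0 : ℝ)..1, Fφ (x + s • e) = ∫ y, Fφ y := integral_line_segment hFi
    rw [← h1, integral_congr_ae hseg, integral_sub, sub_eq_zero]
    · exact integral_add_right_eq_self (fun y => u y * φ y) e
    · exact hi3.comp_add_right e
    · exact hi3
  have hsplit : ∫ y, Fφ y = (∫ y, u y * fderiv ℝ φ y e) + ∫ y, φ y * H y := integral_add hi1 hi2
  linarith

end ValeP137
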