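import Vale.Agent.Lib.P137.Defs

/-! Sobolev layer for P137: definitions. -/

open MeasureTheory Metric Set Filter Topology
open scoped ENNReal RealInnerProductSpace ContDiff

noncomputable section

namespace ValeP137

variable {d : ℕ}

/-- `G` is the weak gradient of `u`: both locally integrable, and integration by parts holds
against all smooth compactly supported test functions in all directions. -/
structure IsWeakGrad (u : E d → ℝ) (G : E d → E d) : Prop where
  locInt_u : LocallyIntegrable u volume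
  locInt_G : LocallyIntegrable G volume
  ibp : ∀ φ : E d → ℝ, ContDiff ℝ ∞ φ → HasCompactSupport φ → ∀ v : E d,
    ∫ x, u x * fderiv ℝ φ x v = - ∫ x, φ x * inner ℝ (G x) v

/-- The set of means of `|f|` over open balls containing `y`; `Mtilde f y` is its supremum. -/
def avgSet (f : E d → ℝ) (y : E d) : Set ℝ :=
  {A : ℝ | ∃ (c : E d) (r : ℝ), 0 < r ∧ y ∈ ball c r ∧ A = ⨍ x in ball c r, |f x|}

/-- The variation bound for `C^1_c` functions with constant `K` (proved in the module `Final` of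
the main proof: this is the only way it enters the Sobolev layer). -/
def BVc (d : ℕ) (K : ℝ) : Prop :=
  ∀ g : E d → ℝ, ContDiff ℝ 1 g → HasCompactSupport g → ∀ h : E d,
    ∫⁻ x, ‖Mtilde g (x + h) - Mtilde g x‖ₑ ≤ ENNReal.ofReal (K * ‖h‖) * ∫⁻ w, ‖gradient g w‖ₑ

/-- Weight used to integrate over lines without a chart. -/
def lineW (e x : E d) : ℝ≥0∞ := ENNReal.ofReal (1 + (inner ℝ x e) ^ 2)⁻¹

/-- Smooth approximation of a Sobolev function. -/
structure Approx (f : E d → ℝ) (G : E d → E d) (fk : ℕ → E d → ℝ) : Prop where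
  smooth : ∀ k, ContDiff ℝ ∞ (fk k)
  cs : ∀ k, HasCompactSupport (fk k)
  close : ∀ k, ∫⁻ x, ‖f x - fk k x‖ₑ ≤ ENNReal.ofReal ((1 / 4) ^ k)
  closeG : ∀ k, ∫⁻ x, ‖gradient (fk k) x - G x‖ₑ ≤ ENNReal.ofReal ((1 / 4) ^ k)

/-- Consecutive differences. -/
def gk (fk : ℕ → E d → ℝ) (k : ℕ) (x : E d) : ℝ := fk (k + 1) x - fk k x

/-- Measurable majorant of the supremum of `Mtilde g` over a line: the lower limit of the
difference quotients in direction `e`, along the line through `x`. -/
def capL (g : E d → ℝ) (e x : E d) : ℝ≥0∞ :=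
  liminf (fun n : ℕ => ENNReal.ofReal ((n : ℝ) + 1) *
    ∫⁻ s : ℝ, ‖Mtilde g (x + (s + ((n : ℝ) + 1)⁻¹) • e) - Mtilde g (x + s • e)‖ₑ) atTop

/-- Good line through `x` in direction `e`. -/
structure GoodLine (fk : ℕ → E d → ℝ) (e x : E d) : Prop where
  sumCap : ∑' k, capL (gk fk k) e x ≠ ⊤
  sumDer : ∑' k, ∫⁻ s : ℝ, ‖inner ℝ (gradient (gk fk k) (x + s • e)) e‖ₑ ≠ ⊤

end ValeP137
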