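import Vale.Agent.Lib.P137W.Basic

/-! Integration over lines without a chart. -/

open MeasureTheory Metric Set Filter Topology
open scoped ENNReal RealInnerProductSpace

noncomputable section

namespace ValeP137

variable {d : ℕ} {e : E d}

theorem lineW_pos (e x : E d) : lineW e x ≠ 0 := by
  unfold lineW
  have : 0 < (1 + (inner ℝ x e) ^ 2)⁻¹ := by positivity
  simpa [ENNReal.ofReal_eq_zero] using this

theorem lineW_ne_top (e x : E d) : lineW e x ≠ ⊤ := ENNReal.ofReal_ne_top

theorem measurable_lineW (e : E d) : Measurable (lineW e) := by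
  unfold lineW
  refine Measurable.ennreal_ofReal ?_
  have : Continuous (fun x : E d => (inner ℝ x e : ℝ)) := by fun_prop
  exact ((continuous_const.add (this.pow 2)).measurable).inv

theorem lintegral_lineW_shift (he : ‖e‖ = 1) (y : E d) :
    ∫⁻ s : ℝ, lineW e (y - s • e) = ENNReal.ofReal Real.pi := by
  have h1 : ∀ s : ℝ, lineW e (y - s • e) = ENNReal.ofReal (1 + (inner ℝ y e - s) ^ 2)⁻¹ := by
    intro s
    unfold lineW
    congr 3
    rw [inner_sub_left, real_inner_smul_left, real_inner_self_eq_norm_sq, he]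
    ring
  simp_rw [h1]
  have h2 : ∫⁻ s : ℝ, ENNReal.ofReal (1 + (inner ℝ y e - s) ^ 2)⁻¹ =
      ∫⁻ s : ℝ, ENNReal.ofReal (1 + s ^ 2)⁻¹ :=
    lintegral_sub_left_eq_self (fun s : ℝ => ENNReal.ofReal (1 + s ^ 2)⁻¹) (inner ℝ y e)
  rw [h2, ← ofReal_integral_eq_lintegral_ofReal integrable_inv_one_add_sq
    (Eventually.of_forall fun x => by positivity), integral_univ_inv_one_add_sq]

/-- Tonelli along lines. -/
theorem line_fubini (he : ‖e‖ = 1) {F : E d → ℝ≥0∞} (hF : Measurable F) :
    ∫⁻ x, lineW e x * ∫⁻ s : ℝ, F (x + s • e) = ENNReal.ofReal Real.pi * ∫⁻ y, F y := by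
  have hm : Measurable (fun p : E d × ℝ => p.1 + p.2 • e) := by fun_prop
  have hFm : Measurable (fun p : E d × ℝ => F (p.1 + p.2 • e)) := hF.comp hm
  have hW := measurable_lineW e
  calc ∫⁻ x, lineW e x * ∫⁻ s : ℝ, F (x + s • e)
      = ∫⁻ x, ∫⁻ s : ℝ, lineW e x * F (x + s • e) := by
        refine lintegral_congr fun x => ?_
        exact (lintegral_const_mul (lineW e x)
          (show Measurable (fun s : ℝ => F (x + s • e)) from
            hFm.comp measurable_prodMk_left)).symm
    _ = ∫⁻ s : ℝ, ∫⁻ x, lineW e x * F (x + s • e) := by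
        refine lintegral_lintegral_swap ?_
        exact ((hW.comp measurable_fst).mul hFm).aemeasurable
    _ = ∫⁻ s : ℝ, ∫⁻ y, lineW e (y - s • e) * F y := by
        refine lintegral_congr fun s => ?_
        have := lintegral_add_right_eq_self (μ := (volume : Measure (E d)))
          (fun y => lineW e (y - s • e) * F y) (s • e)
        rw [← this]
        simp
    _ = ∫⁻ y, ∫⁻ s : ℝ, lineW e (y - s • e) * F y := by
        refine lintegral_lintegral_swap ?_
        have hm2 : Measurable (fun p : ℝ × E d => p.2 - p.1 • e) := by fun_prop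
        exact ((hW.comp hm2).mul (hF.comp measurable_snd)).aemeasurable
    _ = ∫⁻ y, ENNReal.ofReal Real.pi * F y := by
        refine lintegral_congr fun y => ?_
        have hm3 : Measurable (fun s : ℝ => lineW e (y - s • e)) :=
          hW.comp (by fun_prop)
        rw [lintegral_mul_const _ hm3, lintegral_lineW_shift he]
    _ = ENNReal.ofReal Real.pi * ∫⁻ y, F y := lintegral_const_mul _ hF

theorem measurable_line_lintegral {F : E d → ℝ≥0∞} (hF : Measurable F) (e : E d) :
    Measurable (fun x : E d => ∫⁻ s : ℝ, F (x + s • e)) := by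
  have hm : Measurable (fun p : E d × ℝ => p.1 + p.2 • e) := by fun_prop
  exact (hF.comp hm).lintegral_prod_right'

/-- A weighted integrability bound gives finiteness almost everywhere. -/
theorem ae_ne_top_of_weighted {Ψ : E d → ℝ≥0∞} (hΨ : Measurable Ψ)
    (h : ∫⁻ x, lineW e x * Ψ x ≠ ⊤) : ∀ᵐ x : E d, Ψ x ≠ ⊤ := by
  have := ae_lt_top ((measurable_lineW e).mul hΨ) h
  filter_upwards [this] with x hx hΨx
  have hx' : lineW e x * Ψ x < ⊤ := hx
  rw [hΨx, ENNReal.mul_top (lineW_pos e x)] at hx'
  exact lt_irrefl _ hx'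

/-- A nonnegative integrable function is integrable on almost every line. -/
theorem ae_line_ne_top (he : ‖e‖ = 1) {F : E d → ℝ≥0∞} (hF : Measurable F)
    (h : ∫⁻ y, F y ≠ ⊤) : ∀ᵐ x : E d, ∫⁻ s : ℝ, F (x + s • e) ≠ ⊤ := by
  refine ae_ne_top_of_weighted (e := e) (measurable_line_lintegral hF e) ?_
  rw [line_fubini he hF]
  exact ENNReal.mul_ne_top ENNReal.ofReal_ne_top h

/-- What holds almost everywhere holds almost everywhere on almost every line. -/
theorem ae_line_of_ae (he : ‖e‖ = 1) {P : E d → Prop} (h : ∀ᵐ y : E d, P y) :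
    ∀ᵐ x : E d, ∀ᵐ s : ℝ, P (x + s • e) := by
  rw [ae_iff] at h
  set N := toMeasurable volume {y : E d | ¬ P y} with hN
  have hNm : MeasurableSet N := measurableSet_toMeasurable _ _
  have hN0 : volume N = 0 := by rw [hN, measure_toMeasurable]; exact h
  let F : E d → ℝ≥0∞ := N.indicator 1
  have hF : Measurable F := measurable_one.indicator hNm
  have hF0 : ∫⁻ y, F y = 0 := by
    simp only [F]
    rw [lintegral_indicator_one hNm, hN0]
  have h1 := line_fubini he hF
  rw [hF0, mul_zero] at h1
  have h1' := (lintegral_eq_zero_iff (f := fun x => lineW e x * ∫⁻ s : ℝ, F (x + s • e))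
    ((measurable_lineW e).mul (measurable_line_lintegral hF e))).1 h1
  filter_upwards [h1'] with x hx
  have h2 : ∫⁻ s : ℝ, F (x + s • e) = 0 := by
    have : lineW e x * ∫⁻ s : ℝ, F (x + s • e) = 0 := hx
    exact (mul_eq_zero.1 this).resolve_left (lineW_pos e x)
  have h2' := (lintegral_eq_zero_iff (f := fun s : ℝ => F (x + s • e))
    (hF.comp (by fun_prop))).1 h2
  filter_upwards [h2'] with s hs
  by_contra hP
  have hmem : x + s • e ∈ N := subset_toMeasurable _ _ hP
  simp [F, hmem] at hs

/-- Converse for measurable sets. -/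
theorem null_of_ae_line (he : ‖e‖ = 1) {A : Set (E d)} (hA : MeasurableSet A)
    (h : ∀ᵐ x : E d, ∀ᵐ s : ℝ, x + s • e ∉ A) : volume A = 0 := by
  let F : E d → ℝ≥0∞ := A.indicator 1
  have hF : Measurable F := measurable_one.indicator hA
  have h1 := line_fubini he hF
  have h2 : ∫⁻ x, lineW e x * ∫⁻ s : ℝ, F (x + s • e) = 0 := by
    refine (lintegral_congr_ae ?_).trans lintegral_zero
    filter_upwards [h] with x hx
    have : ∫⁻ s : ℝ, F (x + s • e) = 0 := by
      refine (lintegral_congr_ae ?_).trans lintegral_zero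
      filter_upwards [hx] with s hs
      simp [F, hs]
    rw [this, mul_zero]
  rw [h2] at h1
  have h3 : ∫⁻ y, F y = volume A := by
    simp only [F]
    rw [lintegral_indicator_one hA]
  rw [h3] at h1
  have hpi : ENNReal.ofReal Real.pi ≠ 0 := by
    simpa [ENNReal.ofReal_eq_zero] using Real.pi_pos
  exact ((mul_eq_zero.1 h1.symm).resolve_left hpi)

theorem quasi_line (e : E d) :
    Measure.QuasiMeasurePreserving (fun p : E d × ℝ => p.1 + p.2 • e)
      ((volume : Measure (E d)).prod (volume.restrict (Ioc (0 : ℝ) 1))) volume := by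
  have hm : Measurable (fun p : E d × ℝ => p.1 + p.2 • e) := by fun_prop
  refine ⟨hm, Measure.AbsolutelyContinuous.mk fun s hs h0 => ?_⟩
  rw [Measure.map_apply hm hs, Measure.prod_apply_symm (hm hs)]
  refine (lintegral_congr fun y => ?_).trans lintegral_zero
  have : (fun x : E d => (x, y)) ⁻¹' ((fun p : E d × ℝ => p.1 + p.2 • e) ⁻¹' s) =
      (fun x : E d => x + y • e) ⁻¹' s := rfl
  rw [this, measure_preimage_add_right, h0]

theorem integrable_line_prod {F : E d → ℝ} (hF : Integrable F volume) (e : E d) :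
    Integrable (fun p : E d × ℝ => F (p.1 + p.2 • e))
      ((volume : Measure (E d)).prod (volume.restrict (Ioc (0 : ℝ) 1))) := by
  have hmeas : AEStronglyMeasurable (fun p : E d × ℝ => F (p.1 + p.2 • e))
      ((volume : Measure (E d)).prod (volume.restrict (Ioc (0 : ℝ) 1))) :=
    hF.aestronglyMeasurable.comp_quasiMeasurePreserving (quasi_line e)
  rw [integrable_prod_iff' hmeas]
  constructor
  · exact Eventually.of_forall fun s => hF.comp_add_right (s • e)
  · have h : ∀ s : ℝ, ∫ x, ‖F (x + s • e)‖ = ∫ y, ‖F y‖ := fun s =>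
      integral_add_right_eq_self (fun y => ‖F y‖) (s • e)
    simp_rw [h]
    exact integrable_const _

/-- Averaging over a segment of a line does not change the integral. -/
theorem integral_line_segment {F : E d → ℝ} (hF : Integrable F volume) :
    ∫ x, ∫ s in (0 : ℝ)..1, F (x + s • e) = ∫ y, F y := by
  simp_rw [intervalIntegral.integral_of_le (zero_le_one' ℝ)]
  have h := integrable_line_prod hF e
  rw [integral_integral_swap (f := fun (x : E d) (s : ℝ) => F (x + s • e)) h]
  have h2 : ∀ s : ℝ, ∫ x, F (x + s • e) = ∫ y, F y := fun s =>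
    integral_add_right_eq_self F (s • e)
  simp_rw [h2]
  simp

/-- Integrability on almost every segment. -/
theorem ae_integrable_line_segment {F : E d → ℝ} (hF : Integrable F volume) :
    ∀ᵐ x : E d, IntervalIntegrable (fun s : ℝ => F (x + s • e)) volume 0 1 := by
  have h := (integrable_line_prod hF e).prod_right_ae
  filter_upwards [h] with x hx
  rw [intervalIntegrable_iff_integrableOn_Ioc_of_le (zero_le_one' ℝ)]
  exact hx

end ValeP137
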