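import Vale.Agent.Lib.P137W.Basic

/-! Elementary facts on the maximal function. -/

open MeasureTheory Metric Set Filter Topology
open scoped ENNReal RealInnerProductSpace ContDiff

noncomputable section

namespace ValeP137

variable {d : ℕ} {f g : E d → ℝ}

private theorem ball_real_pos (c : E d) {r : ℝ} (hr : 0 < r) : 0 < volume.real (ball c r) :=
  ENNReal.toReal_pos (measure_ball_pos volume c hr).ne' measure_ball_lt_top.ne

private theorem avg_le_of_le {s : Set (E d)} {φ : E d → ℝ} {M : ℝ} (hs : MeasurableSet s)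
    (h0 : 0 < volume.real s) (hφ : IntegrableOn φ s) (hM : ∀ x ∈ s, φ x ≤ M) :
    (⨍ x in s, φ x) ≤ M := by
  have hfin : volume s ≠ ⊤ := fun h => by simp [Measure.real, h] at h0
  rw [setAverage_eq, smul_eq_mul, inv_mul_le_iff₀ h0]
  have hc : IntegrableOn (fun _ : E d => M) s := integrableOn_const hfin
  have := setIntegral_mono_on hφ hc hs hM
  simpa [setIntegral_const, smul_eq_mul] using this

private theorem le_avg_of_le {s : Set (E d)} {φ : E d → ℝ} {M : ℝ} (hs : MeasurableSet s)
    (h0 : 0 < volume.real s) (hφ : IntegrableOn φ s) (hM : ∀ x ∈ s, M ≤ φ x) :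
    M ≤ (⨍ x in s, φ x) := by
  have hfin : volume s ≠ ⊤ := fun h => by simp [Measure.real, h] at h0
  rw [setAverage_eq, smul_eq_mul, le_inv_mul_iff₀ h0]
  have hc : IntegrableOn (fun _ : E d => M) s := integrableOn_const hfin
  have := setIntegral_mono_on hc hφ hs hM
  simpa [setIntegral_const, smul_eq_mul] using this

private theorem avg_abs_nonneg (f : E d → ℝ) (s : Set (E d)) : 0 ≤ ⨍ x in s, |f x| := by
  rw [setAverage_eq, smul_eq_mul]
  exact mul_nonneg (by positivity) (integral_nonneg fun x => abs_nonneg _)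

private theorem cont_integrableOn (hg : Continuous g) (c : E d) (r : ℝ) :
    IntegrableOn (fun x => |g x|) (ball c r) :=
  (hg.abs.continuousOn.integrableOn_compact (isCompact_closedBall c r)).mono_set ball_subset_closedBall

/-- The volume of the unit ball, as a real number (local copy). -/
private def om (d : ℕ) : ℝ := volume.real (ball (0 : E d) 1)

private theorem om_pos (d : ℕ) : 0 < om d := ball_real_pos 0 one_pos

private theorem vol_real_ball (c : E d) {r : ℝ} (hr : 0 < r) :
    volume.real (ball c r) = om d * r ^ d := by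
  have h1 := Measure.addHaar_ball_of_pos (volume : Measure (E d)) c hr
  rw [finrank_euclideanSpace_fin] at h1
  unfold om
  rw [Measure.real, h1, ENNReal.toReal_mul, ENNReal.toReal_ofReal (by positivity), mul_comm,
    Measure.real]

/-- A mean of `|f|` over a ball of radius `r` is at most `‖f‖₁ / (ω r^d)`. -/
private theorem avg_le_L1 (hf : Integrable f volume) (c : E d) {r : ℝ} (hr : 0 < r) :
    (⨍ x in ball c r, |f x|) ≤ (∫ x, |f x|) / (om d * r ^ d) := by
  rw [setAverage_eq, smul_eq_mul, vol_real_ball c hr, ← div_eq_inv_mul]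
  apply div_le_div_of_nonneg_right _ (mul_pos (om_pos d) (pow_pos hr d)).le
  exact setIntegral_le_integral hf.abs (Eventually.of_forall fun _ => abs_nonneg _)

private theorem L1_nonneg (f : E d → ℝ) : 0 ≤ ∫ x, |f x| := integral_nonneg fun x => abs_nonneg _

/-- The means of `|f|` over balls of radius at least `ρ` are bounded by `‖f‖₁ / (ω ρ^d)`. -/
private theorem avg_le_L1' (hf : Integrable f volume) (c : E d) {ρ r : ℝ} (hρ : 0 < ρ) (hr : ρ ≤ r) :
    (⨍ x in ball c r, |f x|) ≤ (∫ x, |f x|) / (om d * ρ ^ d) := by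
  have hr0 : 0 < r := lt_of_lt_of_le hρ hr
  refine (avg_le_L1 hf c hr0).trans ?_
  apply div_le_div_of_nonneg_left (L1_nonneg f) (mul_pos (om_pos d) (pow_pos hρ d))
  exact mul_le_mul_of_nonneg_left (pow_le_pow_left₀ hρ.le hr d) (om_pos d).le

/-- The means over all balls containing a point are bounded for continuous compactly supported
functions. -/
theorem bddAbove_avgSet_of_cs (hg : Continuous g) (hgc : HasCompactSupport g) (y : E d) :
    BddAbove (avgSet g y) := by
  obtain ⟨C, hC⟩ := hgc.exists_bound_of_continuous hg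
  refine ⟨C, ?_⟩
  rintro A ⟨c, r, hr, -, rfl⟩
  exact avg_le_of_le measurableSet_ball (ball_real_pos c hr) (cont_integrableOn hg c r)
    (fun x _ => by simpa [Real.norm_eq_abs] using hC x)

theorem Mtilde_eq_sSup (f : E d → ℝ) (y : E d) : Mtilde f y = sSup (avgSet f y) := rfl

theorem Mtilde_nonneg (f : E d → ℝ) (y : E d) : 0 ≤ Mtilde f y := by
  rw [Mtilde_eq_sSup]
  apply Real.sSup_nonneg
  rintro A ⟨c, r, -, -, rfl⟩
  exact avg_abs_nonneg f _

private theorem avgSet_nonempty (f : E d → ℝ) (y : E d) : (avgSet f y).Nonempty :=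
  ⟨_, y, 1, one_pos, mem_ball_self one_pos, rfl⟩

/-- Translation of a mean over a ball. -/
private theorem avg_translate (φ : E d → ℝ) (c h : E d) (r : ℝ) :
    (⨍ x in ball (c + h) r, φ x) = ⨍ x in ball c r, φ (x + h) := by
  have hmp : MeasurePreserving (fun x : E d => x + h) volume volume := measurePreserving_add_right _ h
  have hpre : (fun x : E d => x + h) ⁻¹' ball (c + h) r = ball c r := by
    ext x
    simp [mem_ball]
  have h1 := hmp.setIntegral_preimage_emb (measurableEmbedding_addRight h) φ (ball (c + h) r)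
  rw [hpre] at h1
  have h2 : volume.real (ball (c + h) r) = volume.real (ball c r) := by
    rw [Measure.real, Measure.real, ← hpre, hmp.measure_preimage measurableSet_ball.nullMeasurableSet]
  rw [setAverage_eq, setAverage_eq, h2, h1]

/-- `Mtilde` of a `C^1_c` function is Lipschitz. -/
theorem lipschitz_Mtilde (hg : ContDiff ℝ 1 g) (hgc : HasCompactSupport g) :
    ∃ L : NNReal, LipschitzWith L (Mtilde g) := by
  obtain ⟨C, hC⟩ := ContDiff.lipschitzWith_of_hasCompactSupport hgc hg one_ne_zero
  have hcont : Continuous g := hg.continuous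
  refine ⟨C, LipschitzWith.of_le_add_mul C fun x y => ?_⟩
  rw [Mtilde_eq_sSup]
  refine csSup_le (avgSet_nonempty g x) ?_
  rintro A ⟨c, r, hr, hx, rfl⟩
  set h : E d := y - x with hh
  have hy : y ∈ ball (c + h) r := by
    rw [mem_ball, hh, dist_eq_norm] at *
    have : y - (c + (y - x)) = x - c := by abel
    rwa [this]
  have hA : (⨍ z in ball (c + h) r, |g z|) ≤ Mtilde g y :=
    le_csSup (bddAbove_avgSet_of_cs hcont hgc y) ⟨c + h, r, hr, hy, rfl⟩
  rw [avg_translate] at hA
  have hdist : dist x y = ‖h‖ := by rw [hh, dist_comm, dist_eq_norm]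
  have hlip : ∀ z, |g z| - C * ‖h‖ ≤ |g (z + h)| := by
    intro z
    have h1 := hC.dist_le_mul (z + h) z
    rw [Real.dist_eq, dist_eq_norm] at h1
    have h2 : z + h - z = h := by abel
    rw [h2] at h1
    have h3 := abs_sub_abs_le_abs_sub (g z) (g (z + h))
    rw [abs_sub_comm (g z)] at h3
    linarith
  have hint : IntegrableOn (fun z => |g (z + h)|) (ball c r) :=
    cont_integrableOn (hcont.comp (continuous_id.add continuous_const)) c r
  have hlow : (⨍ z in ball c r, |g z|) - C * ‖h‖ ≤ ⨍ z in ball c r, |g (z + h)| := by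
    have hvol := ball_real_pos c hr
    have hfin : volume (ball c r) ≠ ⊤ := measure_ball_lt_top.ne
    have hc : IntegrableOn (fun _ : E d => (C : ℝ) * ‖h‖) (ball c r) := integrableOn_const hfin
    have h1 : ∫ z in ball c r, (|g z| - C * ‖h‖) ≤ ∫ z in ball c r, |g (z + h)| :=
      setIntegral_mono_on ((cont_integrableOn hcont c r).sub hc) hint measurableSet_ball
        (fun z _ => hlip z)
    rw [integral_sub (cont_integrableOn hcont c r) hc, setIntegral_const, smul_eq_mul] at h1
    rw [setAverage_eq, setAverage_eq, smul_eq_mul, smul_eq_mul, sub_le_iff_le_add, ← sub_nonneg]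
    have h2 : 0 < (volume.real (ball c r))⁻¹ := inv_pos.2 hvol
    have h3 := mul_le_mul_of_nonneg_left h1 h2.le
    have h4 : (volume.real (ball c r))⁻¹ * ((∫ z in ball c r, |g z|) -
        volume.real (ball c r) * ((C : ℝ) * ‖h‖)) =
        (volume.real (ball c r))⁻¹ * (∫ z in ball c r, |g z|) - (C : ℝ) * ‖h‖ := by
      field_simp
    rw [h4] at h3
    linarith
  rw [hdist]
  linarith

/-- `Mtilde` of a compactly supported function is small far away from the support. -/
private theorem Mtilde_le_far (hg : Continuous g) {R ρ : ℝ} (hρ : 0 < ρ)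
    (hR : ∀ z, R < ‖z‖ → g z = 0) {y : E d} (hy : R + 2 * ρ ≤ ‖y‖)
    (hgi : Integrable g volume) :
    Mtilde g y ≤ (∫ x, |g x|) / (om d * ρ ^ d) := by
  have hpos : 0 ≤ (∫ x, |g x|) / (om d * ρ ^ d) :=
    div_nonneg (L1_nonneg g) (mul_pos (om_pos d) (pow_pos hρ d)).le
  rw [Mtilde_eq_sSup]
  refine Real.sSup_le ?_ hpos
  rintro A ⟨c, r, hr, hyc, rfl⟩
  rcases le_or_gt r ρ with hrρ | hrρ
  · have h0 : (⨍ x in ball c r, |g x|) ≤ 0 := by
      refine avg_le_of_le measurableSet_ball (ball_real_pos c hr) (cont_integrableOn hg c r) ?_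
      intro z hz
      have hzR : R < ‖z‖ := by
        rw [mem_ball, dist_eq_norm] at hz hyc
        have h1 : ‖y‖ ≤ ‖z‖ + ‖y - c‖ + ‖z - c‖ := by
          have e : y = z + (y - c) - (z - c) := by abel
          calc ‖y‖ = ‖z + (y - c) - (z - c)‖ := by rw [← e]
            _ ≤ ‖z + (y - c)‖ + ‖z - c‖ := norm_sub_le _ _
            _ ≤ _ := by gcongr; exact norm_add_le _ _
        linarith
      rw [hR z hzR, abs_zero]
    linarith
  · exact avg_le_L1' hgi c hρ hrρ.le

/-- `Mtilde` of a compactly supported function tends to zero along every line. -/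
theorem tendsto_Mtilde_line (hd : 1 ≤ d) (hg : Continuous g) (hgc : HasCompactSupport g)
    {e : E d} (he : ‖e‖ = 1) (x : E d) :
    Tendsto (fun s : ℝ => Mtilde g (x + s • e)) atTop (𝓝 0) := by
  obtain ⟨R, hR⟩ := hgc.isBounded.subset_closedBall (0 : E d)
  have hR' : ∀ z : E d, R < ‖z‖ → g z = 0 := by
    intro z hz
    by_contra hne
    have h1 : z ∈ tsupport g := subset_tsupport _ hne
    have h2 := hR h1
    rw [mem_closedBall, dist_zero_right] at h2
    linarith
  have hgi : Integrable g volume := hg.integrable_of_hasCompactSupport hgc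
  -- the radius along the line
  set ρ : ℝ → ℝ := fun s => (s - ‖x‖ - R) / 2 with hρ
  have hρt : Tendsto ρ atTop atTop := by
    have h1 : Tendsto (fun s : ℝ => s - (‖x‖ + R)) atTop atTop :=
      tendsto_atTop_add_const_right _ _ tendsto_id
    have h2 := h1.atTop_div_const (show (0 : ℝ) < 2 by norm_num)
    refine h2.congr fun s => ?_
    simp only [hρ]; ring
  have hbound : Tendsto (fun s => (∫ x, |g x|) / (om d * ρ s ^ d)) atTop (𝓝 0) := by
    have h1 : Tendsto (fun s => ρ s ^ d) atTop atTop :=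
      (tendsto_pow_atTop (by omega)).comp hρt
    have h2 : Tendsto (fun s => om d * ρ s ^ d) atTop atTop :=
      h1.const_mul_atTop (om_pos d)
    exact h2.const_div_atTop _
  refine tendsto_of_tendsto_of_tendsto_of_le_of_le' tendsto_const_nhds hbound
    (Eventually.of_forall fun s => Mtilde_nonneg g _) ?_
  filter_upwards [hρt.eventually_gt_atTop 0] with s hs
  refine Mtilde_le_far hg hs hR' ?_ hgi
  have h1 : s - ‖x‖ ≤ ‖x + s • e‖ := by
    have h2 : ‖s • e‖ ≤ ‖x + s • e‖ + ‖x‖ := by
      have e2 : s • e = (x + s • e) - x := by abel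
      calc ‖s • e‖ = ‖(x + s • e) - x‖ := by rw [← e2]
        _ ≤ _ := norm_sub_le _ _
    rw [norm_smul, he, mul_one, Real.norm_eq_abs] at h2
    linarith [le_abs_self s]
  simp only [hρ]
  linarith

/-- `|g| ≤ Mtilde g` for continuous compactly supported `g`. -/
theorem abs_le_Mtilde (hg : Continuous g) (hgc : HasCompactSupport g) (y : E d) :
    |g y| ≤ Mtilde g y := by
  refine le_of_forall_pos_le_add fun η hη => ?_
  obtain ⟨δ, hδ, hball⟩ := Metric.continuous_iff.1 hg y η hη
  have h1 : |g y| - η ≤ ⨍ x in ball y δ, |g x| := by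
    refine le_avg_of_le measurableSet_ball (ball_real_pos y hδ) (cont_integrableOn hg y δ) ?_
    intro z hz
    have h2 := hball z hz
    rw [Real.dist_eq] at h2
    have h3 := abs_sub_abs_le_abs_sub (g y) (g z)
    rw [abs_sub_comm (g y)] at h3
    linarith
  have h2 : (⨍ x in ball y δ, |g x|) ≤ Mtilde g y :=
    le_csSup (bddAbove_avgSet_of_cs hg hgc y) ⟨y, δ, hδ, mem_ball_self hδ, rfl⟩
  linarith

/-- Means of `|f|` over balls of radius at least `ρ` are bounded (integrable `f`). -/
theorem bddAbove_aM_set (hf : Integrable f volume) {ρ : ℝ} (hρ : 0 < ρ) (y : E d) :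
    BddAbove {A : ℝ | ∃ (c : E d) (r : ℝ), ρ ≤ r ∧ y ∈ ball c r ∧ A = ⨍ x in ball c r, |f x|} := by
  refine ⟨(∫ x, |f x|) / (om d * ρ ^ d), ?_⟩
  rintro A ⟨c, r, hr, -, rfl⟩
  exact avg_le_L1' hf c hρ hr

/-- The truncated maximal function of `|f|` is Lipschitz (integrable `f`). -/
theorem lipschitz_aM (hd : 1 ≤ d) (hf : Integrable f volume) {ρ : ℝ} (hρ : 0 < ρ) :
    ∃ L : NNReal, LipschitzWith L (aM (fun x => |f x|) ρ) := by
  set I := ∫ x, |f x| with hI
  have hI0 : 0 ≤ I := L1_nonneg f
  have homρ : 0 < om d * ρ ^ d := mul_pos (om_pos d) (pow_pos hρ d)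
  set L : ℝ := (d : ℝ) / ρ * (I / (om d * ρ ^ d)) with hL
  have hL0 : 0 ≤ L := by positivity
  refine ⟨L.toNNReal, LipschitzWith.of_le_add_mul _ fun x y => ?_⟩
  rw [Real.coe_toNNReal _ hL0]
  unfold aM
  refine csSup_le ⟨_, x, ρ, le_rfl, mem_ball_self hρ, rfl⟩ ?_
  rintro A ⟨c, r, hr, hx, rfl⟩
  have hr0 : 0 < r := lt_of_lt_of_le hρ hr
  set δ := dist x y with hδ
  have hδ0 : 0 ≤ δ := dist_nonneg
  have hy : y ∈ ball c (r + δ) := by
    rw [mem_ball] at hx ⊢
    have := dist_triangle y x c
    rw [dist_comm y x] at this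
    linarith
  have hA' : (⨍ z in ball c (r + δ), |f z|) ≤
      sSup {A : ℝ | ∃ (c : E d) (r : ℝ), ρ ≤ r ∧ y ∈ ball c r ∧ A = ⨍ x in ball c r, |f x|} :=
    le_csSup (bddAbove_aM_set hf hρ y) ⟨c, r + δ, by linarith, hy, rfl⟩
  -- comparison of the two means
  have hrδ : 0 < r + δ := by linarith
  have h1 : ∫ z in ball c r, |f z| ≤ ∫ z in ball c (r + δ), |f z| :=
    setIntegral_mono_set hf.abs.integrableOn (Eventually.of_forall fun x => abs_nonneg _)
      (ball_subset_ball (by linarith)).eventuallyLE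
  have hA1 : (⨍ z in ball c r, |f z|) * (om d * r ^ d) = ∫ z in ball c r, |f z| := by
    rw [setAverage_eq, smul_eq_mul, vol_real_ball c hr0, mul_comm, ← mul_assoc,
      mul_inv_cancel₀ (mul_pos (om_pos d) (pow_pos hr0 d)).ne', one_mul]
  have hA2 : (⨍ z in ball c (r + δ), |f z|) * (om d * (r + δ) ^ d) =
      ∫ z in ball c (r + δ), |f z| := by
    rw [setAverage_eq, smul_eq_mul, vol_real_ball c hrδ, mul_comm, ← mul_assoc,
      mul_inv_cancel₀ (mul_pos (om_pos d) (pow_pos hrδ d)).ne', one_mul]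
  set A := ⨍ z in ball c r, |f z| with hAdef
  set A' := ⨍ z in ball c (r + δ), |f z| with hA'def
  have hA0 : 0 ≤ A := avg_abs_nonneg f _
  have hAle : A ≤ I / (om d * ρ ^ d) := avg_le_L1' hf c hρ hr
  -- Bernoulli
  have hberN : r ^ d ≥ (r + δ) ^ d * (1 - d * (δ / (r + δ))) := by
    have hb := one_add_mul_le_pow (a := -(δ / (r + δ))) (by
      have : δ / (r + δ) ≤ 1 := by rw [div_le_one hrδ]; linarith
      linarith) d
    have e1 : (1 + -(δ / (r + δ))) = r / (r + δ) := by field_simp; ring
    rw [e1, div_pow] at hb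
    have hp : 0 < (r + δ) ^ d := pow_pos hrδ d
    rw [le_div_iff₀ hp] at hb
    nlinarith
  have hstep : A * (1 - d * (δ / (r + δ))) ≤ A' := by
    have hom := om_pos d
    have hp : 0 < (r + δ) ^ d := pow_pos hrδ d
    have h2 : A * (om d * r ^ d) ≤ A' * (om d * (r + δ) ^ d) := by rw [hA1, hA2]; exact h1
    have h3 : A * (om d * ((r + δ) ^ d * (1 - d * (δ / (r + δ))))) ≤ A * (om d * r ^ d) :=
      mul_le_mul_of_nonneg_left (mul_le_mul_of_nonneg_left hberN hom.le) hA0
    have h4 : (A * (1 - d * (δ / (r + δ)))) * (om d * (r + δ) ^ d) ≤ A' * (om d * (r + δ) ^ d) := by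
      calc _ = A * (om d * ((r + δ) ^ d * (1 - d * (δ / (r + δ))))) := by ring
        _ ≤ _ := h3.trans h2
    exact le_of_mul_le_mul_right h4 (mul_pos hom hp)
  have hfrac : δ / (r + δ) ≤ δ / ρ := by
    apply div_le_div_of_nonneg_left hδ0 hρ (by linarith)
  have hd0 : (0 : ℝ) ≤ d := Nat.cast_nonneg d
  have hfin : A * (d * (δ / (r + δ))) ≤ L * δ := by
    have h5 : d * (δ / (r + δ)) ≤ d * (δ / ρ) := mul_le_mul_of_nonneg_left hfrac hd0
    calc A * (d * (δ / (r + δ))) ≤ (I / (om d * ρ ^ d)) * (d * (δ / ρ)) :=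
          mul_le_mul hAle h5 (by positivity) (by positivity)
      _ = L * δ := by rw [hL]; field_simp
  nlinarith

/-- A shrinking family of balls: near a point a continuous compactly supported function has means
close to its value. -/
theorem mean_le_of_small_ball (hg : Continuous g) (y : E d) {η : ℝ} (hη : 0 < η) :
    ∃ δ > 0, ∀ (c : E d) (r : ℝ), 0 < r → r < δ → y ∈ ball c r →
      ⨍ x in ball c r, |g x| ≤ |g y| + η := by
  obtain ⟨δ, hδ, hball⟩ := Metric.continuous_iff.1 hg y η hη
  refine ⟨δ / 2, by positivity, fun c r hr hrδ hyc => ?_⟩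
  refine avg_le_of_le measurableSet_ball (ball_real_pos c hr) (cont_integrableOn hg c r) ?_
  intro z hz
  have hzy : dist z y < δ := by
    rw [mem_ball] at hz hyc
    have := dist_triangle_right z y c
    linarith
  have h2 := hball z hzy
  rw [Real.dist_eq] at h2
  have h3 := abs_sub_abs_le_abs_sub (g z) (g y)
  linarith

end ValeP137
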