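import Vale.Agent.Lib.P137W.Evar
import Vale.Agent.Lib.P137W.LineFubini
import Vale.Agent.Lib.P137W.MaxFacts

/-! Capacity estimate: supremum of `Mtilde g` over lines. -/

open MeasureTheory Metric Set Filter Topology
open scoped ENNReal RealInnerProductSpace ContDiff

noncomputable section

namespace ValeP137

variable {d : ℕ} {g : E d → ℝ} {e : E d} {K : ℝ}

/-- Continuity of `Mtilde g` for `C^1_c` functions. -/
theorem continuous_Mtilde_of_cs (hg : ContDiff ℝ 1 g) (hgc : HasCompactSupport g) :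
    Continuous (Mtilde g) := by
  obtain ⟨L, hL⟩ := lipschitz_Mtilde hg hgc
  exact hL.continuous

/-- The integrand of the quotient `n` along the line is measurable jointly. -/
theorem measurable_dq (hg : ContDiff ℝ 1 g) (hgc : HasCompactSupport g) (e : E d) (h : ℝ) :
    Measurable (fun p : E d × ℝ =>
      ‖Mtilde g (p.1 + (p.2 + h) • e) - Mtilde g (p.1 + p.2 • e)‖ₑ) := by
  have hc := continuous_Mtilde_of_cs hg hgc
  have : Continuous (fun p : E d × ℝ =>
      ‖Mtilde g (p.1 + (p.2 + h) • e) - Mtilde g (p.1 + p.2 • e)‖ₑ) := by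
    apply Continuous.enorm
    fun_prop
  exact this.measurable

/-- The terms of `capL` as functions of `x` are measurable. -/
theorem measurable_capL_term (hg : ContDiff ℝ 1 g) (hgc : HasCompactSupport g) (e : E d) (n : ℕ) :
    Measurable (fun x : E d => ENNReal.ofReal ((n : ℝ) + 1) *
      ∫⁻ s : ℝ, ‖Mtilde g (x + (s + ((n : ℝ) + 1)⁻¹) • e) - Mtilde g (x + s • e)‖ₑ) := by
  apply Measurable.const_mul
  exact (measurable_dq hg hgc e _).lintegral_prod_right'

theorem measurable_capL (hg : ContDiff ℝ 1 g) (hgc : HasCompactSupport g) (e : E d) :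
    Measurable (capL g e) := by
  unfold capL
  exact Measurable.liminf (fun n => measurable_capL_term hg hgc e n)

/-- Variation on lines is bounded by `capL` as well. -/
theorem evar_le_capL (hg : ContDiff ℝ 1 g) (hgc : HasCompactSupport g) (e x : E d) :
    eVariationOn (fun s : ℝ => Mtilde g (x + s • e)) univ ≤ capL g e x := by
  have hc := continuous_Mtilde_of_cs hg hgc
  have hw : Continuous (fun s : ℝ => Mtilde g (x + s • e)) := by fun_prop
  exact Vale.Agent.Lib.P137W.evar_le_of_dq hw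

/-- The supremum over a line is bounded by `capL`. -/
theorem Mtilde_le_capL (hd : 1 ≤ d) (hg : ContDiff ℝ 1 g) (hgc : HasCompactSupport g)
    (he : ‖e‖ = 1) (x : E d) (s : ℝ) :
    ENNReal.ofReal (Mtilde g (x + s • e)) ≤ capL g e x := by
  have h0 := tendsto_Mtilde_line hd hg.continuous hgc he x
  have h1 := Vale.Agent.Lib.P137W.abs_le_evar_of_tendsto h0 s
  have h2 := evar_le_capL hg hgc e x
  calc ENNReal.ofReal (Mtilde g (x + s • e))
      ≤ ENNReal.ofReal |Mtilde g (x + s • e)| := ENNReal.ofReal_le_ofReal (le_abs_self _)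
    _ ≤ _ := h1
    _ ≤ _ := h2

/-- The capacity estimate. -/
theorem cap_bound (hK : BVc d K) (hK0 : 0 ≤ K) (hg : ContDiff ℝ 1 g) (hgc : HasCompactSupport g)
    (he : ‖e‖ = 1) :
    ∫⁻ x, lineW e x * capL g e x ≤ ENNReal.ofReal (Real.pi * K) * ∫⁻ w, ‖gradient g w‖ₑ := by
  have hc := continuous_Mtilde_of_cs hg hgc
  set a : ℕ → E d → ℝ≥0∞ := fun n x => ENNReal.ofReal ((n : ℝ) + 1) *
      ∫⁻ s : ℝ, ‖Mtilde g (x + (s + ((n : ℝ) + 1)⁻¹) • e) - Mtilde g (x + s • e)‖ₑ with ha
  have hmeas : ∀ n, Measurable (a n) := fun n => measurable_capL_term hg hgc e n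
  -- pull the weight into the lower limit
  have hpull : ∀ x, lineW e x * capL g e x = liminf (fun n => lineW e x * a n x) atTop := by
    intro x
    unfold capL
    exact (ENNReal.liminf_const_mul_of_ne_top (lineW_ne_top e x)).symm
  have hmeas2 : ∀ n, Measurable (fun x => lineW e x * a n x) := fun n =>
    (measurable_lineW e).mul (hmeas n)
  -- the bound of a single term
  have hterm : ∀ n : ℕ, ∫⁻ x, lineW e x * a n x
      ≤ ENNReal.ofReal (Real.pi * K) * ∫⁻ w, ‖gradient g w‖ₑ := by
    intro n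
    set h : ℝ := ((n : ℝ) + 1)⁻¹ with hh
    have hn : (0 : ℝ) < (n : ℝ) + 1 := by positivity
    have hhpos : 0 < h := by positivity
    set F : E d → ℝ≥0∞ := fun y => ‖Mtilde g (y + h • e) - Mtilde g y‖ₑ with hF
    have hFm : Measurable F := by
      have : Continuous F := by
        apply Continuous.enorm
        fun_prop
      exact this.measurable
    have hrw : ∀ x, lineW e x * a n x
        = ENNReal.ofReal ((n : ℝ) + 1) * (lineW e x * ∫⁻ s : ℝ, F (x + s • e)) := by
      intro x
      have hthis : (∫⁻ s : ℝ, ‖Mtilde g (x + (s + ((n : ℝ) + 1)⁻¹) • e) - Mtilde g (x + s • e)‖ₑ)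
          = ∫⁻ s : ℝ, F (x + s • e) := by
        refine lintegral_congr (fun s => ?_)
        simp only [hF, add_smul, add_assoc, hh]
      have hthis2 : a n x = ENNReal.ofReal ((n : ℝ) + 1) * ∫⁻ s : ℝ, F (x + s • e) := by
        simp only [ha]
        rw [hthis]
      rw [hthis2]
      ring
    simp_rw [hrw]
    rw [lintegral_const_mul' _ _ ENNReal.ofReal_ne_top, line_fubini he hFm]
    have hb := hK g hg hgc (h • e)
    have hnorm : ‖h • e‖ = h := by
      rw [norm_smul, he, mul_one, Real.norm_of_nonneg hhpos.le]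
    rw [hnorm] at hb
    have hb2 : ∫⁻ y, F y ≤ ENNReal.ofReal (K * h) * ∫⁻ w, ‖gradient g w‖ₑ := hb
    calc ENNReal.ofReal ((n : ℝ) + 1) * (ENNReal.ofReal Real.pi * ∫⁻ y, F y)
        ≤ ENNReal.ofReal ((n : ℝ) + 1) * (ENNReal.ofReal Real.pi *
            (ENNReal.ofReal (K * h) * ∫⁻ w, ‖gradient g w‖ₑ)) := by gcongr
      _ = ENNReal.ofReal (((n : ℝ) + 1) * (Real.pi * (K * h))) * ∫⁻ w, ‖gradient g w‖ₑ := by
          rw [ENNReal.ofReal_mul hn.le, ENNReal.ofReal_mul Real.pi_pos.le]
          ring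
      _ = ENNReal.ofReal (Real.pi * K) * ∫⁻ w, ‖gradient g w‖ₑ := by
          congr 2
          rw [hh]
          field_simp
  calc ∫⁻ x, lineW e x * capL g e x
      = ∫⁻ x, liminf (fun n => lineW e x * a n x) atTop := by simp_rw [hpull]
    _ ≤ liminf (fun n => ∫⁻ x, lineW e x * a n x) atTop := lintegral_liminf_le hmeas2
    _ ≤ ENNReal.ofReal (Real.pi * K) * ∫⁻ w, ‖gradient g w‖ₑ := by
        refine liminf_le_of_frequently_le' (Frequently.of_forall hterm)

end ValeP137
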