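import Vale.Agent.Lib.P137W.Basic

/-! Density of smooth compactly supported functions in weak `W^{1,1}`. -/

open MeasureTheory Metric Set Filter Topology
open scoped ENNReal RealInnerProductSpace ContDiff Convolution Pointwise

set_option linter.unusedSectionVars false

noncomputable section

namespace ValeP137

variable {d : ℕ} {f : E d → ℝ} {G : E d → E d}

section moll

variable {F : Type*} [NormedAddCommGroup F] [NormedSpace ℝ F] [CompleteSpace F]

/-- Mollification. -/
def molD (φ : ContDiffBump (0 : E d)) (h : E d → F) : E d → F :=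
  (φ.normed volume) ⋆[ContinuousLinearMap.lsmul ℝ ℝ, volume] h

theorem molD_apply (φ : ContDiffBump (0 : E d)) (h : E d → F) (x : E d) :
    molD φ h x = ∫ t, φ.normed volume t • h (x - t) := by
  unfold molD
  rw [convolution_lsmul]

theorem molD_hcs (φ : ContDiffBump (0 : E d)) : HasCompactSupport (φ.normed volume) :=
  φ.hasCompactSupport_normed

theorem lintegral_normed (φ : ContDiffBump (0 : E d)) :
    ∫⁻ t, ‖φ.normed volume t‖ₑ = 1 := by
  have h1 : ∀ t, ‖φ.normed volume t‖ₑ = ENNReal.ofReal (φ.normed volume t) := fun t =>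
    Real.enorm_eq_ofReal (φ.nonneg_normed t)
  simp only [h1]
  rw [← ofReal_integral_eq_lintegral_ofReal φ.integrable_normed
    (Eventually.of_forall φ.nonneg_normed), φ.integral_normed]
  simp

/-- Young's inequality for the mollifier. -/
theorem molD_young (φ : ContDiffBump (0 : E d)) {h : E d → F}
    (hh : AEStronglyMeasurable h volume) :
    ∫⁻ x, ‖molD φ h x‖ₑ ≤ ∫⁻ x, ‖h x‖ₑ := by
  have hm : AEMeasurable (Function.uncurry fun (x t : E d) => ‖φ.normed volume t • h (x - t)‖ₑ)
      ((volume : Measure (E d)).prod (volume : Measure (E d))) := by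
    have h0 : AEStronglyMeasurable (φ.normed volume) (volume : Measure (E d)) :=
      (φ.continuous_normed (μ := volume)).aestronglyMeasurable
    have := h0.convolution_integrand (ContinuousLinearMap.lsmul ℝ ℝ) hh
    exact this.enorm
  calc ∫⁻ x, ‖molD φ h x‖ₑ
      ≤ ∫⁻ x, ∫⁻ t, ‖φ.normed volume t • h (x - t)‖ₑ := by
        refine lintegral_mono fun x => ?_
        rw [molD_apply]
        exact enorm_integral_le_lintegral_enorm _
    _ = ∫⁻ t, ∫⁻ x, ‖φ.normed volume t • h (x - t)‖ₑ := lintegral_lintegral_swap hm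
    _ = ∫⁻ t, ‖φ.normed volume t‖ₑ * ∫⁻ x, ‖h x‖ₑ := by
        refine lintegral_congr fun t => ?_
        simp only [enorm_smul]
        rw [lintegral_const_mul' _ _ enorm_ne_top,
          lintegral_sub_right_eq_self (fun x => ‖h x‖ₑ) t]
    _ = ∫⁻ x, ‖h x‖ₑ := by
        rw [lintegral_mul_const _ φ.continuous_normed.measurable.enorm, lintegral_normed, one_mul]

theorem molD_exists (φ : ContDiffBump (0 : E d)) {h : E d → F} (hh : LocallyIntegrable h volume) :
    ConvolutionExists (φ.normed volume) h (ContinuousLinearMap.lsmul ℝ ℝ) volume :=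
  (molD_hcs φ).convolutionExists_left _ φ.continuous_normed hh

/-- Mollification of a continuous compactly supported function. -/
theorem molD_cont_close {h : E d → F} (hc : Continuous h) (hcs : HasCompactSupport h) {ε : ℝ}
    (hε : 0 < ε) :
    ∃ δ > 0, ∀ φ : ContDiffBump (0 : E d), φ.rOut < δ →
      ∫⁻ x, ‖molD φ h x - h x‖ₑ ≤ ENNReal.ofReal ε := by
  set K : Set (E d) := tsupport h + closedBall (0 : E d) 1 with hK
  have hKc : IsCompact K := hcs.isCompact.add (isCompact_closedBall _ _)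
  set V : ℝ≥0∞ := volume K with hV
  have hVt : V ≠ ⊤ := hKc.measure_lt_top.ne
  set η : ℝ := ε / (V.toReal + 1) with hη
  have hVr : 0 ≤ V.toReal := ENNReal.toReal_nonneg
  have hηpos : 0 < η := by positivity
  have hU : UniformContinuous h := hcs.uniformContinuous_of_continuous hc
  obtain ⟨δ₀, hδ₀, hδ⟩ := Metric.uniformContinuous_iff.1 hU η hηpos
  refine ⟨min δ₀ 1, lt_min hδ₀ one_pos, fun φ hφ => ?_⟩
  have hφ₀ : φ.rOut < δ₀ := hφ.trans_le (min_le_left _ _)
  have hφ₁ : φ.rOut < 1 := hφ.trans_le (min_le_right _ _)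
  have hpt : ∀ x, ‖molD φ h x - h x‖ₑ ≤ K.indicator (fun _ => ENNReal.ofReal η) x := by
    intro x
    by_cases hx : x ∈ K
    · rw [indicator_of_mem hx, ← ofReal_norm]
      apply ENNReal.ofReal_le_ofReal
      rw [← dist_eq_norm]
      apply ContDiffBump.dist_normed_convolution_le hc.aestronglyMeasurable
      intro y hy
      have hy' : dist y x < δ₀ := (mem_ball.1 hy).trans hφ₀
      exact (hδ hy').le
    · rw [indicator_of_notMem hx]
      have hzero : ∀ y ∈ ball x φ.rOut, h y = 0 := by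
        intro y hy
        by_contra hne
        apply hx
        refine ⟨y, subset_tsupport _ hne, x - y, ?_, by simp⟩
        rw [mem_closedBall, dist_zero_right, ← dist_eq_norm, dist_comm]
        exact ((mem_ball.1 hy).trans hφ₁).le
      have hxzero : h x = 0 := hzero x (mem_ball_self φ.rOut_pos)
      have : molD φ h x = h x := ContDiffBump.normed_convolution_eq_right (fun y hy => by
        rw [hzero y hy, hxzero])
      rw [this]
      simp
  calc ∫⁻ x, ‖molD φ h x - h x‖ₑ
      ≤ ∫⁻ x, K.indicator (fun _ => ENNReal.ofReal η) x := lintegral_mono hpt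
    _ = ENNReal.ofReal η * V := by
        rw [lintegral_indicator hKc.measurableSet, setLIntegral_const]
    _ = ENNReal.ofReal (η * V.toReal) := by
        rw [ENNReal.ofReal_mul hηpos.le, ENNReal.ofReal_toReal hVt]
    _ ≤ ENNReal.ofReal ε := by
        apply ENNReal.ofReal_le_ofReal
        rw [hη, div_mul_eq_mul_div, div_le_iff₀ (by positivity)]
        nlinarith

/-- `L^1` convergence of the mollifications. -/
theorem molD_close {h : E d → F} (hh : Integrable h volume) {ε : ℝ} (hε : 0 < ε) :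
    ∃ δ > 0, ∀ φ : ContDiffBump (0 : E d), φ.rOut < δ →
      ∫⁻ x, ‖molD φ h x - h x‖ₑ ≤ ENNReal.ofReal ε := by
  have hε3 : 0 < ε / 3 := by positivity
  obtain ⟨g, hgcs, hgclose, hgc, hgi⟩ := hh.exists_hasCompactSupport_lintegral_sub_le
    (ε := ENNReal.ofReal (ε / 3)) (by simpa using hε3)
  obtain ⟨δ, hδ, hδφ⟩ := molD_cont_close hgc hgcs hε3
  refine ⟨δ, hδ, fun φ hφ => ?_⟩
  have hg3 := hδφ φ hφ
  have hsub : Integrable (fun x => h x - g x) volume := hh.sub hgi
  have hdecomp : ∀ x, molD φ h x - h x =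
      molD φ (fun y => h y - g y) x + (molD φ g x - g x) + (g x - h x) := by
    intro x
    have e1 : molD φ h x = molD φ (fun y => h y - g y) x + molD φ g x := by
      have h1 := (molD_exists φ hsub.locallyIntegrable x).distrib_add
        (molD_exists φ hgi.locallyIntegrable x)
      have h2 : (fun y => h y - g y) + g = h := by
        funext y
        simp
      rw [h2] at h1
      exact h1
    rw [e1]
    abel
  have hm1 : AEMeasurable (fun x => ‖molD φ (fun y => h y - g y) x‖ₑ) volume := by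
    have hcont : Continuous (molD φ (fun y => h y - g y)) :=
      (molD_hcs φ).continuous_convolution_left _ φ.continuous_normed hsub.locallyIntegrable
    exact hcont.aestronglyMeasurable.enorm
  have hm2 : AEMeasurable (fun x => ‖molD φ g x - g x‖ₑ) volume := by
    have hcont : Continuous (molD φ g) :=
      (molD_hcs φ).continuous_convolution_left _ φ.continuous_normed hgi.locallyIntegrable
    exact (hcont.sub hgc).aestronglyMeasurable.enorm
  calc ∫⁻ x, ‖molD φ h x - h x‖ₑ
      ≤ ∫⁻ x, (‖molD φ (fun y => h y - g y) x‖ₑ + ‖molD φ g x - g x‖ₑ + ‖g x - h x‖ₑ) := by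
        refine lintegral_mono fun x => ?_
        rw [hdecomp x]
        exact (enorm_add_le _ _).trans (add_le_add (enorm_add_le _ _) le_rfl)
    _ = (∫⁻ x, ‖molD φ (fun y => h y - g y) x‖ₑ) + (∫⁻ x, ‖molD φ g x - g x‖ₑ) +
          ∫⁻ x, ‖g x - h x‖ₑ := by
        have hm12 : AEMeasurable
            (fun x => ‖molD φ (fun y => h y - g y) x‖ₑ + ‖molD φ g x - g x‖ₑ) volume := hm1.add hm2
        rw [lintegral_add_left' hm12, lintegral_add_left' hm1]
    _ ≤ ENNReal.ofReal (ε / 3) + ENNReal.ofReal (ε / 3) + ENNReal.ofReal (ε / 3) := by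
        refine add_le_add (add_le_add ?_ hg3) ?_
        · exact (molD_young φ hsub.aestronglyMeasurable).trans hgclose
        · simpa only [enorm_sub_rev] using hgclose
    _ = ENNReal.ofReal ε := by
        rw [← ENNReal.ofReal_add hε3.le hε3.le, ← ENNReal.ofReal_add (by positivity) hε3.le]
        congr 1
        ring

end moll

/-- Smoothness of a mollification. -/
theorem molD_contDiff (φ : ContDiffBump (0 : E d)) (hf : LocallyIntegrable f volume) :
    ContDiff ℝ ∞ (molD φ f) :=
  (molD_hcs φ).contDiff_convolution_left (n := ⊤) _ φ.contDiff_normed hf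

/-- The gradient of a mollification is the mollification of the weak gradient. -/
theorem molD_hasGradient (φ : ContDiffBump (0 : E d)) (hw : IsWeakGrad f G) (x : E d) :
    HasGradientAt (molD φ f) (molD φ G x) x := by
  rw [hasGradientAt_iff_hasFDerivAt]
  set ρ : E d → ℝ := φ.normed volume with hρ
  have hsm : ContDiff ℝ ∞ ρ := φ.contDiff_normed (n := ⊤)
  have hsm1 : ContDiff ℝ 1 ρ := hsm.of_le (by simp)
  have hdiff : Differentiable ℝ ρ := hsm1.differentiable (by simp)
  have hD := (molD_hcs φ).hasFDerivAt_convolution_left (ContinuousLinearMap.lsmul ℝ ℝ)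
    hsm1 hw.locInt_u x
  have hex := ((molD_hcs φ).fderiv ℝ).convolutionExists_left
    (ContinuousLinearMap.precompL (E d) (ContinuousLinearMap.lsmul ℝ ℝ))
    (hsm1.continuous_fderiv (by simp)) hw.locInt_u x
  have hint1 := hex.integrable_swap
  have hint2 := (molD_exists φ hw.locInt_G x).integrable_swap
  set ψ : E d → ℝ := fun y => ρ (x - y) with hψ
  have hψs : ContDiff ℝ ∞ ψ := hsm.comp (contDiff_const.sub contDiff_id)
  have hψc : HasCompactSupport ψ := (molD_hcs φ).comp_homeomorph (Homeomorph.subLeft x)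
  have hψd : ∀ v y, fderiv ℝ ψ y v = - fderiv ℝ ρ (x - y) v := by
    intro v y
    have h1 : HasFDerivAt ρ (fderiv ℝ ρ (x - y)) (x - y) := (hdiff (x - y)).hasFDerivAt
    have h2 : HasFDerivAt (fun y : E d => x - y) (-ContinuousLinearMap.id ℝ (E d)) y :=
      (hasFDerivAt_id y).const_sub x
    have h3 := h1.comp y h2
    rw [show ψ = ρ ∘ (fun y => x - y) from rfl, h3.fderiv]
    simp
  have key : (InnerProductSpace.toDual ℝ (E d)) (molD φ G x) =
      ((fderiv ℝ ρ ⋆[ContinuousLinearMap.precompL (E d) (ContinuousLinearMap.lsmul ℝ ℝ), volume] f) x) := by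
    ext v
    rw [convolution_eq_swap, ContinuousLinearMap.integral_apply hint1 v]
    rw [InnerProductSpace.toDual_apply_apply]
    unfold molD
    rw [convolution_eq_swap, real_inner_comm, ← integral_inner hint2 v]
    have hibp := hw.ibp ψ hψs hψc v
    simp only [hψd] at hibp
    have e1 : ∫ t, ((ContinuousLinearMap.precompL (E d) (ContinuousLinearMap.lsmul ℝ ℝ))
        (fderiv ℝ ρ (x - t)) (f t)) v = - ∫ t, f t * - fderiv ℝ ρ (x - t) v := by
      rw [← integral_neg]
      refine integral_congr_ae (Eventually.of_forall fun t => ?_)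
      simp only [ContinuousLinearMap.precompL_apply, ContinuousLinearMap.lsmul_apply, smul_eq_mul]
      ring
    rw [e1, hibp, neg_neg]
    refine integral_congr_ae (Eventually.of_forall fun t => ?_)
    simp only [ContinuousLinearMap.lsmul_apply, hψ]
    rw [real_inner_smul_right, real_inner_comm]
  rw [key]
  exact hD

/-- The basic cut-off. -/
def chiOne (d : ℕ) : ContDiffBump (0 : E d) := ⟨1, 2, one_pos, by norm_num⟩

/-- The cut-off at scale `R`. -/
def chiD (R : ℝ) (x : E d) : ℝ := chiOne d (R⁻¹ • x)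

theorem chiD_contDiff (R : ℝ) : ContDiff ℝ ∞ (chiD (d := d) R) := by
  have h : ContDiff ℝ ∞ (fun x : E d => R⁻¹ • x) := contDiff_id.const_smul R⁻¹
  exact (chiOne d).contDiff.comp h

theorem chiD_nonneg (R : ℝ) (x : E d) : 0 ≤ chiD R x := (chiOne d).nonneg

theorem chiD_le_one (R : ℝ) (x : E d) : chiD R x ≤ 1 := (chiOne d).le_one

theorem chiD_eq_one {R : ℝ} (hR : 0 < R) {x : E d} (hx : ‖x‖ ≤ R) : chiD R x = 1 := by
  apply (chiOne d).one_of_mem_closedBall
  rw [mem_closedBall, dist_zero_right, norm_smul, Real.norm_of_nonneg (by positivity)]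
  change R⁻¹ * ‖x‖ ≤ 1
  rw [inv_mul_le_iff₀ hR]
  simpa using hx

theorem chiD_eq_zero {R : ℝ} (hR : 0 < R) {x : E d} (hx : 2 * R ≤ ‖x‖) : chiD R x = 0 := by
  apply (chiOne d).zero_of_le_dist
  rw [dist_zero_right, norm_smul, Real.norm_of_nonneg (by positivity)]
  change 2 ≤ R⁻¹ * ‖x‖
  rw [le_inv_mul_iff₀ hR]
  linarith

theorem chiD_hcs {R : ℝ} (hR : 0 < R) : HasCompactSupport (chiD (d := d) R) := by
  refine HasCompactSupport.intro (isCompact_closedBall (0 : E d) (2 * R)) fun x hx => ?_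
  apply chiD_eq_zero hR
  rw [mem_closedBall, dist_zero_right, not_le] at hx
  exact hx.le

/-- Uniform bound of the gradient of the cut-off. -/
theorem exists_chi_bound (d : ℕ) : ∃ C : ℝ, 0 ≤ C ∧ ∀ R : ℝ, 0 < R → ∀ x : E d,
    ‖gradient (chiD R) x‖ ≤ C * R⁻¹ := by
  have hc : Continuous (fderiv ℝ (chiOne d)) :=
    ((chiOne d).contDiff (n := 1)).continuous_fderiv (by simp)
  have hcs : HasCompactSupport (fderiv ℝ (chiOne d)) :=
    (chiOne d).hasCompactSupport.fderiv ℝ
  obtain ⟨C, hC⟩ := hc.bounded_above_of_compact_support hcs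
  refine ⟨max C 0, le_max_right _ _, fun R hR x => ?_⟩
  have h1 : fderiv ℝ (chiD (d := d) R) x = R⁻¹ • fderiv ℝ (chiOne d) (R⁻¹ • x) :=
    fderiv_comp_smul (f := chiOne d) R⁻¹
  unfold gradient
  rw [LinearIsometryEquiv.norm_map, h1, norm_smul, Real.norm_of_nonneg (by positivity), mul_comm]
  exact mul_le_mul_of_nonneg_right ((hC _).trans (le_max_left _ _)) (by positivity)

section tail

variable {F : Type*} [NormedAddCommGroup F] [NormedSpace ℝ F]

/-- The tail integrals vanish in the limit. -/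
theorem tail_tendsto {g : E d → F} (hg : Integrable g volume) :
    Tendsto (fun n : ℕ => ∫⁻ x, ‖(1 - chiD ((n : ℝ) + 1) x) • g x‖ₑ) atTop (𝓝 0) := by
  have hfin : ∫⁻ x, ‖g x‖ₑ ≠ ⊤ := hg.2.ne
  have hmeas : ∀ n : ℕ, AEMeasurable (fun x => ‖(1 - chiD ((n : ℝ) + 1) x) • g x‖ₑ) volume := by
    intro n
    have hcont : Continuous (fun x : E d => 1 - chiD ((n : ℝ) + 1) x) :=
      continuous_const.sub (chiD_contDiff _).continuous
    exact (hcont.aestronglyMeasurable.smul hg.aestronglyMeasurable).enorm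
  have hbound : ∀ n : ℕ, (fun x => ‖(1 - chiD ((n : ℝ) + 1) x) • g x‖ₑ) ≤ᵐ[volume]
      fun x => ‖g x‖ₑ := by
    intro n
    refine Eventually.of_forall fun x => ?_
    simp only
    rw [enorm_smul]
    have h1 : ‖1 - chiD ((n : ℝ) + 1) x‖ₑ ≤ 1 := by
      rw [Real.enorm_eq_ofReal (by linarith [chiD_le_one ((n : ℝ) + 1) x])]
      rw [← ENNReal.ofReal_one]
      apply ENNReal.ofReal_le_ofReal
      linarith [chiD_nonneg ((n : ℝ) + 1) x]
    calc _ ≤ 1 * ‖g x‖ₑ := by gcongr
      _ = _ := one_mul _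
  have hlim : ∀ᵐ x : E d, Tendsto (fun n : ℕ => ‖(1 - chiD ((n : ℝ) + 1) x) • g x‖ₑ) atTop
      (𝓝 0) := by
    refine Eventually.of_forall fun x => ?_
    refine tendsto_const_nhds.congr' ?_
    filter_upwards [eventually_ge_atTop ⌈‖x‖⌉₊] with n hn
    have h1 : ‖x‖ ≤ (n : ℝ) + 1 := by
      have h2 : ‖x‖ ≤ n := (Nat.le_ceil _).trans (by exact_mod_cast hn)
      linarith
    rw [chiD_eq_one (by positivity) h1]
    simp
  have := tendsto_lintegral_of_dominated_convergence' _ hmeas hbound hfin hlim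
  simpa using this

end tail

/-- Mollification plus cut-off: the main approximation. -/
theorem exists_close (hf : Integrable f volume) (hG : Integrable G volume) (hw : IsWeakGrad f G)
    {ε : ℝ} (hε : 0 < ε) :
    ∃ F : E d → ℝ, ContDiff ℝ ∞ F ∧ HasCompactSupport F ∧
      ∫⁻ x, ‖f x - F x‖ₑ ≤ ENNReal.ofReal ε ∧ ∫⁻ x, ‖gradient F x - G x‖ₑ ≤ ENNReal.ofReal ε := by
  have hε3 : 0 < ε / 3 := by positivity
  obtain ⟨δ₁, hδ₁, h1⟩ := molD_close hf hε3
  obtain ⟨δ₂, hδ₂, h2⟩ := molD_close hG hε3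
  set δ : ℝ := min δ₁ δ₂ with hδ
  have hδpos : 0 < δ := lt_min hδ₁ hδ₂
  let φ : ContDiffBump (0 : E d) := ⟨δ / 4, δ / 2, by positivity, by linarith⟩
  have hφr : φ.rOut < δ := by
    change δ / 2 < δ
    linarith
  have hφ1 := h1 φ (hφr.trans_le (min_le_left _ _))
  have hφ2 := h2 φ (hφr.trans_le (min_le_right _ _))
  obtain ⟨C, hC0, hC⟩ := exists_chi_bound d
  set m : E d → ℝ := molD φ f with hm
  have hmG : ∀ x, HasGradientAt m (molD φ G x) x := molD_hasGradient φ hw
  have hmc : Continuous m := (molD_contDiff φ hw.locInt_u).continuous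
  have hMG : Continuous (molD φ G) :=
    (molD_hcs φ).continuous_convolution_left _ φ.continuous_normed hw.locInt_G
  set A : ℝ≥0∞ := ∫⁻ x, ‖f x‖ₑ with hA
  have hAt : A ≠ ⊤ := hf.2.ne
  have hgrad : Tendsto (fun n : ℕ => ENNReal.ofReal (C * ((n : ℝ) + 1)⁻¹) * A) atTop (𝓝 0) := by
    have h3 : Tendsto (fun n : ℕ => C * ((n : ℝ) + 1)⁻¹) atTop (𝓝 0) := by
      have h4 : Tendsto (fun n : ℕ => ((n : ℝ) + 1)⁻¹) atTop (𝓝 0) := by
        have := tendsto_one_div_add_atTop_nhds_zero_nat (𝕜 := ℝ)
        simpa only [one_div] using this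
      simpa using h4.const_mul C
    have h5 := (ENNReal.continuous_ofReal.tendsto _).comp h3
    simp only [ENNReal.ofReal_zero] at h5
    have h6 := ENNReal.Tendsto.mul_const (b := A) h5 (Or.inr hAt)
    simpa using h6
  have hpos3 : (0 : ℝ≥0∞) < ENNReal.ofReal (ε / 3) := by simpa using hε3
  have hev := ((tail_tendsto hf).eventually (gt_mem_nhds hpos3)).and
    (((tail_tendsto hG).eventually (gt_mem_nhds hpos3)).and (hgrad.eventually (gt_mem_nhds hpos3)))
  obtain ⟨n, hn1, hn2, hn3⟩ := hev.exists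
  set R : ℝ := (n : ℝ) + 1 with hR
  have hRpos : 0 < R := by positivity
  set χ : E d → ℝ := chiD R with hχ
  have hχs : ContDiff ℝ ∞ χ := chiD_contDiff R
  have hχd : Differentiable ℝ χ := (hχs.of_le (by simp) : ContDiff ℝ 1 χ).differentiable (by simp)
  have hχc : Continuous χ := hχs.continuous
  have hχ0 : ∀ x, 0 ≤ χ x := chiD_nonneg R
  have hχ1 : ∀ x, χ x ≤ 1 := chiD_le_one R
  have hχn : ∀ x, ‖χ x‖ₑ ≤ 1 := by
    intro x
    rw [Real.enorm_eq_ofReal (hχ0 x), ← ENNReal.ofReal_one]
    exact ENNReal.ofReal_le_ofReal (hχ1 x)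
  have hgradF : ∀ x, gradient (fun y => χ y * m y) x =
      χ x • molD φ G x + m x • gradient χ x := by
    intro x
    have hχ' : HasFDerivAt χ (fderiv ℝ χ x) x := (hχd x).hasFDerivAt
    have hm' : HasFDerivAt m ((InnerProductSpace.toDual ℝ (E d)) (molD φ G x)) x :=
      hasGradientAt_iff_hasFDerivAt.1 (hmG x)
    have hprod := hχ'.mul hm'
    have : HasGradientAt (fun y => χ y * m y) (χ x • molD φ G x + m x • gradient χ x) x := by
      rw [hasGradientAt_iff_hasFDerivAt]
      have key : (InnerProductSpace.toDual ℝ (E d)) (χ x • molD φ G x + m x • gradient χ x) =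
          χ x • (InnerProductSpace.toDual ℝ (E d)) (molD φ G x) + m x • fderiv ℝ χ x := by
        ext v
        simp [gradient, InnerProductSpace.toDual_apply_apply]
      rw [key]
      exact hprod
    exact this.gradient
  refine ⟨fun y => χ y * m y, hχs.mul (molD_contDiff φ hw.locInt_u),
    (chiD_hcs hRpos).mul_right, ?_, ?_⟩
  · have hpt : ∀ x, ‖f x - χ x * m x‖ₑ ≤ ‖(1 - χ x) • f x‖ₑ + ‖m x - f x‖ₑ := by
      intro x
      have e : f x - χ x * m x = (1 - χ x) • f x - χ x * (m x - f x) := by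
        simp only [smul_eq_mul]
        ring
      rw [e]
      refine (enorm_sub_le).trans (add_le_add le_rfl ?_)
      rw [enorm_mul]
      calc _ ≤ 1 * ‖m x - f x‖ₑ := by gcongr; exact hχn x
        _ = _ := one_mul _
    have hm1 : AEMeasurable (fun x => ‖(1 - χ x) • f x‖ₑ) volume :=
      (((continuous_const.sub hχc).aestronglyMeasurable).smul hf.aestronglyMeasurable).enorm
    calc ∫⁻ x, ‖f x - χ x * m x‖ₑ
        ≤ ∫⁻ x, (‖(1 - χ x) • f x‖ₑ + ‖m x - f x‖ₑ) := lintegral_mono hpt
      _ = (∫⁻ x, ‖(1 - χ x) • f x‖ₑ) + ∫⁻ x, ‖m x - f x‖ₑ := lintegral_add_left' hm1 _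
      _ ≤ ENNReal.ofReal (ε / 3) + ENNReal.ofReal (ε / 3) := add_le_add hn1.le hφ1
      _ ≤ ENNReal.ofReal ε := by
          rw [← ENNReal.ofReal_add hε3.le hε3.le]
          exact ENNReal.ofReal_le_ofReal (by linarith)
  · have hpt : ∀ x, ‖gradient (fun y => χ y * m y) x - G x‖ₑ ≤
        ‖(1 - χ x) • G x‖ₑ + ‖molD φ G x - G x‖ₑ + ENNReal.ofReal (C * R⁻¹) * ‖m x‖ₑ := by
      intro x
      rw [hgradF]
      have e : χ x • molD φ G x + m x • gradient χ x - G x =
          χ x • (molD φ G x - G x) - (1 - χ x) • G x + m x • gradient χ x := by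
        simp only [smul_sub, sub_smul, one_smul]
        abel
      rw [e]
      refine (enorm_add_le _ _).trans (add_le_add ?_ ?_)
      · refine (enorm_sub_le).trans ?_
        rw [add_comm]
        refine add_le_add le_rfl ?_
        rw [enorm_smul]
        calc _ ≤ 1 * ‖molD φ G x - G x‖ₑ := by gcongr; exact hχn x
          _ = _ := one_mul _
      · rw [enorm_smul, mul_comm]
        gcongr
        rw [← ofReal_norm]
        exact ENNReal.ofReal_le_ofReal (hC R hRpos x)
    have hm1 : AEMeasurable (fun x => ‖(1 - χ x) • G x‖ₑ) volume :=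
      (((continuous_const.sub hχc).aestronglyMeasurable).smul hG.aestronglyMeasurable).enorm
    have hm2 : AEMeasurable (fun x => ‖molD φ G x - G x‖ₑ) volume :=
      (hMG.aestronglyMeasurable.sub hG.aestronglyMeasurable).enorm
    have hm12 : AEMeasurable (fun x => ‖(1 - χ x) • G x‖ₑ + ‖molD φ G x - G x‖ₑ) volume :=
      hm1.add hm2
    calc ∫⁻ x, ‖gradient (fun y => χ y * m y) x - G x‖ₑ
        ≤ ∫⁻ x, (‖(1 - χ x) • G x‖ₑ + ‖molD φ G x - G x‖ₑ + ENNReal.ofReal (C * R⁻¹) * ‖m x‖ₑ) :=
          lintegral_mono hpt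
      _ = (∫⁻ x, ‖(1 - χ x) • G x‖ₑ) + (∫⁻ x, ‖molD φ G x - G x‖ₑ) +
            ∫⁻ x, ENNReal.ofReal (C * R⁻¹) * ‖m x‖ₑ := by
          rw [lintegral_add_left' hm12, lintegral_add_left' hm1]
      _ ≤ ENNReal.ofReal (ε / 3) + ENNReal.ofReal (ε / 3) + ENNReal.ofReal (ε / 3) := by
          refine add_le_add (add_le_add hn2.le hφ2) ?_
          rw [lintegral_const_mul' _ _ ENNReal.ofReal_ne_top]
          refine le_trans ?_ hn3.le
          gcongr
          exact molD_young φ hf.aestronglyMeasurable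
      _ = ENNReal.ofReal ε := by
          rw [← ENNReal.ofReal_add hε3.le hε3.le, ← ENNReal.ofReal_add (by positivity) hε3.le]
          congr 1
          ring

theorem exists_approx (hf : Integrable f volume) (hG : Integrable G volume)
    (hw : IsWeakGrad f G) : ∃ fk : ℕ → E d → ℝ, Approx f G fk := by
  have hpos : ∀ k : ℕ, (0 : ℝ) < (1 / 4) ^ k := fun k => by positivity
  choose fk h1 h2 h3 h4 using fun k : ℕ => exists_close hf hG hw (hpos k)
  exact ⟨fk, ⟨h1, h2, h3, h4⟩⟩

end ValeP137
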