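import Vale.Agent.Lib.P137W.Line1D

/-! Variation of a continuous function from difference quotients. -/

open MeasureTheory Set Filter Topology
open scoped ENNReal

namespace Vale.Agent.Lib.P137W

/-- A function whose increments are controlled by a measure has variation at most that of the
measure. -/
theorem evar_le_of_le_measure {φ : ℝ → ℝ} (ν : Measure ℝ)
    (h : ∀ s t : ℝ, s ≤ t → edist (φ t) (φ s) ≤ ν (Ioc s t)) :
    eVariationOn φ univ ≤ ν univ := by
  refine iSup_le ?_
  rintro ⟨n, ⟨u, hu, -⟩⟩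
  have key : ∀ m : ℕ, ∑ i ∈ Finset.range m, edist (φ (u (i + 1))) (φ (u i)) ≤ ν (Ioc (u 0) (u m)) := by
    intro m
    induction m with
    | zero => simp
    | succ m ih =>
      rw [Finset.sum_range_succ]
      have h1 := h _ _ (hu (Nat.le_succ m))
      have h2 : ν (Ioc (u 0) (u (m + 1))) = ν (Ioc (u 0) (u m)) + ν (Ioc (u m) (u (m + 1))) := by
        rw [← Ioc_union_Ioc_eq_Ioc (hu (Nat.zero_le m)) (hu (Nat.le_succ m))]
        exact measure_union (Ioc_disjoint_Ioc_of_le le_rfl) measurableSet_Ioc
      rw [h2]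
      exact add_le_add ih h1
  exact (key n).trans (measure_mono (subset_univ _))

/-- The sliding averages of a continuous function. -/
noncomputable def slide (w : ℝ → ℝ) (n : ℕ) (t : ℝ) : ℝ :=
  ((n : ℝ) + 1) * ∫ τ in t..(t + ((n : ℝ) + 1)⁻¹), w τ

theorem tendsto_slide {w : ℝ → ℝ} (hc : Continuous w) (t : ℝ) :
    Tendsto (fun n => slide w n t) atTop (𝓝 (w t)) := by
  have hd : HasDerivAt (fun x => ∫ τ in (0:ℝ)..x, w τ) (w t) t :=
    intervalIntegral.integral_hasDerivAt_right (hc.intervalIntegrable _ _)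
      hc.aestronglyMeasurable.stronglyMeasurableAtFilter hc.continuousAt
  rw [hasDerivAt_iff_tendsto_slope] at hd
  have hseq : Tendsto (fun n : ℕ => t + ((n : ℝ) + 1)⁻¹) atTop (𝓝[≠] t) := by
    rw [tendsto_nhdsWithin_iff]
    constructor
    · have : Tendsto (fun n : ℕ => ((n : ℝ) + 1)⁻¹) atTop (𝓝 0) :=
        tendsto_inv_atTop_zero.comp (tendsto_atTop_add_const_right _ _ tendsto_natCast_atTop_atTop)
      simpa using tendsto_const_nhds.add this
    · refine Eventually.of_forall fun n => ?_
      have : 0 < ((n : ℝ) + 1)⁻¹ := by positivity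
      simp only [mem_compl_iff, mem_singleton_iff]
      linarith
  refine (hd.comp hseq).congr fun n => ?_
  simp only [Function.comp, slope, vsub_eq_sub, smul_eq_mul, slide]
  have h1 : t + ((n : ℝ) + 1)⁻¹ - t = ((n : ℝ) + 1)⁻¹ := by ring
  rw [h1, inv_inv, intervalIntegral.integral_interval_sub_left
    (hc.intervalIntegrable _ _) (hc.intervalIntegrable _ _)]

theorem slide_sub {w : ℝ → ℝ} (hc : Continuous w) (n : ℕ) (s t : ℝ) :
    slide w n t - slide w n s =
      ((n : ℝ) + 1) * ∫ τ in s..t, (w (τ + ((n : ℝ) + 1)⁻¹) - w τ) := by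
  set h : ℝ := ((n : ℝ) + 1)⁻¹ with hh
  have hi : ∀ a b, IntervalIntegrable w volume a b := fun a b => hc.intervalIntegrable a b
  have hi2 : ∀ a b, IntervalIntegrable (fun τ => w (τ + h)) volume a b :=
    fun a b => (hc.comp (continuous_id.add continuous_const)).intervalIntegrable a b
  rw [intervalIntegral.integral_sub (hi2 s t) (hi s t),
    intervalIntegral.integral_comp_add_right (fun τ => w τ) h]
  simp only [slide]
  rw [← mul_sub]
  congr 1
  have := intervalIntegral.integral_interval_sub_interval_comm (hi t (t + h)) (hi s (s + h)) (hi t s)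
  have h2 : ∫ τ in s..t, w τ = - ∫ τ in t..s, w τ := intervalIntegral.integral_symm t s
  have h3 : ∫ τ in (s + h)..(t + h), w τ = - ∫ τ in (t + h)..(s + h), w τ :=
    intervalIntegral.integral_symm _ _
  rw [h2, h3]
  linarith

/-- The variation of a continuous function is at most the lower limit of the `L^1` norms of its
difference quotients. -/
theorem evar_le_of_dq {w : ℝ → ℝ} (hc : Continuous w) :
    eVariationOn w univ ≤ liminf (fun n : ℕ => ENNReal.ofReal ((n : ℝ) + 1) *
      ∫⁻ s : ℝ, ‖w (s + ((n : ℝ) + 1)⁻¹) - w s‖ₑ) atTop := by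
  refine le_of_forall_lt_imp_le_of_dense ?_
  intro v hv
  have h1 : ∀ᶠ n : ℕ in atTop, v < eVariationOn (slide w n) univ :=
    eVariationOn.lowerSemicontinuous_aux (fun x _ => tendsto_slide hc x) hv
  have h2 : ∀ n : ℕ, eVariationOn (slide w n) univ ≤ ENNReal.ofReal ((n : ℝ) + 1) *
      ∫⁻ s : ℝ, ‖w (s + ((n : ℝ) + 1)⁻¹) - w s‖ₑ := by
    intro n
    set h : ℝ := ((n : ℝ) + 1)⁻¹ with hh
    set g : ℝ → ℝ≥0∞ := fun s => ENNReal.ofReal ((n : ℝ) + 1) * ‖w (s + h) - w s‖ₑ with hg
    have hcg : Continuous (fun s => w (s + h) - w s) :=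
      (hc.comp (continuous_id.add continuous_const)).sub hc
    have hmg : Measurable g := hcg.measurable.enorm.const_mul _
    have h3 := evar_le_of_le_measure (φ := slide w n) (volume.withDensity g) ?_
    · rw [withDensity_apply _ MeasurableSet.univ, Measure.restrict_univ,
        lintegral_const_mul _ hcg.measurable.enorm] at h3
      exact h3
    · intro s t hst
      rw [withDensity_apply _ measurableSet_Ioc, lintegral_const_mul _ hcg.measurable.enorm,
        edist_dist, Real.dist_eq, slide_sub hc, abs_mul,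
        abs_of_pos (by positivity : (0:ℝ) < (n : ℝ) + 1),
        ENNReal.ofReal_mul (by positivity)]
      gcongr
      rw [intervalIntegral.integral_of_le hst]
      have h4 := enorm_integral_le_lintegral_enorm (μ := volume.restrict (Ioc s t))
        (fun τ => w (τ + h) - w τ)
      rwa [Real.enorm_eq_ofReal_abs] at h4
  have h5 : ∀ᶠ n : ℕ in atTop, v ≤ ENNReal.ofReal ((n : ℝ) + 1) *
      ∫⁻ s : ℝ, ‖w (s + ((n : ℝ) + 1)⁻¹) - w s‖ₑ := h1.mono fun n hn => hn.le.trans (h2 n)
  exact le_liminf_of_le (by isBoundedDefault) h5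

/-- A function tending to zero at infinity is bounded by its variation. -/
theorem abs_le_evar_of_tendsto {w : ℝ → ℝ} (h0 : Tendsto w atTop (𝓝 0)) (t : ℝ) :
    ENNReal.ofReal |w t| ≤ eVariationOn w univ := by
  have h1 : Tendsto (fun T => edist (w t) (w T)) atTop (𝓝 (edist (w t) 0)) :=
    tendsto_const_nhds.edist h0
  have h2 : edist (w t) 0 = ENNReal.ofReal |w t| := by
    rw [edist_dist, Real.dist_eq, sub_zero]
  rw [← h2]
  exact le_of_tendsto' h1 fun T => eVariationOn.edist_le w (mem_univ t) (mem_univ T)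

/-- Finite total variation implies bounded variation on each interval. -/
theorem bv_of_evar {w : ℝ → ℝ} (h : eVariationOn w univ ≠ ⊤) (a b : ℝ) :
    BoundedVariationOn w (uIcc a b) :=
  ne_top_of_le_ne_top h (eVariationOn.mono w (subset_univ _))

end Vale.Agent.Lib.P137W
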