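import Vale.Agent.Lib.P137W.Basic

/-! The absolutely continuous trace of a Sobolev function on a good line. -/

open MeasureTheory Metric Set Filter Topology
open scoped ENNReal RealInnerProductSpace ContDiff

noncomputable section

namespace ValeP137

variable {d : ℕ} {f : E d → ℝ} {G : E d → E d} {fk : ℕ → E d → ℝ} {e : E d}

/-- Derivative along a line of a smooth function. -/
theorem hasDerivAt_line {g : E d → ℝ} (hg : ContDiff ℝ ∞ g) (x e : E d) (t : ℝ) :
    HasDerivAt (fun s : ℝ => g (x + s • e)) (inner ℝ (gradient g (x + t • e)) e) t := by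
  have h1 : HasGradientAt g (gradient g (x + t • e)) (x + t • e) :=
    ((hg.differentiable (by simp)) (x + t • e)).hasGradientAt
  have h2 : HasFDerivAt g (InnerProductSpace.toDual ℝ (E d) (gradient g (x + t • e))) (x + t • e) :=
    h1.hasFDerivAt
  have h3 : HasDerivAt (fun s : ℝ => x + s • e) e t := by
    have := ((hasDerivAt_id t).smul_const e).const_add x
    simpa using this
  have h4 := h2.comp_hasDerivAt t h3
  have h5 : (InnerProductSpace.toDual ℝ (E d) (gradient g (x + t • e))) e
      = inner ℝ (gradient g (x + t • e)) e := InnerProductSpace.toDual_apply_apply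
  rw [h5] at h4
  exact h4

theorem contDiff_line {g : E d → ℝ} (hg : ContDiff ℝ ∞ g) (x e : E d) :
    ContDiff ℝ ∞ (fun s : ℝ => g (x + s • e)) := by
  apply hg.comp
  fun_prop

theorem continuous_line_deriv {g : E d → ℝ} (hg : ContDiff ℝ ∞ g) (x e : E d) :
    Continuous (fun t : ℝ => inner ℝ (gradient g (x + t • e)) e) := by
  have h : (fun t : ℝ => inner ℝ (gradient g (x + t • e)) e)
      = deriv (fun s : ℝ => g (x + s • e)) := by
    funext t
    exact (hasDerivAt_line hg x e t).deriv.symm
  rw [h]
  exact (contDiff_line hg x e).continuous_deriv (by simp)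

theorem gk_smooth (hA : Approx f G fk) (n : ℕ) : ContDiff ℝ ∞ (gk fk n) := by
  have : gk fk n = fun x => fk (n + 1) x - fk n x := rfl
  rw [this]
  exact (hA.smooth (n + 1)).sub (hA.smooth n)

theorem gk_cs (hA : Approx f G fk) (n : ℕ) : HasCompactSupport (gk fk n) := by
  have : gk fk n = fun x => fk (n + 1) x - fk n x := rfl
  rw [this]
  exact (hA.cs (n + 1)).sub (hA.cs n)

/-- Compactly supported: the restriction to a line vanishes far away. -/
theorem line_eventually_zero {g : E d → ℝ} (hgc : HasCompactSupport g) (he : ‖e‖ = 1) (x : E d) :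
    ∀ t : ℝ, ∃ a ≤ t, g (x + a • e) = 0 := by
  intro t
  obtain ⟨R, hR⟩ := hgc.isCompact.isBounded.subset_closedBall (0 : E d)
  refine ⟨min t (-(R + ‖x‖ + 1)), min_le_left _ _, ?_⟩
  by_contra hne
  have hmem : x + (min t (-(R + ‖x‖ + 1))) • e ∈ closedBall (0 : E d) R :=
    hR (subset_tsupport g hne)
  rw [mem_closedBall_zero_iff] at hmem
  set a := min t (-(R + ‖x‖ + 1)) with ha
  have h1 : a ≤ -(R + ‖x‖ + 1) := min_le_right _ _
  have h2 : ‖a • e‖ ≤ ‖x + a • e‖ + ‖x‖ := by
    have h9 : a • e = (x + a • e) - x := by abel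
    calc ‖a • e‖ = ‖(x + a • e) - x‖ := by rw [← h9]
      _ ≤ ‖x + a • e‖ + ‖x‖ := norm_sub_le (x + a • e) x
  rw [norm_smul, he, mul_one, Real.norm_eq_abs] at h2
  have h3 : -a ≤ |a| := neg_le_abs a
  linarith

/-- On a line, a compactly supported smooth function is bounded by the integral of the derivative. -/
theorem abs_line_le {g : E d → ℝ} (hg : ContDiff ℝ ∞ g) (hgc : HasCompactSupport g) (he : ‖e‖ = 1)
    (x : E d) (t : ℝ)
    (hi : Integrable (fun s : ℝ => inner ℝ (gradient g (x + s • e)) e)) :
    ‖g (x + t • e)‖ ≤ ∫ s : ℝ, ‖(inner ℝ (gradient g (x + s • e)) e : ℝ)‖ := by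
  obtain ⟨a, hat, ha⟩ := line_eventually_zero hgc he x t
  have hc := continuous_line_deriv hg x e
  have hftc : ∫ s in a..t, (inner ℝ (gradient g (x + s • e)) e : ℝ) = g (x + t • e) - g (x + a • e) :=
    intervalIntegral.integral_eq_sub_of_hasDerivAt (fun y _ => hasDerivAt_line hg x e y)
      (hc.intervalIntegrable _ _)
  have e1 : g (x + t • e) = ∫ s in a..t, (inner ℝ (gradient g (x + s • e)) e : ℝ) := by
    rw [hftc, ha, sub_zero]
  rw [e1]
  calc ‖∫ s in a..t, (inner ℝ (gradient g (x + s • e)) e : ℝ)‖
      ≤ ∫ s in a..t, ‖(inner ℝ (gradient g (x + s • e)) e : ℝ)‖ :=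
        intervalIntegral.norm_integral_le_integral_norm hat
    _ = ∫ s in Ioc a t, ‖(inner ℝ (gradient g (x + s • e)) e : ℝ)‖ :=
        intervalIntegral.integral_of_le hat
    _ ≤ ∫ s : ℝ, ‖(inner ℝ (gradient g (x + s • e)) e : ℝ)‖ :=
        setIntegral_le_integral hi.norm (Eventually.of_forall fun s => norm_nonneg _)

theorem fk_telescope (fk : ℕ → E d → ℝ) (y : E d) (k : ℕ) :
    fk k y = fk 0 y + ∑ n ∈ Finset.range k, gk fk n y := by
  induction k with
  | zero => simp
  | succ m ih =>
    rw [Finset.sum_range_succ, ← add_assoc, ← ih]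
    unfold gk
    ring

/-- The absolutely continuous trace of `f` on a good line: limit of `f_k` on the line. -/
theorem exists_trace_line (hA : Approx f G fk) (he : ‖e‖ = 1) {x : E d}
    (hx : GoodLine fk e x) :
    ∃ F : ℝ → ℝ, (∀ a b, AbsolutelyContinuousOnInterval F a b) ∧
      ∀ t, Tendsto (fun k => fk k (x + t • e)) atTop (𝓝 (F t)) := by
  set D : ℕ → ℝ → ℝ := fun n t => inner ℝ (gradient (gk fk n) (x + t • e)) e with hDdef
  set γ : ℕ → ℝ → ℝ := fun n t => gk fk n (x + t • e) with hγdef
  have hDc : ∀ n, Continuous (D n) := fun n => continuous_line_deriv (gk_smooth hA n) x e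
  have hDer : ∀ n t, HasDerivAt (γ n) (D n t) t := fun n t => hasDerivAt_line (gk_smooth hA n) x e t
  have hsum : ∑' n, ∫⁻ s : ℝ, ‖D n s‖ₑ ≠ ⊤ := hx.sumDer
  have hIfin : ∀ n, ∫⁻ s : ℝ, ‖D n s‖ₑ ≠ ⊤ := fun n => ENNReal.ne_top_of_tsum_ne_top hsum n
  have hint : ∀ n, Integrable (D n) := fun n =>
    ⟨(hDc n).aestronglyMeasurable, lt_top_iff_ne_top.2 (hIfin n)⟩
  have hIeq : ∀ n, ∫ s : ℝ, ‖D n s‖ = (∫⁻ s : ℝ, ‖D n s‖ₑ).toReal := fun n =>
    integral_norm_eq_lintegral_enorm (hDc n).aestronglyMeasurable
  have hsummable : Summable (fun n => ∫ s : ℝ, ‖D n s‖) := by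
    simp_rw [hIeq]
    exact ENNReal.summable_toReal hsum
  have hγbd : ∀ n t, ‖γ n t‖ ≤ ∫ s : ℝ, ‖D n s‖ := fun n t =>
    abs_line_le (gk_smooth hA n) (gk_cs hA n) he x t (hint n)
  have hγsum : ∀ t, Summable (fun n => γ n t) := fun t =>
    Summable.of_norm_bounded hsummable (fun n => hγbd n t)
  set H : ℝ → ℝ := fun t => ∑' n, γ n t with hHdef
  -- the sum of the derivatives
  set Φ : ℝ → ℝ := fun s => ∑' n, D n s with hΦdef
  have hmeasTot : Measurable (fun s : ℝ => ∑' n, ‖D n s‖ₑ) :=
    Measurable.tsum fun n => (hDc n).measurable.enorm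
  have hTot : ∫⁻ s : ℝ, ∑' n, ‖D n s‖ₑ ≠ ⊤ := by
    rw [lintegral_tsum fun n => (hDc n).measurable.enorm.aemeasurable]
    exact hsum
  have hae : ∀ᵐ s : ℝ, ∑' n, ‖D n s‖ₑ < ⊤ := ae_lt_top hmeasTot hTot
  have hsumS : ∀ s : ℝ, ∑' n, ‖D n s‖ₑ < ⊤ → Summable (fun n => D n s) := by
    intro s hs
    apply Summable.of_norm
    have : Summable (fun n => (‖D n s‖ₑ).toReal) := ENNReal.summable_toReal hs.ne
    simpa [toReal_enorm] using this
  have hΦmeas : AEStronglyMeasurable Φ volume := by
    refine aestronglyMeasurable_of_tendsto_ae atTop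
      (f := fun N s => ∑ n ∈ Finset.range N, D n s) ?_ ?_
    · intro N
      exact (continuous_finsetSum _ fun n _ => hDc n).aestronglyMeasurable
    · filter_upwards [hae] with s hs
      exact (hsumS s hs).hasSum.tendsto_sum_nat
  have hΦint : Integrable Φ volume := by
    refine ⟨hΦmeas, ?_⟩
    unfold HasFiniteIntegral
    refine lt_of_le_of_lt (lintegral_mono fun s => ?_) (lt_top_iff_ne_top.2 hTot)
    exact enorm_tsum_le_tsum_enorm
  -- the fundamental theorem for the sum
  have hFTC : ∀ a b, a ≤ b → H b - H a = ∫ s in a..b, Φ s := by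
    intro a b hab
    have h1 : ∀ n, ∫ s in a..b, D n s = γ n b - γ n a := fun n =>
      intervalIntegral.integral_eq_sub_of_hasDerivAt (fun y _ => hDer n y)
        ((hDc n).intervalIntegrable _ _)
    have h2 : HasSum (fun n => ∫ s in Ioc a b, D n s) (∫ s in Ioc a b, ∑' n, D n s) := by
      apply hasSum_integral_of_summable_integral_norm
      · intro n
        exact (hint n).integrableOn
      · refine Summable.of_nonneg_of_le (fun n => integral_nonneg fun s => norm_nonneg _)
          (fun n => ?_) hsummable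
        exact setIntegral_le_integral (hint n).norm (Eventually.of_forall fun s => norm_nonneg _)
    have h3 : HasSum (fun n => γ n b - γ n a) (H b - H a) :=
      (hγsum b).hasSum.sub (hγsum a).hasSum
    have h4 : (fun n => ∫ s in Ioc a b, D n s) = fun n => γ n b - γ n a := by
      funext n
      rw [← h1 n, intervalIntegral.integral_of_le hab]
    rw [h4] at h2
    rw [intervalIntegral.integral_of_le hab]
    exact h3.unique h2
  have hFTC' : ∀ t, H t = H 0 + ∫ s in (0 : ℝ)..t, Φ s := by
    intro t
    rcases le_total 0 t with ht | ht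
    · have := hFTC 0 t ht
      linarith
    · have := hFTC t 0 ht
      rw [intervalIntegral.integral_symm]
      linarith
  refine ⟨fun t => fk 0 (x + t • e) + H t, ?_, ?_⟩
  · intro a b
    have h1 : AbsolutelyContinuousOnInterval (fun t : ℝ => fk 0 (x + t • e)) a b := by
      apply ContDiffOn.absolutelyContinuousOnInterval
      exact ((contDiff_line (hA.smooth 0) x e).of_le (by simp)).contDiffOn
    have h2 : AbsolutelyContinuousOnInterval H a b := by
      rw [absolutelyContinuousOnInterval_iff] 
      have hac := (hΦint.intervalIntegrable (a := min 0 (min a b)) (b := max 0 (max a b))).absolutelyContinuousOnInterval_intervalIntegral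
        (c := 0) (by
          rw [uIcc_of_le (by
            exact le_trans (min_le_left _ _) (le_max_left _ _))]
          exact ⟨min_le_left _ _, le_max_left _ _⟩)
      have hac2 : AbsolutelyContinuousOnInterval (fun t => ∫ s in (0 : ℝ)..t, Φ s) a b := by
        refine hac.mono ?_
        intro y hy
        have hle : min 0 (min a b) ≤ max 0 (max a b) :=
          le_trans (min_le_left _ _) (le_max_left _ _)
        rw [uIcc_of_le hle]
        rcases le_total a b with hab | hab
        · rw [uIcc_of_le hab] at hy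
          constructor
          · simp only [min_le_iff]
            right
            left
            exact hy.1
          · simp only [le_max_iff]
            right
            right
            exact hy.2
        · rw [uIcc_of_ge hab] at hy
          constructor
          · simp only [min_le_iff]
            right
            right
            exact hy.1
          · simp only [le_max_iff]
            right
            left
            exact hy.2
      rw [absolutelyContinuousOnInterval_iff] at hac2
      intro ε hε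
      obtain ⟨δ, hδ, hh⟩ := hac2 ε hε
      refine ⟨δ, hδ, fun E hE hs => ?_⟩
      have := hh E hE hs
      refine lt_of_le_of_lt (le_of_eq ?_) this
      apply Finset.sum_congr rfl
      intro i _
      rw [hFTC' (E.2 i).1, hFTC' (E.2 i).2, dist_add_left]
    exact h1.add h2
  · intro t
    have h1 := (hγsum t).hasSum.tendsto_sum_nat
    have h2 : ∀ k, fk k (x + t • e) = fk 0 (x + t • e) + ∑ n ∈ Finset.range k, γ n t := fun k =>
      fk_telescope fk _ k
    have h3 : (fun k => fk k (x + t • e))
        = fun k => fk 0 (x + t • e) + ∑ n ∈ Finset.range k, γ n t := funext h2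
    rw [h3]
    exact h1.const_add _

end ValeP137
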