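import Vale.Agent.Lib.P137W.GoodLineC
import Vale.Agent.Lib.P137W.TraceLine
import Vale.Agent.Lib.P137W.WeakLines

/-! The Sobolev layer: final theorem. -/

open MeasureTheory Metric Set Filter Topology
open scoped ENNReal RealInnerProductSpace ContDiff

noncomputable section

namespace ValeP137

variable {d : ℕ} {f : E d → ℝ} {G : E d → E d} {K : ℝ} {e : E d} {u : E d → ℝ}

/-- Finite variation on almost every line, from a translation bound. -/
theorem ae_evar_ne_top (he : ‖e‖ = 1) (hu : AEStronglyMeasurable u volume) {A : ℝ≥0∞}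
    (hA : A ≠ ⊤)
    (hbv : ∀ n : ℕ, ∫⁻ x, ‖u (x + ((n : ℝ) + 1)⁻¹ • e) - u x‖ₑ
      ≤ ENNReal.ofReal ((n : ℝ) + 1)⁻¹ * A)
    (hcont : ∀ᵐ x : E d, Continuous (fun s : ℝ => u (x + s • e))) :
    ∀ᵐ x : E d, eVariationOn (fun s : ℝ => u (x + s • e)) univ ≠ ⊤ := by
  set u' := hu.mk u with hu'
  have hu'm : Measurable u' := hu.stronglyMeasurable_mk.measurable
  have hae : u =ᵐ[volume] u' := hu.ae_eq_mk
  -- translation of the a.e. equality
  have hshift : ∀ n : ℕ, ∀ᵐ y : E d,
      u (y + ((n : ℝ) + 1)⁻¹ • e) = u' (y + ((n : ℝ) + 1)⁻¹ • e) := by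
    intro n
    have := (measurePreserving_add_right (volume : Measure (E d))
      (((n : ℝ) + 1)⁻¹ • e)).quasiMeasurePreserving.ae_eq hae
    exact this
  set Fn : ℕ → E d → ℝ≥0∞ := fun n y => ‖u' (y + ((n : ℝ) + 1)⁻¹ • e) - u' y‖ₑ with hFn
  have hFnm : ∀ n, Measurable (Fn n) := by
    intro n
    exact ((hu'm.comp (measurable_add_const _)).sub hu'm).enorm
  have hFae : ∀ᵐ y : E d, ∀ n : ℕ, Fn n y = ‖u (y + ((n : ℝ) + 1)⁻¹ • e) - u y‖ₑ := by
    filter_upwards [ae_all_iff.2 hshift, hae] with y h1 h2 n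
    simp only [hFn, h1 n, h2]
  have hFint : ∀ n, ∫⁻ y, Fn n y ≤ ENNReal.ofReal ((n : ℝ) + 1)⁻¹ * A := by
    intro n
    refine le_trans (le_of_eq ?_) (hbv n)
    refine lintegral_congr_ae ?_
    filter_upwards [hFae] with y hy using hy n
  set Ln : ℕ → E d → ℝ≥0∞ := fun n x => ENNReal.ofReal ((n : ℝ) + 1) * ∫⁻ s : ℝ, Fn n (x + s • e)
    with hLn
  have hLnm : ∀ n, Measurable (Ln n) := fun n =>
    (measurable_line_lintegral (hFnm n) e).const_mul _
  set L : E d → ℝ≥0∞ := fun x => liminf (fun n => Ln n x) atTop with hL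
  have hLm : Measurable L := Measurable.liminf hLnm
  have hweighted : ∫⁻ x, lineW e x * L x ≠ ⊤ := by
    have h1 : ∫⁻ x, lineW e x * L x ≤ ENNReal.ofReal Real.pi * A := by
      calc ∫⁻ x, lineW e x * L x
          = ∫⁻ x, liminf (fun n => lineW e x * Ln n x) atTop := by
            refine lintegral_congr fun x => ?_
            exact (ENNReal.liminf_const_mul_of_ne_top (lineW_ne_top e x)).symm
        _ ≤ liminf (fun n => ∫⁻ x, lineW e x * Ln n x) atTop :=
            lintegral_liminf_le fun n => (measurable_lineW e).mul (hLnm n)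
        _ ≤ ENNReal.ofReal Real.pi * A := by
            refine liminf_le_of_le (by isBoundedDefault) ?_
            intro b hb
            obtain ⟨n, hn⟩ := hb.exists
            refine hn.trans ?_
            have hpos : (0 : ℝ) < (n : ℝ) + 1 := by positivity
            calc ∫⁻ x, lineW e x * Ln n x
                = ENNReal.ofReal ((n : ℝ) + 1) * ∫⁻ x, lineW e x * ∫⁻ s : ℝ, Fn n (x + s • e) := by
                  rw [← lintegral_const_mul (ENNReal.ofReal ((n : ℝ) + 1))
                    (f := fun x => lineW e x * ∫⁻ s : ℝ, Fn n (x + s • e))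
                    ((measurable_lineW e).mul (measurable_line_lintegral (hFnm n) e))]
                  refine lintegral_congr fun x => ?_
                  simp only [hLn]
                  ring
              _ = ENNReal.ofReal ((n : ℝ) + 1) *
                    (ENNReal.ofReal Real.pi * ∫⁻ y, Fn n y) := by
                  rw [line_fubini he (hFnm n)]
              _ ≤ ENNReal.ofReal ((n : ℝ) + 1) *
                    (ENNReal.ofReal Real.pi * (ENNReal.ofReal ((n : ℝ) + 1)⁻¹ * A)) := by
                  gcongr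
                  exact hFint n
              _ = ENNReal.ofReal Real.pi * A := by
                  have h3 : ENNReal.ofReal ((n : ℝ) + 1) * ENNReal.ofReal ((n : ℝ) + 1)⁻¹ = 1 := by
                    rw [← ENNReal.ofReal_mul hpos.le, mul_inv_cancel₀ hpos.ne', ENNReal.ofReal_one]
                  calc _ = (ENNReal.ofReal ((n : ℝ) + 1) * ENNReal.ofReal ((n : ℝ) + 1)⁻¹) *
                        (ENNReal.ofReal Real.pi * A) := by ring
                    _ = _ := by rw [h3, one_mul]
    exact ne_top_of_le_ne_top (ENNReal.mul_ne_top ENNReal.ofReal_ne_top hA) h1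
  have hLfin := ae_ne_top_of_weighted hLm hweighted
  have hline := ae_line_of_ae he hFae
  filter_upwards [hLfin, hline, hcont] with x hx1 hx2 hx3
  refine ne_top_of_le_ne_top hx1 ?_
  refine (Vale.Agent.Lib.P137W.evar_le_of_dq hx3).trans (le_of_eq ?_)
  refine liminf_congr (Eventually.of_forall fun n => ?_)
  simp only [hLn]
  congr 1
  refine lintegral_congr_ae ?_
  filter_upwards [hx2] with s hs
  rw [hs n]
  congr 2
  rw [add_assoc, ← add_smul]

/-- Conditional form (the hypothesis is the variation bound for `C^1_c`). -/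
theorem sobolev_of_bvc (hd : 1 ≤ d) (hK : BVc d K) (hK0 : 0 ≤ K)
    (hf : Integrable f volume) (hG : Integrable G volume) (hw : IsWeakGrad f G) :
    (∀ᵐ x : E d, BddAbove (avgSet f x)) ∧
      ∃ H : E d → E d, Integrable H volume ∧ IsWeakGrad (Mtilde f) H ∧
        ∫⁻ x, ‖H x‖ₑ ≤ ENNReal.ofReal (d * K) * ∫⁻ x, ‖G x‖ₑ := by
  obtain ⟨fk, hA⟩ := exists_approx hf hG hw
  set I : ℝ≥0∞ := ∫⁻ x, ‖G x‖ₑ with hI
  have hIfin : I ≠ ⊤ := hG.hasFiniteIntegral.ne
  set u : E d → ℝ := Mtilde f with hu
  -- basis
  let b := EuclideanSpace.basisFun (Fin d) ℝ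
  have hb : ∀ i, ‖b i‖ = 1 := fun i => b.orthonormal.1 i
  have hdpos : 0 < d := hd
  -- bounded a.e.
  have hbdd : ∀ᵐ x : E d, BddAbove (avgSet f x) := by
    have hgood := ae_goodLine hK hK0 hA hf hG (hb ⟨0, hdpos⟩)
    filter_upwards [hgood] with x hx
    have := (bdd_and_close hd hA hf (hb ⟨0, hdpos⟩) hx 0).1
    simpa using this
  refine ⟨hbdd, ?_⟩
  -- measurability
  have hmeas : AEStronglyMeasurable u volume := by
    refine aestronglyMeasurable_of_tendsto_ae atTop (f := fun k => Mtilde (fk k)) ?_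
      (ae_tendsto_Mtilde' hK hK0 hd hA hf hG)
    intro k
    obtain ⟨L, hL⟩ := lipschitz_Mtilde ((hA.smooth k).of_le (by simp)) (hA.cs k)
    exact hL.continuous.aestronglyMeasurable
  have hbv := fun h => Mtilde_bv' hK hK0 hd hA hf hG h
  have hloc : LocallyIntegrable u volume := by
    refine locInt_of_bv hmeas (A := K * I.toReal) fun h => (hbv h).trans (le_of_eq ?_)
    have hI2 : ∫⁻ w, ‖G w‖ₑ = ENNReal.ofReal I.toReal := (ENNReal.ofReal_toReal hIfin).symm
    rw [hI2, ← ENNReal.ofReal_mul (by positivity)]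
    congr 1
    ring
  set A : ℝ≥0∞ := ENNReal.ofReal K * I with hAdef
  have hAfin : A ≠ ⊤ := ENNReal.mul_ne_top ENNReal.ofReal_ne_top hIfin
  have hdq : ∀ i, ∀ n : ℕ, ∫⁻ x, ‖u (x + ((n : ℝ) + 1)⁻¹ • b i) - u x‖ₑ
      ≤ ENNReal.ofReal ((n : ℝ) + 1)⁻¹ * A := by
    intro i n
    refine (hbv _).trans (le_of_eq ?_)
    have hpos : (0 : ℝ) ≤ ((n : ℝ) + 1)⁻¹ := by positivity
    rw [norm_smul, hb i, mul_one, Real.norm_of_nonneg hpos, hAdef, ← mul_assoc,
      ENNReal.ofReal_mul hK0, mul_comm (ENNReal.ofReal K)]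
  -- absolutely continuous on almost every line
  have hac : ∀ i, ∀ᵐ x : E d, ∀ a c : ℝ,
      AbsolutelyContinuousOnInterval (fun t : ℝ => u (x + t • b i)) a c := by
    intro i
    have hgood := ae_goodLine hK hK0 hA hf hG (hb i)
    have hcont : ∀ᵐ x : E d, Continuous (fun s : ℝ => u (x + s • b i)) := by
      filter_upwards [hgood] with x hx using continuous_on_goodLine hd hA hf (hb i) hx
    have hevar := ae_evar_ne_top (hb i) hmeas hAfin (hdq i) hcont
    filter_upwards [hgood, hcont, hevar] with x hx hxc hxv a c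
    obtain ⟨F, hFac, hF⟩ := exists_trace_line hA (hb i) hx
    -- the contact family
    let ψ : ℕ → ℝ → ℝ := fun n => match n with
      | 0 => F
      | 1 => fun t => - F t
      | (n + 2) => fun t => aM (fun z => |f z|) ((n : ℝ) + 1)⁻¹ (x + t • b i)
    have hψ : ∀ n a c, AbsolutelyContinuousOnInterval (ψ n) a c := by
      intro n a c
      match n with
      | 0 => exact hFac a c
      | 1 => exact (hFac a c).neg
      | (n + 2) =>
        obtain ⟨L, hL⟩ := lipschitz_aM hd hf (ρ := ((n : ℝ) + 1)⁻¹) (by positivity)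
        have hline : LipschitzWith 1 (fun t : ℝ => x + t • b i) := by
          refine LipschitzWith.of_dist_le_mul fun s t => ?_
          rw [dist_add_left, dist_eq_norm, ← sub_smul, norm_smul, hb i, mul_one, Real.norm_eq_abs,
            Real.dist_eq]
          simp
        have := (hL.comp hline).lipschitzOnWith (s := uIcc a c)
        exact this.absolutelyContinuousOnInterval
    have hcontact : ∀ t, ∃ n, (fun t : ℝ => u (x + t • b i)) t = ψ n t := by
      intro t
      rcases contact' hd hA hf (hb i) hx hF t with h | h | ⟨n, h⟩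
      · exact ⟨0, h⟩
      · exact ⟨1, h⟩
      · exact ⟨n + 2, h⟩
    exact Vale.Agent.Lib.P137W.ac_of_contact hxc
      (fun a c => Vale.Agent.Lib.P137W.bv_of_evar hxv a c) hψ hcontact a c
  -- the weak derivatives
  choose H hHint hHle hHibp using fun i => weak_of_lines (hb i) hloc hAfin (hac i) (hdq i)
  refine ⟨fun x => ∑ i, H i x • b i, ?_, ?_, ?_⟩
  · exact integrable_finsetSum _ fun i _ => (hHint i).smul_const _
  · refine ⟨hloc, ?_, ?_⟩
    · exact (integrable_finsetSum _ fun i _ => (hHint i).smul_const _).locallyIntegrable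
    · intro φ hφ hφc v
      have hφ1 : Continuous (fun x => fderiv ℝ φ x v) :=
        (hφ.continuous_fderiv (by simp)).clm_apply continuous_const
      have hvsum : v = ∑ i, (b.repr v i) • b i := (b.sum_repr v).symm
      have hint1 : ∀ i, Integrable (fun x => u x * fderiv ℝ φ x (b i)) volume := by
        intro i
        have hc : Continuous (fun x => fderiv ℝ φ x (b i)) :=
          (hφ.continuous_fderiv (by simp)).clm_apply continuous_const
        have hcs : HasCompactSupport (fun x => fderiv ℝ φ x (b i)) :=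
          (hφc.fderiv (𝕜 := ℝ)).comp_left (g := fun L : E d →L[ℝ] ℝ => L (b i)) (by simp)
        exact hloc.integrable_smul_right_of_hasCompactSupport hc hcs
      have hint2 : ∀ i, Integrable (fun x => φ x * H i x) volume := by
        intro i
        obtain ⟨C, hC⟩ := hφc.exists_bound_of_continuous hφ.continuous
        exact (hHint i).bdd_mul (c := C) hφ.continuous.aestronglyMeasurable
          (Eventually.of_forall hC)
      have hL : ∀ x, u x * fderiv ℝ φ x v = ∑ i, b.repr v i * (u x * fderiv ℝ φ x (b i)) := by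
        intro x
        conv_lhs => rw [hvsum]
        rw [map_sum, Finset.mul_sum]
        refine Finset.sum_congr rfl fun i _ => ?_
        rw [map_smul, smul_eq_mul]
        ring
      have hR : ∀ x, φ x * inner ℝ (∑ i, H i x • b i) v = ∑ i, b.repr v i * (φ x * H i x) := by
        intro x
        rw [sum_inner, Finset.mul_sum]
        refine Finset.sum_congr rfl fun i _ => ?_
        rw [inner_smul_left, b.repr_apply_apply]
        simp [real_inner_comm]
        ring
      simp_rw [hL, hR]
      rw [integral_finsetSum _ fun i _ => (hint1 i).const_mul _,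
        integral_finsetSum _ fun i _ => (hint2 i).const_mul _, ← Finset.sum_neg_distrib]
      refine Finset.sum_congr rfl fun i _ => ?_
      rw [integral_const_mul, integral_const_mul, hHibp i φ hφ hφc, mul_neg]
  · have hnorm : ∀ x, ‖∑ i, H i x • b i‖ₑ ≤ ∑ i, ‖H i x‖ₑ := by
      intro x
      refine (enorm_sum_le _ _).trans (Finset.sum_le_sum fun i _ => ?_)
      rw [enorm_smul, ← ofReal_norm (b i), hb i]
      simp
    calc ∫⁻ x, ‖∑ i, H i x • b i‖ₑ ≤ ∫⁻ x, ∑ i, ‖H i x‖ₑ := lintegral_mono hnorm
      _ = ∑ i, ∫⁻ x, ‖H i x‖ₑ := by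
          rw [lintegral_finsetSum' _ fun i _ => (hHint i).aemeasurable.enorm]
      _ ≤ ∑ _i : Fin d, A := Finset.sum_le_sum fun i _ => hHle i
      _ = ENNReal.ofReal (d * K) * I := by
          rw [Finset.sum_const, Finset.card_univ, Fintype.card_fin, nsmul_eq_mul, hAdef,
            ENNReal.ofReal_mul (by positivity), ENNReal.ofReal_natCast, mul_assoc]

end ValeP137
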