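import Vale.Agent.Lib.P137W.Cap
import Vale.Agent.Lib.P137W.Density

/-! Good lines. -/

open MeasureTheory Metric Set Filter Topology
open scoped ENNReal RealInnerProductSpace ContDiff

noncomputable section

namespace ValeP137

variable {d : ℕ} {f : E d → ℝ} {G : E d → E d} {fk : ℕ → E d → ℝ} {e : E d} {K : ℝ}

private theorem contDiff_gk (hA : Approx f G fk) (k : ℕ) : ContDiff ℝ ∞ (gk fk k) :=
  (hA.smooth (k + 1)).sub (hA.smooth k)

private theorem cs_gk (hA : Approx f G fk) (k : ℕ) : HasCompactSupport (gk fk k) := by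
  have h := (hA.cs (k + 1)).add (hA.cs k).neg
  have he : gk fk k = fk (k + 1) + -fk k := by
    funext x; simp [gk, sub_eq_add_neg]
  rw [he]; exact h

private theorem continuous_grad {g : E d → ℝ} (hg : ContDiff ℝ ∞ g) : Continuous (gradient g) :=
  (InnerProductSpace.toDual ℝ (E d)).symm.continuous.comp (hg.continuous_fderiv (by simp))

private theorem gradient_gk (hA : Approx f G fk) (k : ℕ) (x : E d) :
    gradient (gk fk k) x = gradient (fk (k + 1)) x - gradient (fk k) x := by
  have h1 : DifferentiableAt ℝ (fk (k + 1)) x := ((hA.smooth (k + 1)).differentiable (by simp)) x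
  have h2 : DifferentiableAt ℝ (fk k) x := ((hA.smooth k).differentiable (by simp)) x
  have h3 : HasGradientAt (gk fk k) (gradient (fk (k + 1)) x - gradient (fk k) x) x := by
    rw [hasGradientAt_iff_hasFDerivAt, map_sub]
    have := (hasGradientAt_iff_hasFDerivAt.1 h1.hasGradientAt).sub
      (hasGradientAt_iff_hasFDerivAt.1 h2.hasGradientAt)
    exact this
  exact h3.gradient

private theorem lintegral_grad_gk_le (hA : Approx f G fk) (hG : Integrable G volume) (k : ℕ) :
    ∫⁻ x, ‖gradient (gk fk k) x‖ₑ ≤ ENNReal.ofReal (2 * (1 / 4) ^ k) := by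
  have hp : (0 : ℝ) ≤ (1 / 4) ^ k := by positivity
  have hm : AEMeasurable (fun x => ‖gradient (fk (k + 1)) x - G x‖ₑ) volume :=
    ((continuous_grad (hA.smooth (k + 1))).aestronglyMeasurable.sub hG.aestronglyMeasurable).enorm
  calc ∫⁻ x, ‖gradient (gk fk k) x‖ₑ
      ≤ ∫⁻ x, (‖gradient (fk (k + 1)) x - G x‖ₑ + ‖gradient (fk k) x - G x‖ₑ) := by
        apply lintegral_mono
        intro x
        have : gradient (gk fk k) x
            = (gradient (fk (k + 1)) x - G x) - (gradient (fk k) x - G x) := by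
          rw [gradient_gk hA]; abel
        show ‖gradient (gk fk k) x‖ₑ ≤ _
        rw [this]
        exact enorm_sub_le
    _ = (∫⁻ x, ‖gradient (fk (k + 1)) x - G x‖ₑ) + ∫⁻ x, ‖gradient (fk k) x - G x‖ₑ :=
        lintegral_add_left' hm _
    _ ≤ ENNReal.ofReal ((1 / 4) ^ (k + 1)) + ENNReal.ofReal ((1 / 4) ^ k) :=
        add_le_add (hA.closeG _) (hA.closeG _)
    _ = ENNReal.ofReal ((1 / 4) ^ (k + 1) + (1 / 4) ^ k) := by
        rw [ENNReal.ofReal_add (by positivity) hp]
    _ ≤ ENNReal.ofReal (2 * (1 / 4) ^ k) := by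
        apply ENNReal.ofReal_le_ofReal
        rw [pow_succ]; nlinarith

private theorem tsum_two_pow_ne_top :
    ∑' k : ℕ, ENNReal.ofReal (2 * (1 / 4 : ℝ) ^ k) ≠ ⊤ :=
  ((summable_geometric_of_lt_one (by norm_num) (by norm_num)).mul_left 2).tsum_ofReal_ne_top

/-- Almost every line is good. -/
theorem ae_goodLine (hK : BVc d K) (hK0 : 0 ≤ K) (hA : Approx f G fk) (_hf : Integrable f volume)
    (hG : Integrable G volume) (he : ‖e‖ = 1) : ∀ᵐ x : E d, GoodLine fk e x := by
  have hc1 : ∀ k, ContDiff ℝ 1 (gk fk k) := fun k => (contDiff_gk hA k).of_le (by simp)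
  have hcs := cs_gk hA
  -- first sum
  have hm1 : Measurable (fun x => ∑' k, capL (gk fk k) e x) :=
    Measurable.tsum fun k => measurable_capL (hc1 k) (hcs k) e
  have hI1 : ∫⁻ x, lineW e x * ∑' k, capL (gk fk k) e x ≠ ⊤ := by
    have h1 : ∫⁻ x, lineW e x * ∑' k, capL (gk fk k) e x
        = ∑' k, ∫⁻ x, lineW e x * capL (gk fk k) e x := by
      simp_rw [← ENNReal.tsum_mul_left]
      apply lintegral_tsum
      intro k
      exact ((measurable_lineW e).mul (measurable_capL (hc1 k) (hcs k) e)).aemeasurable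
    rw [h1]
    have h2 : ∑' k, ∫⁻ x, lineW e x * capL (gk fk k) e x
        ≤ ∑' k : ℕ, ENNReal.ofReal (Real.pi * K) * ENNReal.ofReal (2 * (1 / 4 : ℝ) ^ k) :=
      ENNReal.tsum_le_tsum fun k => (cap_bound hK hK0 (hc1 k) (hcs k) he).trans
        (by gcongr; exact lintegral_grad_gk_le hA hG k)
    rw [ENNReal.tsum_mul_left] at h2
    exact ne_top_of_le_ne_top (ENNReal.mul_ne_top ENNReal.ofReal_ne_top tsum_two_pow_ne_top) h2
  -- second sum
  let Fn : ℕ → E d → ℝ≥0∞ := fun k y => ‖inner ℝ (gradient (gk fk k) y) e‖ₑ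
  have hFn : ∀ k, Measurable (Fn k) := fun k =>
    (((continuous_grad (contDiff_gk hA k)).inner continuous_const).measurable).enorm
  have hFn2 : ∀ k, Measurable (fun x : E d => ∫⁻ s : ℝ, Fn k (x + s • e)) := by
    intro k
    have : Measurable (Function.uncurry fun (x : E d) (s : ℝ) => Fn k (x + s • e)) := by
      apply (hFn k).comp
      exact (measurable_fst.add (measurable_snd.smul_const e))
    exact this.lintegral_prod_right'
  have hm2 : Measurable (fun x => ∑' k, ∫⁻ s : ℝ, Fn k (x + s • e)) :=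
    Measurable.tsum hFn2
  have hI2 : ∫⁻ x, lineW e x * ∑' k, ∫⁻ s : ℝ, Fn k (x + s • e) ≠ ⊤ := by
    have h1 : ∫⁻ x, lineW e x * ∑' k, ∫⁻ s : ℝ, Fn k (x + s • e)
        = ∑' k, ∫⁻ x, lineW e x * ∫⁻ s : ℝ, Fn k (x + s • e) := by
      simp_rw [← ENNReal.tsum_mul_left]
      apply lintegral_tsum
      intro k
      exact ((measurable_lineW e).mul (hFn2 k)).aemeasurable
    rw [h1]
    have h2 : ∑' k, ∫⁻ x, lineW e x * ∫⁻ s : ℝ, Fn k (x + s • e)
        ≤ ∑' k : ℕ, ENNReal.ofReal Real.pi * ENNReal.ofReal (2 * (1 / 4 : ℝ) ^ k) := by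
      apply ENNReal.tsum_le_tsum
      intro k
      rw [line_fubini he (hFn k)]
      gcongr
      refine le_trans (lintegral_mono fun y => ?_) (lintegral_grad_gk_le hA hG k)
      have : ‖inner ℝ (gradient (gk fk k) y) e‖ ≤ ‖gradient (gk fk k) y‖ := by
        have := norm_inner_le_norm (𝕜 := ℝ) (gradient (gk fk k) y) e
        rwa [he, mul_one] at this
      simpa [Fn, enorm_eq_nnnorm] using (enorm_le_iff_norm_le.2 this)
    rw [ENNReal.tsum_mul_left] at h2
    exact ne_top_of_le_ne_top (ENNReal.mul_ne_top ENNReal.ofReal_ne_top tsum_two_pow_ne_top) h2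
  filter_upwards [ae_ne_top_of_weighted hm1 hI1, ae_ne_top_of_weighted hm2 hI2] with x h1 h2
  exact ⟨h1, h2⟩

/-- The tail of `capL` on a line. -/
def tailCap (fk : ℕ → E d → ℝ) (e x : E d) (k : ℕ) : ℝ :=
  (∑' n, capL (gk fk (n + k)) e x).toReal

theorem tendsto_tailCap {x : E d} (hx : GoodLine fk e x) : Tendsto (tailCap fk e x) atTop (𝓝 0) := by
  have h := ENNReal.tendsto_sum_nat_add (fun k => capL (gk fk k) e x) hx.sumCap
  have := (ENNReal.tendsto_toReal ENNReal.zero_ne_top).comp h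
  exact this

/-- The continuous functions of the approximation are integrable. -/
private theorem integrable_fk (hA : Approx f G fk) (k : ℕ) : Integrable (fk k) volume :=
  (hA.smooth k).continuous.integrable_of_hasCompactSupport (hA.cs k)

private theorem ball_real_pos {c : E d} {r : ℝ} (hr : 0 < r) : 0 < (volume (ball c r)).toReal :=
  ENNReal.toReal_pos (measure_ball_pos _ _ hr).ne' measure_ball_lt_top.ne

/-- A mean of `|g|` over a ball through a point of the line is controlled by `capL`. -/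
private theorem ball_enorm_le (hd : 1 ≤ d) {g : E d → ℝ} (hg : ContDiff ℝ ∞ g)
    (hgc : HasCompactSupport g) (he : ‖e‖ = 1) {x : E d} {s r : ℝ} {c : E d} (hr : 0 < r)
    (hy : x + s • e ∈ ball c r) :
    ∫⁻ z in ball c r, ‖g z‖ₑ ≤ volume (ball c r) * capL g e x := by
  have hc : Continuous g := hg.continuous
  have hint : Integrable g volume := hc.integrable_of_hasCompactSupport hgc
  have hmean : (⨍ z in ball c r, |g z|) ≤ Mtilde g (x + s • e) :=
    le_csSup (bddAbove_avgSet_of_cs hc hgc _) ⟨c, r, hr, hy, rfl⟩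
  have hcap := Mtilde_le_capL hd (hg.of_le (by simp)) hgc he x s
  have hpos := ball_real_pos (c := c) hr
  have hvtop : volume (ball c r) ≠ ⊤ := measure_ball_lt_top.ne
  have heq : ∫⁻ z in ball c r, ‖g z‖ₑ = ENNReal.ofReal (∫ z in ball c r, |g z|) := by
    have := ofReal_integral_norm_eq_lintegral_enorm (f := g) (μ := volume.restrict (ball c r))
      hint.integrableOn
    simpa [Real.norm_eq_abs] using this.symm
  have hle : (∫ z in ball c r, |g z|) ≤ (volume (ball c r)).toReal * Mtilde g (x + s • e) := by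
    rw [setAverage_eq, smul_eq_mul, Measure.real, inv_mul_le_iff₀ hpos] at hmean
    exact hmean
  rw [heq]
  calc ENNReal.ofReal (∫ z in ball c r, |g z|)
      ≤ ENNReal.ofReal ((volume (ball c r)).toReal * Mtilde g (x + s • e)) :=
        ENNReal.ofReal_le_ofReal hle
    _ = volume (ball c r) * ENNReal.ofReal (Mtilde g (x + s • e)) := by
        rw [ENNReal.ofReal_mul ENNReal.toReal_nonneg, ENNReal.ofReal_toReal hvtop]
    _ ≤ _ := by gcongr

/-- The `L^1(B)` distance of `f` and `f_k` in terms of the `capL` of the differences. -/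
private theorem lintegral_ball_sub_le (hd : 1 ≤ d) (hA : Approx f G fk) (hf : Integrable f volume)
    (he : ‖e‖ = 1) {x : E d} (k : ℕ) {s r : ℝ} {c : E d} (hr : 0 < r)
    (hy : x + s • e ∈ ball c r) :
    ∫⁻ z in ball c r, ‖f z - fk k z‖ₑ ≤ volume (ball c r) * ∑' n, capL (gk fk (n + k)) e x := by
  set B := ball c r with hB
  set T := ∑' n, capL (gk fk (n + k)) e x with hT
  -- for all `N`
  have hpart : ∀ N : ℕ, ∫⁻ z in B, ‖fk (N + k) z - fk k z‖ₑ ≤ volume B * T := by
    intro N
    have h1 : ∀ N : ℕ, ∫⁻ z in B, ‖fk (N + k) z - fk k z‖ₑ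
        ≤ ∑ n ∈ Finset.range N, volume B * capL (gk fk (n + k)) e x := by
      intro N
      induction N with
      | zero => simp
      | succ N ih =>
        rw [Finset.sum_range_succ]
        have hm : AEMeasurable (fun z => ‖fk (N + k) z - fk k z‖ₑ) (volume.restrict B) :=
          (((hA.smooth (N + k)).continuous.sub (hA.smooth k).continuous).measurable.enorm).aemeasurable
        calc ∫⁻ z in B, ‖fk (N + 1 + k) z - fk k z‖ₑ
            ≤ ∫⁻ z in B, (‖fk (N + k) z - fk k z‖ₑ + ‖gk fk (N + k) z‖ₑ) := by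
              apply lintegral_mono
              intro z
              show ‖fk (N + 1 + k) z - fk k z‖ₑ ≤ _
              have : fk (N + 1 + k) z - fk k z = (fk (N + k) z - fk k z) + gk fk (N + k) z := by
                simp only [gk]
                have : N + 1 + k = N + k + 1 := by omega
                rw [this]; ring
              rw [this]
              exact enorm_add_le _ _
          _ = (∫⁻ z in B, ‖fk (N + k) z - fk k z‖ₑ) + ∫⁻ z in B, ‖gk fk (N + k) z‖ₑ :=
              lintegral_add_left' hm _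
          _ ≤ _ := add_le_add ih (ball_enorm_le hd (contDiff_gk hA _) (cs_gk hA _) he hr hy)
    refine (h1 N).trans ?_
    rw [← Finset.mul_sum]
    gcongr
    exact ENNReal.sum_le_tsum _
  -- limit
  have hle : ∀ N : ℕ, ∫⁻ z in B, ‖f z - fk k z‖ₑ
      ≤ ENNReal.ofReal ((1 / 4) ^ (N + k)) + volume B * T := by
    intro N
    have hm : AEMeasurable (fun z => ‖f z - fk (N + k) z‖ₑ) (volume.restrict B) :=
      ((hf.aestronglyMeasurable.sub
        (hA.smooth (N + k)).continuous.aestronglyMeasurable).enorm).restrict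
    calc ∫⁻ z in B, ‖f z - fk k z‖ₑ
        ≤ ∫⁻ z in B, (‖f z - fk (N + k) z‖ₑ + ‖fk (N + k) z - fk k z‖ₑ) := by
          apply lintegral_mono
          intro z
          show ‖f z - fk k z‖ₑ ≤ _
          have : f z - fk k z = (f z - fk (N + k) z) + (fk (N + k) z - fk k z) := by ring
          rw [this]
          exact enorm_add_le _ _
      _ = (∫⁻ z in B, ‖f z - fk (N + k) z‖ₑ) + ∫⁻ z in B, ‖fk (N + k) z - fk k z‖ₑ :=
          lintegral_add_left' hm _
      _ ≤ _ := add_le_add ((setLIntegral_le_lintegral _ _).trans (hA.close _)) (hpart N)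
  have hlim : Tendsto (fun N : ℕ => ENNReal.ofReal ((1 / 4) ^ (N + k)) + volume B * T) atTop
      (𝓝 (0 + volume B * T)) := by
    apply Tendsto.add _ tendsto_const_nhds
    have h0 : Tendsto (fun N : ℕ => ((1 : ℝ) / 4) ^ (N + k)) atTop (𝓝 0) :=
      (tendsto_pow_atTop_nhds_zero_of_lt_one (by norm_num) (by norm_num)).comp
        (tendsto_add_atTop_nat k)
    simpa using ENNReal.tendsto_ofReal h0
  rw [zero_add] at hlim
  exact ge_of_tendsto' hlim hle

/-- On a good line: means of `|f|` and `|f_k|` over the same ball are uniformly close. -/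
theorem mean_sub_le (hd : 1 ≤ d) (hA : Approx f G fk) (hf : Integrable f volume) (he : ‖e‖ = 1)
    {x : E d} (hx : GoodLine fk e x) (k : ℕ) {s r : ℝ} {c : E d} (hr : 0 < r)
    (hy : x + s • e ∈ ball c r) :
    abs ((⨍ z in ball c r, |f z|) - ⨍ z in ball c r, |fk k z|) ≤ tailCap fk e x k := by
  have hpos := ball_real_pos (c := c) hr
  have hfk := integrable_fk hA k
  have hT : ∑' n, capL (gk fk (n + k)) e x ≠ ⊤ := by
    have := ENNReal.tsum_comp_le_tsum_of_injective (f := fun n => n + k)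
      (add_left_injective k) (fun k => capL (gk fk k) e x)
    exact ne_top_of_le_ne_top hx.sumCap this
  have hvtop : volume (ball c r) ≠ ⊤ := measure_ball_lt_top.ne
  have hb := lintegral_ball_sub_le hd hA hf he (x := x) k hr hy
  have hI : Integrable (fun z => f z - fk k z) (volume.restrict (ball c r)) :=
    (hf.sub hfk).integrableOn
  have hreal : ∫ z in ball c r, |f z - fk k z|
      ≤ (volume (ball c r)).toReal * tailCap fk e x k := by
    have h1 := integral_norm_eq_lintegral_enorm (f := fun z => f z - fk k z)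
      (μ := volume.restrict (ball c r)) hI.aestronglyMeasurable
    simp only [Real.norm_eq_abs] at h1
    rw [h1, tailCap, ← ENNReal.toReal_mul]
    exact ENNReal.toReal_mono (ENNReal.mul_ne_top hvtop hT) hb
  have hint1 : IntegrableOn (fun z => |f z|) (ball c r) volume := hf.abs.integrableOn
  have hint2 : IntegrableOn (fun z => |fk k z|) (ball c r) volume := hfk.abs.integrableOn
  rw [setAverage_eq, setAverage_eq, smul_eq_mul, smul_eq_mul, ← mul_sub,
    ← integral_sub hint1 hint2, Measure.real, abs_mul, abs_of_pos (inv_pos.2 hpos),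
    inv_mul_le_iff₀ hpos]
  refine (abs_integral_le_integral_abs).trans (hreal.trans' ?_)
  refine integral_mono_of_nonneg (Eventually.of_forall fun z => abs_nonneg _) hI.abs
    (Eventually.of_forall fun z => ?_)
  exact abs_abs_sub_abs_le _ _

/-- On a good line the means of `|f|` are bounded and `Mtilde f` is a uniform limit. -/
theorem bdd_and_close (hd : 1 ≤ d) (hA : Approx f G fk) (hf : Integrable f volume) (he : ‖e‖ = 1)
    {x : E d} (hx : GoodLine fk e x) (s : ℝ) :
    BddAbove (avgSet f (x + s • e)) ∧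
      ∀ k, |Mtilde f (x + s • e) - Mtilde (fk k) (x + s • e)| ≤ tailCap fk e x k := by
  set y := x + s • e with hy
  have hbk : ∀ k, BddAbove (avgSet (fk k) y) := fun k =>
    bddAbove_avgSet_of_cs (hA.smooth k).continuous (hA.cs k) y
  have hle : ∀ k, ∀ A ∈ avgSet f y, A ≤ Mtilde (fk k) y + tailCap fk e x k := by
    rintro k A ⟨c, r, hr, hyb, rfl⟩
    have h1 := mean_sub_le hd hA hf he hx k hr hyb
    have h2 : (⨍ z in ball c r, |fk k z|) ≤ Mtilde (fk k) y :=
      le_csSup (hbk k) ⟨c, r, hr, hyb, rfl⟩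
    have := (abs_le.1 h1).2
    linarith
  have hbdd : BddAbove (avgSet f y) := ⟨_, hle 0⟩
  refine ⟨hbdd, fun k => ?_⟩
  have hne : (avgSet f y).Nonempty := ⟨_, y, 1, one_pos, mem_ball_self one_pos, rfl⟩
  have hne' : (avgSet (fk k) y).Nonempty := ⟨_, y, 1, one_pos, mem_ball_self one_pos, rfl⟩
  have h1 : Mtilde f y ≤ Mtilde (fk k) y + tailCap fk e x k := csSup_le hne (hle k)
  have h2 : Mtilde (fk k) y ≤ Mtilde f y + tailCap fk e x k := by
    refine csSup_le hne' ?_
    rintro A ⟨c, r, hr, hyb, rfl⟩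
    have h3 := mean_sub_le hd hA hf he hx k hr hyb
    have h4 : (⨍ z in ball c r, |f z|) ≤ Mtilde f y :=
      le_csSup hbdd ⟨c, r, hr, hyb, rfl⟩
    have := (abs_le.1 h3).1
    linarith
  rw [abs_le]; constructor <;> linarith

/-- On a good line `Mtilde f` is continuous. -/
theorem continuous_on_goodLine (hd : 1 ≤ d) (hA : Approx f G fk) (hf : Integrable f volume)
    (he : ‖e‖ = 1) {x : E d} (hx : GoodLine fk e x) :
    Continuous (fun s : ℝ => Mtilde f (x + s • e)) := by
  have hcont : ∀ k, Continuous (fun s : ℝ => Mtilde (fk k) (x + s • e)) := by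
    intro k
    obtain ⟨L, hL⟩ := lipschitz_Mtilde ((hA.smooth k).of_le (by simp)) (hA.cs k)
    exact hL.continuous.comp (continuous_const.add (continuous_id.smul continuous_const))
  have hU : TendstoUniformly (fun k (s : ℝ) => Mtilde (fk k) (x + s • e))
      (fun s : ℝ => Mtilde f (x + s • e)) atTop := by
    rw [Metric.tendstoUniformly_iff]
    intro ε hε
    have h0 := (tendsto_order.1 (tendsto_tailCap hx)).2 ε hε
    filter_upwards [h0] with k hk s
    rw [Real.dist_eq]
    exact ((bdd_and_close hd hA hf he hx s).2 k).trans_lt hk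
  exact hU.continuous (Eventually.of_forall hcont).frequently

private theorem exists_unit (hd : 1 ≤ d) : ∃ e : E d, ‖e‖ = 1 := by
  refine ⟨EuclideanSpace.single ⟨0, hd⟩ (1 : ℝ), by simp⟩

/-- `Mtilde f_k → Mtilde f` almost everywhere. -/
theorem ae_tendsto_Mtilde (hK : BVc d K) (hK0 : 0 ≤ K) (hd : 1 ≤ d) (hA : Approx f G fk)
    (hf : Integrable f volume) (hG : Integrable G volume) :
    ∀ᵐ x : E d, Tendsto (fun k => Mtilde (fk k) x) atTop (𝓝 (Mtilde f x)) := by
  obtain ⟨e, he⟩ := exists_unit hd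
  filter_upwards [ae_goodLine hK hK0 hA hf hG he] with x hx
  rw [tendsto_iff_dist_tendsto_zero]
  refine squeeze_zero (fun _ => dist_nonneg) (fun k => ?_) (tendsto_tailCap hx)
  have := (bdd_and_close hd hA hf he hx 0).2 k
  simp only [zero_smul, add_zero] at this
  rw [Real.dist_eq, abs_sub_comm]
  exact this

/-- The variation bound passes to the limit. -/
theorem Mtilde_bv (hK : BVc d K) (hK0 : 0 ≤ K) (hd : 1 ≤ d) (hA : Approx f G fk)
    (hf : Integrable f volume) (hG : Integrable G volume) (h : E d) :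
    ∫⁻ x, ‖Mtilde f (x + h) - Mtilde f x‖ₑ ≤ ENNReal.ofReal (K * ‖h‖) * ∫⁻ w, ‖G w‖ₑ := by
  have hae := ae_tendsto_Mtilde hK hK0 hd hA hf hG
  have hae2 : ∀ᵐ x : E d, Tendsto (fun k => Mtilde (fk k) (x + h)) atTop (𝓝 (Mtilde f (x + h))) :=
    (measurePreserving_add_right volume h).quasiMeasurePreserving.ae hae
  have hmeas : ∀ k, Measurable (fun x => ‖Mtilde (fk k) (x + h) - Mtilde (fk k) x‖ₑ) := by
    intro k
    obtain ⟨L, hL⟩ := lipschitz_Mtilde ((hA.smooth k).of_le (by simp)) (hA.cs k)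
    have hc := hL.continuous
    exact ((hc.comp (continuous_id.add continuous_const)).sub hc).measurable.enorm
  have hcongr : ∀ᵐ x : E d, ‖Mtilde f (x + h) - Mtilde f x‖ₑ
      = liminf (fun k => ‖Mtilde (fk k) (x + h) - Mtilde (fk k) x‖ₑ) atTop := by
    filter_upwards [hae, hae2] with x h1 h2
    have := ((h2.sub h1).enorm).liminf_eq
    exact this.symm
  have hbk : ∀ k, ∫⁻ x, ‖Mtilde (fk k) (x + h) - Mtilde (fk k) x‖ₑ
      ≤ ENNReal.ofReal (K * ‖h‖) * (ENNReal.ofReal ((1 / 4) ^ k) + ∫⁻ w, ‖G w‖ₑ) := by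
    intro k
    refine (hK (fk k) ((hA.smooth k).of_le (by simp)) (hA.cs k) h).trans ?_
    gcongr
    have hm : AEMeasurable (fun x => ‖gradient (fk k) x - G x‖ₑ) volume :=
      ((continuous_grad (hA.smooth k)).aestronglyMeasurable.sub hG.aestronglyMeasurable).enorm
    calc ∫⁻ w, ‖gradient (fk k) w‖ₑ
        ≤ ∫⁻ w, (‖gradient (fk k) w - G w‖ₑ + ‖G w‖ₑ) := by
          apply lintegral_mono
          intro w
          show ‖gradient (fk k) w‖ₑ ≤ _
          have : gradient (fk k) w = (gradient (fk k) w - G w) + G w := by abel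
          nth_rw 1 [this]
          exact enorm_add_le _ _
      _ = (∫⁻ w, ‖gradient (fk k) w - G w‖ₑ) + ∫⁻ w, ‖G w‖ₑ := lintegral_add_left' hm _
      _ ≤ _ := by gcongr; exact hA.closeG k
  have hlim : Tendsto (fun k : ℕ =>
      ENNReal.ofReal (K * ‖h‖) * (ENNReal.ofReal ((1 / 4) ^ k) + ∫⁻ w, ‖G w‖ₑ)) atTop
      (𝓝 (ENNReal.ofReal (K * ‖h‖) * (0 + ∫⁻ w, ‖G w‖ₑ))) := by
    apply ENNReal.Tendsto.const_mul
    · apply Tendsto.add _ tendsto_const_nhds
      have h0 : Tendsto (fun N : ℕ => ((1 : ℝ) / 4) ^ N) atTop (𝓝 0) :=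
        tendsto_pow_atTop_nhds_zero_of_lt_one (by norm_num) (by norm_num)
      simpa using ENNReal.tendsto_ofReal h0
    · exact Or.inr ENNReal.ofReal_ne_top
  rw [zero_add] at hlim
  calc ∫⁻ x, ‖Mtilde f (x + h) - Mtilde f x‖ₑ
      = ∫⁻ x, liminf (fun k => ‖Mtilde (fk k) (x + h) - Mtilde (fk k) x‖ₑ) atTop :=
        lintegral_congr_ae hcongr
    _ ≤ liminf (fun k => ∫⁻ x, ‖Mtilde (fk k) (x + h) - Mtilde (fk k) x‖ₑ) atTop :=
        lintegral_liminf_le hmeas
    _ ≤ liminf (fun k : ℕ =>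
          ENNReal.ofReal (K * ‖h‖) * (ENNReal.ofReal ((1 / 4) ^ k) + ∫⁻ w, ‖G w‖ₑ)) atTop :=
        liminf_le_liminf (Eventually.of_forall hbk)
    _ = _ := hlim.liminf_eq

private theorem hasDerivAt_line {g : E d → ℝ} (hg : ContDiff ℝ ∞ g) (x e : E d) (t : ℝ) :
    HasDerivAt (fun t : ℝ => g (x + t • e)) (inner ℝ (gradient g (x + t • e)) e) t := by
  have h1 : HasFDerivAt g (fderiv ℝ g (x + t • e)) (x + t • e) :=
    ((hg.differentiable (by simp)) _).hasFDerivAt
  have h2 : HasDerivAt (fun t : ℝ => x + t • e) e t := by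
    simpa using ((hasDerivAt_id t).smul_const e).const_add x
  have h3 := h1.comp_hasDerivAt t h2
  rwa [← inner_gradient_left] at h3

private theorem continuous_line_inner {g : E d → ℝ} (hg : ContDiff ℝ ∞ g) (x e : E d) :
    Continuous (fun s : ℝ => inner ℝ (gradient g (x + s • e)) e) :=
  ((continuous_grad hg).comp (continuous_const.add (continuous_id.smul continuous_const))).inner
    continuous_const

/-- Integrability of a sum of continuous functions with summable `L^1` norms. -/
private theorem integrable_tsum_of {D : ℕ → ℝ → ℝ} (hc : ∀ n, Continuous (D n))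
    (hs : ∑' n, ∫⁻ s, ‖D n s‖ₑ ≠ ⊤) : Integrable (fun s => ∑' n, D n s) volume := by
  have hmeas : ∀ n, Measurable (fun s => ‖D n s‖ₑ) := fun n => (hc n).measurable.enorm
  have hsum : ∫⁻ s, ∑' n, ‖D n s‖ₑ = ∑' n, ∫⁻ s, ‖D n s‖ₑ :=
    lintegral_tsum fun n => (hmeas n).aemeasurable
  have hfin : ∫⁻ s, ∑' n, ‖D n s‖ₑ ≠ ⊤ := by rw [hsum]; exact hs
  have hae : ∀ᵐ s : ℝ, ∑' n, ‖D n s‖ₑ < ⊤ := ae_lt_top (Measurable.tsum hmeas) hfin
  have hae2 : ∀ᵐ s : ℝ, Summable (fun n => D n s) := by
    filter_upwards [hae] with s hs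
    exact (tsum_enorm_ne_top_iff_summable_norm.1 hs.ne).of_norm
  refine ⟨aestronglyMeasurable_of_tendsto_ae atTop
    (f := fun N s => ∑ n ∈ Finset.range N, D n s)
    (fun N => (continuous_finsetSum _ fun n _ => hc n).aestronglyMeasurable)
    (hae2.mono fun s h => h.hasSum.tendsto_sum_nat), ?_⟩
  refine lt_of_le_of_lt (lintegral_mono fun s => enorm_tsum_le_tsum_enorm) (lt_top_iff_ne_top.2 hfin)

/-- Termwise integration on a measurable set. -/
private theorem hasSum_setIntegral_of {D : ℕ → ℝ → ℝ} (hc : ∀ n, Continuous (D n))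
    (hs : ∑' n, ∫⁻ s, ‖D n s‖ₑ ≠ ⊤) (S : Set ℝ) :
    HasSum (fun n => ∫ s in S, D n s) (∫ s in S, ∑' n, D n s) := by
  have hfin : ∀ n, ∫⁻ s, ‖D n s‖ₑ ≠ ⊤ := fun n => ne_top_of_le_ne_top hs (ENNReal.le_tsum n)
  have hint : ∀ n, Integrable (D n) volume := fun n =>
    ⟨(hc n).aestronglyMeasurable, lt_top_iff_ne_top.2 (hfin n)⟩
  refine hasSum_integral_of_summable_integral_norm (μ := volume.restrict S) (F := D)
    (fun n => (hint n).restrict) ?_
  have hle : ∀ n, ∫ s in S, ‖D n s‖ = (∫⁻ s in S, ‖D n s‖ₑ).toReal := fun n =>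
    integral_norm_eq_lintegral_enorm (hc n).aestronglyMeasurable
  simp_rw [hle]
  refine ENNReal.summable_toReal (ne_top_of_le_ne_top hs
    (ENNReal.tsum_le_tsum fun n => setLIntegral_le_lintegral _ _))

/-- Termwise integration on an interval. -/
private theorem hasSum_intervalIntegral_of {D : ℕ → ℝ → ℝ} (hc : ∀ n, Continuous (D n))
    (hs : ∑' n, ∫⁻ s, ‖D n s‖ₑ ≠ ⊤) (a b : ℝ) :
    HasSum (fun n => ∫ s in a..b, D n s) (∫ s in a..b, ∑' n, D n s) := by
  simp only [intervalIntegral]
  exact (hasSum_setIntegral_of hc hs _).sub (hasSum_setIntegral_of hc hs _)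

/-- The absolutely continuous trace of `f` on a good line: limit of `f_k` on the line. -/
theorem exists_trace (hd : 1 ≤ d) (hA : Approx f G fk) (he : ‖e‖ = 1) {x : E d}
    (hx : GoodLine fk e x) :
    ∃ F : ℝ → ℝ, (∀ a b, AbsolutelyContinuousOnInterval F a b) ∧
      ∀ t, Tendsto (fun k => fk k (x + t • e)) atTop (𝓝 (F t)) := by
  have hbd : ∀ (n : ℕ) (t : ℝ), ‖gk fk n (x + t • e)‖ ≤ (capL (gk fk n) e x).toReal := by
    intro n t
    have hc1 := contDiff_gk hA n
    have h1 := abs_le_Mtilde hc1.continuous (cs_gk hA n) (x + t • e)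
    have h2 := Mtilde_le_capL hd (hc1.of_le (by simp)) (cs_gk hA n) he x t
    have hfin : capL (gk fk n) e x ≠ ⊤ := ne_top_of_le_ne_top hx.sumCap (ENNReal.le_tsum n)
    have h3 : Mtilde (gk fk n) (x + t • e) ≤ (capL (gk fk n) e x).toReal := by
      have := ENNReal.toReal_mono hfin h2
      rwa [ENNReal.toReal_ofReal (Mtilde_nonneg _ _)] at this
    rw [Real.norm_eq_abs]; exact h1.trans h3
  have hsum : Summable (fun n => (capL (gk fk n) e x).toReal) := ENNReal.summable_toReal hx.sumCap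
  have hsG : ∀ t : ℝ, Summable (fun n => gk fk n (x + t • e)) := fun t =>
    Summable.of_norm_bounded hsum (fun n => hbd n t)
  let F : ℝ → ℝ := fun t => fk 0 (x + t • e) + ∑' n, gk fk n (x + t • e)
  have htend : ∀ t, Tendsto (fun k => fk k (x + t • e)) atTop (𝓝 (F t)) := by
    intro t
    have h := ((hsG t).hasSum.tendsto_sum_nat).const_add (fk 0 (x + t • e))
    refine h.congr fun k => ?_
    simp only [gk]
    rw [Finset.sum_range_sub (fun i => fk i (x + t • e)) k]
    ring
  refine ⟨F, ?_, htend⟩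
  let D : ℕ → ℝ → ℝ := fun n s => inner ℝ (gradient (gk fk n) (x + s • e)) e
  let D0 : ℝ → ℝ := fun s => inner ℝ (gradient (fk 0) (x + s • e)) e
  have hcD : ∀ n, Continuous (D n) := fun n => continuous_line_inner (contDiff_gk hA n) x e
  have hcD0 : Continuous D0 := continuous_line_inner (hA.smooth 0) x e
  have hsD : ∑' n, ∫⁻ s, ‖D n s‖ₑ ≠ ⊤ := hx.sumDer
  have hφ : Integrable (fun s => ∑' n, D n s) volume := integrable_tsum_of hcD hsD
  let ψ : ℝ → ℝ := fun s => D0 s + ∑' n, D n s
  have hψ : ∀ a b, IntervalIntegrable ψ volume a b := fun a b =>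
    (hcD0.intervalIntegrable a b).add (hφ.intervalIntegrable)
  have hkey : ∀ a t, F t = F a + ∫ s in a..t, ψ s := by
    intro a t
    have h1 : ∫ s in a..t, ψ s = (∫ s in a..t, D0 s) + ∫ s in a..t, ∑' n, D n s :=
      intervalIntegral.integral_add (hcD0.intervalIntegrable a t) hφ.intervalIntegrable
    have h2 : ∫ s in a..t, D0 s = fk 0 (x + t • e) - fk 0 (x + a • e) :=
      intervalIntegral.integral_eq_sub_of_hasDerivAt
        (fun s _ => hasDerivAt_line (hA.smooth 0) x e s) (hcD0.intervalIntegrable a t)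
    have h3 : ∀ n, ∫ s in a..t, D n s = gk fk n (x + t • e) - gk fk n (x + a • e) := fun n =>
      intervalIntegral.integral_eq_sub_of_hasDerivAt
        (fun s _ => hasDerivAt_line (contDiff_gk hA n) x e s) ((hcD n).intervalIntegrable a t)
    have h4 := hasSum_intervalIntegral_of hcD hsD a t
    simp_rw [h3] at h4
    have h5 := ((hsG t).hasSum.sub (hsG a).hasSum).unique h4
    rw [h1, h2, ← h5]
    simp only [F]
    ring
  intro a b
  have hac : AbsolutelyContinuousOnInterval (fun t => ∫ s in a..t, ψ s) a b :=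
    (hψ a b).absolutelyContinuousOnInterval_intervalIntegral left_mem_uIcc
  have hconst : AbsolutelyContinuousOnInterval (fun _ : ℝ => F a) a b :=
    ((LipschitzWith.const (F a)).lipschitzOnWith (s := uIcc a b)).absolutelyContinuousOnInterval
  have : F = (fun _ : ℝ => F a) + (fun t => ∫ s in a..t, ψ s) := by
    funext t; simp only [Pi.add_apply]; exact hkey a t
  rw [this]
  exact hconst.add hac

/-- Contact property: every point of a good line is either a point where `Mtilde f` equals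
a truncated maximal function at some scale, or the value of `|F|`. -/
theorem contact (hd : 1 ≤ d) (hA : Approx f G fk) (hf : Integrable f volume) (he : ‖e‖ = 1)
    {x : E d} (hx : GoodLine fk e x) {F : ℝ → ℝ}
    (hF : ∀ t, Tendsto (fun k => fk k (x + t • e)) atTop (𝓝 (F t))) (t : ℝ) :
    Mtilde f (x + t • e) = F t ∨ Mtilde f (x + t • e) = - F t ∨
      ∃ n : ℕ, Mtilde f (x + t • e) = aM (fun z => |f z|) ((n : ℝ) + 1)⁻¹ (x + t • e) := by
  have hclose := bdd_and_close hd hA hf he hx t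
  set y := x + t • e with hy
  have hbdd : BddAbove (avgSet f y) := hclose.1
  have hne : (avgSet f y).Nonempty := ⟨_, y, 1, one_pos, mem_ball_self one_pos, rfl⟩
  by_cases hex : ∃ n : ℕ, Mtilde f y = aM (fun z => |f z|) ((n : ℝ) + 1)⁻¹ y
  · exact Or.inr (Or.inr hex)
  push Not at hex
  have hρ : ∀ n : ℕ, (0 : ℝ) < ((n : ℝ) + 1)⁻¹ := fun n => by positivity
  have hsub : ∀ n : ℕ, ∀ A ∈ {A : ℝ | ∃ (c : E d) (r : ℝ), ((n : ℝ) + 1)⁻¹ ≤ r ∧ y ∈ ball c r ∧
      A = ⨍ z in ball c r, (fun z => |f z|) z}, A ∈ avgSet f y := by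
    rintro n A ⟨c, r, hr, hyb, rfl⟩
    exact ⟨c, r, (hρ n).trans_le hr, hyb, rfl⟩
  have hle : ∀ n : ℕ, aM (fun z => |f z|) ((n : ℝ) + 1)⁻¹ y ≤ Mtilde f y := by
    intro n
    refine csSup_le ⟨_, y, (n + 1 : ℝ)⁻¹ + 1, le_add_of_nonneg_right zero_le_one,
      mem_ball_self (by positivity), rfl⟩ ?_
    intro A hA'
    exact le_csSup hbdd (hsub n A hA')
  have hlt : ∀ n : ℕ, aM (fun z => |f z|) ((n : ℝ) + 1)⁻¹ y < Mtilde f y := fun n =>
    lt_of_le_of_ne (hle n) (hex n).symm
  have hle1 : |F t| ≤ Mtilde f y := by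
    have h1 : ∀ k, |fk k y| ≤ Mtilde f y + tailCap fk e x k := by
      intro k
      have h2 := abs_le_Mtilde (hA.smooth k).continuous (hA.cs k) y
      have h3 := (abs_le.1 (hclose.2 k)).1
      linarith
    have h4 : Tendsto (fun k => Mtilde f y + tailCap fk e x k) atTop (𝓝 (Mtilde f y + 0)) :=
      tendsto_const_nhds.add (tendsto_tailCap hx)
    rw [add_zero] at h4
    exact le_of_tendsto_of_tendsto' (hF t).abs h4 h1
  have hle2 : Mtilde f y ≤ |F t| := by
    refine le_of_forall_pos_le_add fun ε hε => ?_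
    set η := ε / 4 with hη
    have hηpos : 0 < η := by positivity
    have h1 := (tendsto_order.1 (tendsto_tailCap hx)).2 η hηpos
    have h2 := (Metric.tendsto_nhds.1 (hF t)) η hηpos
    obtain ⟨k, hk1, hk2⟩ := (h1.and h2).exists
    obtain ⟨δ, hδ, hsmall⟩ := mean_le_of_small_ball (hA.smooth k).continuous y hηpos
    obtain ⟨n, hn⟩ := exists_nat_gt (δ⁻¹)
    have hnδ : ((n : ℝ) + 1)⁻¹ ≤ δ := by
      rw [inv_le_comm₀ (by positivity) hδ]
      linarith
    have hA1 : max (Mtilde f y - η) (aM (fun z => |f z|) ((n : ℝ) + 1)⁻¹ y) < sSup (avgSet f y) :=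
      max_lt (by show Mtilde f y - η < Mtilde f y; linarith) (hlt n)
    obtain ⟨a, ⟨c, r, hr, hyb, rfl⟩, ha⟩ := exists_lt_of_lt_csSup hne hA1
    have hrδ : r < ((n : ℝ) + 1)⁻¹ := by
      by_contra hcon
      push Not at hcon
      have hbd2 : BddAbove {A : ℝ | ∃ (c : E d) (r : ℝ), ((n : ℝ) + 1)⁻¹ ≤ r ∧ y ∈ ball c r ∧
          A = ⨍ z in ball c r, (fun z => |f z|) z} :=
        ⟨Mtilde f y, fun A hA' => le_csSup hbdd (hsub n A hA')⟩
      have : (⨍ z in ball c r, |f z|) ≤ aM (fun z => |f z|) ((n : ℝ) + 1)⁻¹ y :=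
        le_csSup hbd2 ⟨c, r, hcon, hyb, rfl⟩
      exact absurd (lt_of_le_of_lt (le_max_right _ _) ha) (not_lt.2 this)
    have h3 := (abs_le.1 (mean_sub_le hd hA hf he hx k hr hyb)).2
    have h4 := hsmall c r hr (hrδ.trans_le hnδ) hyb
    have h5 : |fk k y| ≤ |F t| + η := by
      rw [Real.dist_eq] at hk2
      have := abs_sub_abs_le_abs_sub (fk k y) (F t)
      linarith
    have h6 := lt_of_le_of_lt (le_max_left _ _) ha
    linarith [hk1]
  have heq : Mtilde f y = |F t| := le_antisymm hle2 hle1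
  rcases abs_choice (F t) with h | h
  · exact Or.inl (heq.trans h)
  · exact Or.inr (Or.inl (heq.trans h))

end ValeP137
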