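import Vale.Agent.Lib.P137W.GoodLine

/-! Good lines: contact property and passage to the limit. -/

open MeasureTheory Metric Set Filter Topology
open scoped ENNReal RealInnerProductSpace ContDiff

noncomputable section

namespace ValeP137

variable {d : ℕ} {f : E d → ℝ} {G : E d → E d} {fk : ℕ → E d → ℝ} {e : E d} {K : ℝ}

theorem avgSet_nonempty (f : E d → ℝ) (y : E d) : (avgSet f y).Nonempty :=
  ⟨_, y, 1, one_pos, mem_ball_self one_pos, rfl⟩

/-- The truncated maximal function is at most the full one. -/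
theorem aM_le_Mtilde {f : E d → ℝ} {y : E d} {ρ : ℝ} (hρ : 0 < ρ) (hb : BddAbove (avgSet f y)) :
    aM (fun z => |f z|) ρ y ≤ Mtilde f y := by
  apply csSup_le_csSup hb
  · exact ⟨_, y, ρ, le_rfl, mem_ball_self hρ, rfl⟩
  · rintro A ⟨c, r, hr, hy, rfl⟩
    exact ⟨c, r, lt_of_lt_of_le hρ hr, hy, rfl⟩

/-- Contact property: every point of a good line is either a point where `Mtilde f` equals
a truncated maximal function at some scale, or the value of `|F|`. -/
theorem contact' (hd : 1 ≤ d) (hA : Approx f G fk) (hf : Integrable f volume) (he : ‖e‖ = 1)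
    {x : E d} (hx : GoodLine fk e x) {F : ℝ → ℝ}
    (hF : ∀ t, Tendsto (fun k => fk k (x + t • e)) atTop (𝓝 (F t))) (t : ℝ) :
    Mtilde f (x + t • e) = F t ∨ Mtilde f (x + t • e) = - F t ∨
      ∃ n : ℕ, Mtilde f (x + t • e) = aM (fun z => |f z|) ((n : ℝ) + 1)⁻¹ (x + t • e) := by
  by_cases h3 : ∃ n : ℕ, Mtilde f (x + t • e) = aM (fun z => |f z|) ((n : ℝ) + 1)⁻¹ (x + t • e)
  · exact Or.inr (Or.inr h3)
  have h3' : ∀ n : ℕ, Mtilde f (x + t • e) ≠ aM (fun z => |f z|) ((n : ℝ) + 1)⁻¹ (x + t • e) :=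
    fun n hn => h3 ⟨n, hn⟩
  set y := x + t • e with hy
  obtain ⟨hb, hclose⟩ := bdd_and_close hd hA hf he hx t
  rw [← hy] at hb hclose
  have htail := tendsto_tailCap hx
  have hlim := hF t
  rw [← hy] at hlim
  -- lower bound
  have hlow : |F t| ≤ Mtilde f y := by
    have h1 : Tendsto (fun k => |fk k y| - tailCap fk e x k) atTop (𝓝 (|F t| - 0)) :=
      hlim.abs.sub htail
    rw [sub_zero] at h1
    refine le_of_tendsto h1 (Eventually.of_forall fun k => ?_)
    have h2 := abs_le_Mtilde (hA.smooth k).continuous (hA.cs k) y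
    have h3 := abs_le.1 (hclose k)
    linarith [h3.1]
  -- upper bound
  have hup : Mtilde f y ≤ |F t| := by
    refine le_of_forall_pos_le_add fun ε hε => ?_
    set η := ε / 4 with hη
    have hηpos : 0 < η := by positivity
    have ev1 : ∀ᶠ k in atTop, tailCap fk e x k < η :=
      htail.eventually (gt_mem_nhds hηpos)
    have ev2 : ∀ᶠ k in atTop, |fk k y - F t| < η := by
      have := (tendsto_iff_dist_tendsto_zero.1 hlim).eventually (gt_mem_nhds hηpos)
      simpa [Real.dist_eq] using this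
    obtain ⟨k, hk1, hk2⟩ := (ev1.and ev2).exists
    obtain ⟨δ, hδ, hsmall⟩ := mean_le_of_small_ball (hA.smooth k).continuous y hηpos
    obtain ⟨n, hn⟩ := exists_nat_one_div_lt hδ
    have hnpos : (0 : ℝ) < ((n : ℝ) + 1)⁻¹ := by positivity
    have hlt : aM (fun z => |f z|) ((n : ℝ) + 1)⁻¹ y < Mtilde f y :=
      lt_of_le_of_ne (aM_le_Mtilde hnpos hb) (h3' n).symm
    -- a ball almost achieving the supremum
    have htarget : max (aM (fun z => |f z|) ((n : ℝ) + 1)⁻¹ y) (Mtilde f y - η) < sSup (avgSet f y) := by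
      rw [← Mtilde_eq_sSup]
      exact max_lt hlt (by linarith)
    obtain ⟨A, hA1, hA2⟩ := exists_lt_of_lt_csSup (avgSet_nonempty f y) htarget
    obtain ⟨c, r, hr, hyc, rfl⟩ := hA1
    have hsm : r < ((n : ℝ) + 1)⁻¹ := by
      by_contra hcon
      have hge : ((n : ℝ) + 1)⁻¹ ≤ r := not_lt.1 hcon
      have hle : (⨍ z in ball c r, |f z|) ≤ aM (fun z => |f z|) ((n : ℝ) + 1)⁻¹ y :=
        le_csSup (bddAbove_aM_set hf hnpos y) ⟨c, r, hge, hyc, rfl⟩
      exact absurd (lt_of_le_of_lt (le_max_left _ _) hA2) (not_lt.2 hle)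
    have hrδ : r < δ := by
      have : ((n : ℝ) + 1)⁻¹ = 1 / ((n : ℝ) + 1) := by rw [one_div]
      rw [this] at hsm
      linarith
    have h1 := hsmall c r hr hrδ hyc
    have h2 := abs_le.1 (mean_sub_le hd hA hf he hx k hr (by rw [← hy]; exact hyc))
    have h3 : Mtilde f y - η < ⨍ z in ball c r, |f z| := lt_of_le_of_lt (le_max_right _ _) hA2
    have h4 : |fk k y| ≤ |F t| + |fk k y - F t| := by
      have := abs_sub_abs_le_abs_sub (fk k y) (F t)
      linarith
    linarith [h2.2]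
  have heq : Mtilde f y = |F t| := le_antisymm hup hlow
  rcases abs_cases (F t) with ⟨h, _⟩ | ⟨h, _⟩
  · left
    rw [heq, h]
  · right
    left
    rw [heq, h]

/-- A unit vector. -/
theorem exists_unit (hd : 1 ≤ d) : ∃ e : E d, ‖e‖ = 1 := by
  exact ⟨EuclideanSpace.single ⟨0, hd⟩ 1, by simp⟩

/-- `Mtilde f_k → Mtilde f` almost everywhere. -/
theorem ae_tendsto_Mtilde' (hK : BVc d K) (hK0 : 0 ≤ K) (hd : 1 ≤ d) (hA : Approx f G fk)
    (hf : Integrable f volume) (hG : Integrable G volume) :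
    ∀ᵐ x : E d, Tendsto (fun k => Mtilde (fk k) x) atTop (𝓝 (Mtilde f x)) := by
  obtain ⟨e, he⟩ := exists_unit hd
  filter_upwards [ae_goodLine hK hK0 hA hf hG he] with x hx
  have h := (bdd_and_close hd hA hf he hx 0).2
  have h0 : x + (0 : ℝ) • e = x := by simp
  rw [h0] at h
  have htail := tendsto_tailCap hx
  rw [tendsto_iff_dist_tendsto_zero]
  refine squeeze_zero (fun k => dist_nonneg) (fun k => ?_) htail
  rw [Real.dist_eq, abs_sub_comm]
  exact h k

/-- The variation bound passes to the limit. -/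
theorem Mtilde_bv' (hK : BVc d K) (hK0 : 0 ≤ K) (hd : 1 ≤ d) (hA : Approx f G fk)
    (hf : Integrable f volume) (hG : Integrable G volume) (h : E d) :
    ∫⁻ x, ‖Mtilde f (x + h) - Mtilde f x‖ₑ ≤ ENNReal.ofReal (K * ‖h‖) * ∫⁻ w, ‖G w‖ₑ := by
  have hae := ae_tendsto_Mtilde' hK hK0 hd hA hf hG
  have hae' : ∀ᵐ x : E d, Tendsto (fun k => Mtilde (fk k) (x + h)) atTop (𝓝 (Mtilde f (x + h))) :=
    (measurePreserving_add_right (volume : Measure (E d)) h).quasiMeasurePreserving.ae hae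
  have hlim : ∀ᵐ x : E d, Tendsto (fun k => ‖Mtilde (fk k) (x + h) - Mtilde (fk k) x‖ₑ) atTop
      (𝓝 ‖Mtilde f (x + h) - Mtilde f x‖ₑ) := by
    filter_upwards [hae, hae'] with x h1 h2
    exact (h2.sub h1).enorm
  have hmeas : ∀ k, Measurable (fun x => ‖Mtilde (fk k) (x + h) - Mtilde (fk k) x‖ₑ) := by
    intro k
    obtain ⟨L, hL⟩ := lipschitz_Mtilde ((hA.smooth k).of_le (by simp)) (hA.cs k)
    have hc : Continuous (Mtilde (fk k)) := hL.continuous
    have : Continuous (fun x => Mtilde (fk k) (x + h) - Mtilde (fk k) x) :=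
      (hc.comp (continuous_id.add continuous_const)).sub hc
    exact this.measurable.enorm
  have hF : ∫⁻ x, ‖Mtilde f (x + h) - Mtilde f x‖ₑ
      ≤ liminf (fun k => ∫⁻ x, ‖Mtilde (fk k) (x + h) - Mtilde (fk k) x‖ₑ) atTop := by
    calc ∫⁻ x, ‖Mtilde f (x + h) - Mtilde f x‖ₑ
        = ∫⁻ x, liminf (fun k => ‖Mtilde (fk k) (x + h) - Mtilde (fk k) x‖ₑ) atTop := by
          apply lintegral_congr_ae
          filter_upwards [hlim] with x hx
          exact hx.liminf_eq.symm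
      _ ≤ _ := lintegral_liminf_le hmeas
  refine le_trans hF ?_
  -- the gradients
  have hGm : AEMeasurable (fun w => ‖G w‖ₑ) volume := hG.aestronglyMeasurable.enorm
  have hgrad : ∀ k, ∫⁻ w, ‖gradient (fk k) w‖ₑ ≤ (∫⁻ w, ‖G w‖ₑ) + ENNReal.ofReal ((1 / 4) ^ k) := by
    intro k
    calc ∫⁻ w, ‖gradient (fk k) w‖ₑ
        ≤ ∫⁻ w, (‖G w‖ₑ + ‖gradient (fk k) w - G w‖ₑ) := by
          apply lintegral_mono
          intro w
          have : gradient (fk k) w = G w + (gradient (fk k) w - G w) := by abel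
          calc ‖gradient (fk k) w‖ₑ = ‖G w + (gradient (fk k) w - G w)‖ₑ := by rw [← this]
            _ ≤ _ := enorm_add_le _ _
      _ = (∫⁻ w, ‖G w‖ₑ) + ∫⁻ w, ‖gradient (fk k) w - G w‖ₑ := lintegral_add_left' hGm _
      _ ≤ _ := by gcongr; exact hA.closeG k
  have hstep : ∀ k, ∫⁻ x, ‖Mtilde (fk k) (x + h) - Mtilde (fk k) x‖ₑ
      ≤ ENNReal.ofReal (K * ‖h‖) * ((∫⁻ w, ‖G w‖ₑ) + ENNReal.ofReal ((1 / 4) ^ k)) := by
    intro k
    refine le_trans (hK (fk k) ((hA.smooth k).of_le (by simp)) (hA.cs k) h) ?_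
    gcongr
    exact hgrad k
  have hto : Tendsto (fun k : ℕ => ENNReal.ofReal (K * ‖h‖) *
      ((∫⁻ w, ‖G w‖ₑ) + ENNReal.ofReal ((1 / 4) ^ k))) atTop
      (𝓝 (ENNReal.ofReal (K * ‖h‖) * ((∫⁻ w, ‖G w‖ₑ) + 0))) := by
    apply ENNReal.Tendsto.const_mul
    · apply Tendsto.add tendsto_const_nhds
      have : Tendsto (fun k : ℕ => ((1 : ℝ) / 4) ^ k) atTop (𝓝 0) :=
        tendsto_pow_atTop_nhds_zero_of_lt_one (by norm_num) (by norm_num)
      simpa using ENNReal.tendsto_ofReal this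
    · exact Or.inr ENNReal.ofReal_ne_top
  rw [add_zero] at hto
  rw [← hto.liminf_eq]
  exact liminf_le_liminf (Eventually.of_forall hstep)

end ValeP137
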