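import Mathlib

/-! One-dimensional core of the Sobolev layer: a continuous function of locally bounded
variation whose graph is covered by countably many absolutely continuous graphs is absolutely
continuous. No Banach indicatrix: only the Sard lemma in dimension one. -/

namespace Vale.Agent.Lib.P137W

open MeasureTheory Set Filter Topology
open scoped ENNReal NNReal

/-- Functions controlled by a locally finite measure on intervals map `ν`-null sets to null sets. -/
theorem image_null_of_le_measure (ν : Measure ℝ) [IsLocallyFiniteMeasure ν] {ψ : ℝ → ℝ}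
    (hψ : ∀ s t : ℝ, s ≤ t → ENNReal.ofReal |ψ t - ψ s| ≤ ν (Icc s t))
    {E : Set ℝ} (hE : ν E = 0) : volume (ψ '' E) = 0 := by
  rw [← nonpos_iff_eq_zero]
  refine ENNReal.le_of_forall_pos_le_add ?_
  intro ε hε _
  have hεpos : (0 : ℝ≥0∞) < (ε : ℝ≥0∞) := by exact_mod_cast hε
  obtain ⟨U, hEU, hU, hνU⟩ := E.exists_isOpen_lt_of_lt (μ := ν) _ (by rw [hE]; exact hεpos)
  -- components
  let J : ℝ → Set ℝ := fun x => ordConnectedComponent U x
  have hJopen : ∀ x, IsOpen (J x) := by
    intro x
    rw [isOpen_iff_mem_nhds]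
    intro y hy
    have hyU : y ∈ U := ordConnectedComponent_subset hy
    obtain ⟨δ, hδ, hball⟩ := Metric.isOpen_iff.1 hU y hyU
    have hsub : Metric.ball y δ ⊆ J x := by
      intro z hz
      have hyx : y ∈ ordConnectedComponent U x := hy
      rw [mem_ordConnectedComponent] at hyx ⊢
      have h1 : uIcc x z ⊆ uIcc x y ∪ uIcc y z := uIcc_subset_uIcc_union_uIcc
      refine h1.trans (union_subset hyx ?_)
      intro w hw
      apply hball
      rw [Metric.mem_ball, Real.dist_eq] at hz ⊢
      have := abs_sub_left_of_mem_uIcc hw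
      linarith [abs_sub_comm w y]
    exact Filter.mem_of_superset (Metric.ball_mem_nhds y hδ) hsub
  let 𝒥 : Set (Set ℝ) := (fun x => J x) '' U
  have hdisj : 𝒥.Pairwise Disjoint := by
    rintro _ ⟨x, hx, rfl⟩ _ ⟨y, hy, rfl⟩ hne
    by_contra hnd
    apply hne
    rcases Set.not_disjoint_iff.1 hnd with ⟨z, hz1, hz2⟩
    have h1 : ordConnectedComponent U x = ordConnectedComponent U z :=
      ordConnectedComponent_eq (by
        rw [mem_ordConnectedComponent] at hz1; exact hz1)
    have h2 : ordConnectedComponent U y = ordConnectedComponent U z :=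
      ordConnectedComponent_eq (by
        rw [mem_ordConnectedComponent] at hz2; exact hz2)
    show ordConnectedComponent U x = ordConnectedComponent U y
    rw [h1, h2]
  have hcount : 𝒥.Countable := by
    have : 𝒥.PairwiseDisjoint id := hdisj
    refine this.countable_of_isOpen ?_ ?_
    · rintro _ ⟨x, _, rfl⟩; exact hJopen x
    · rintro _ ⟨x, hx, rfl⟩; exact ⟨x, self_mem_ordConnectedComponent.2 hx⟩
  have hmeas : ∀ t ∈ 𝒥, MeasurableSet t := by
    rintro _ ⟨x, _, rfl⟩; exact (hJopen x).measurableSet
  have hU_eq : U = ⋃₀ 𝒥 := by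
    ext x; constructor
    · intro hx; exact ⟨J x, ⟨x, hx, rfl⟩, self_mem_ordConnectedComponent.2 hx⟩
    · rintro ⟨_, ⟨y, _, rfl⟩, hxy⟩; exact ordConnectedComponent_subset hxy
  have hpiece : ∀ t ∈ 𝒥, volume (ψ '' t) ≤ ν t := by
    rintro _ ⟨x, _, rfl⟩
    refine (Real.volume_le_diam _).trans ?_
    refine Metric.ediam_le ?_
    rintro _ ⟨s, hs, rfl⟩ _ ⟨t, ht, rfl⟩
    have hsub : uIcc s t ⊆ J x := by
      intro w hw
      have h1 : uIcc x w ⊆ uIcc x s ∪ uIcc s w := uIcc_subset_uIcc_union_uIcc
      have hsU : uIcc x s ⊆ U := mem_ordConnectedComponent.1 hs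
      have htU : uIcc x t ⊆ U := mem_ordConnectedComponent.1 ht
      have hsx : uIcc s w ⊆ uIcc s t := uIcc_subset_uIcc_left hw
      have hst : uIcc s t ⊆ uIcc s x ∪ uIcc x t := uIcc_subset_uIcc_union_uIcc
      refine mem_ordConnectedComponent.2 (h1.trans (union_subset hsU (hsx.trans (hst.trans ?_))))
      rw [uIcc_comm s x]; exact union_subset hsU htU
    rcases le_total s t with hst | hst
    · have := hψ s t hst
      rw [edist_comm, edist_dist, Real.dist_eq]
      refine this.trans (measure_mono ?_)
      rw [uIcc_of_le hst] at hsub; exact hsub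
    · have := hψ t s hst
      rw [edist_dist, Real.dist_eq]
      refine this.trans (measure_mono ?_)
      rw [uIcc_of_ge hst] at hsub; exact hsub
  calc volume (ψ '' E) ≤ volume (ψ '' U) := measure_mono (image_mono hEU)
    _ = volume (⋃ t ∈ 𝒥, ψ '' t) := by rw [hU_eq, sUnion_eq_biUnion, image_iUnion₂]
    _ ≤ ∑' t : 𝒥, volume (ψ '' (t : Set ℝ)) := measure_biUnion_le _ hcount _
    _ ≤ ∑' t : 𝒥, ν (t : Set ℝ) := ENNReal.tsum_le_tsum fun t => hpiece t t.2
    _ = ν U := by
        rw [hU_eq, sUnion_eq_biUnion, measure_biUnion hcount hdisj hmeas]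
    _ ≤ 0 + ε := by rw [zero_add]; exact hνU.le

/-- If `γ` is interval integrable everywhere it is locally integrable. -/
theorem locallyIntegrable_of_intervalIntegrable {γ : ℝ → ℝ}
    (h : ∀ a b, IntervalIntegrable γ volume a b) : LocallyIntegrable γ volume := by
  rw [locallyIntegrable_iff]
  intro k hk
  obtain ⟨R, hR⟩ := hk.isBounded.subset_closedBall 0
  have h1 : IntegrableOn γ (Ioc (-|R| - 1) (|R|)) volume := by
    have := (intervalIntegrable_iff_integrableOn_Ioc_of_le
      (show -|R| - 1 ≤ |R| by linarith [abs_nonneg R])).1 (h (-|R| - 1) (|R|))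
    exact this
  refine h1.mono_set ?_
  intro x hx
  have := hR hx
  rw [Metric.mem_closedBall, Real.dist_eq, sub_zero] at this
  have h2 := abs_le.1 (this.trans (le_abs_self R))
  exact ⟨by linarith, h2.2⟩

/-- A function which is absolutely continuous on every interval has Lusin's property (N). -/
theorem image_null_of_ac {ψ : ℝ → ℝ} (hψ : ∀ a b, AbsolutelyContinuousOnInterval ψ a b)
    {E : Set ℝ} (hE : volume E = 0) : volume (ψ '' E) = 0 := by
  have hint : ∀ a b, IntervalIntegrable (deriv ψ) volume a b :=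
    fun a b => (hψ a b).intervalIntegrable_deriv
  have hloc : LocallyIntegrable (deriv ψ) volume := locallyIntegrable_of_intervalIntegrable hint
  let ν : Measure ℝ := volume.withDensity (fun x => ‖deriv ψ x‖ₑ)
  have : IsLocallyFiniteMeasure ν := by
    refine ⟨fun x => ?_⟩
    refine ⟨Icc (x - 1) (x + 1), Icc_mem_nhds (by linarith) (by linarith), ?_⟩
    show volume.withDensity (fun x => ‖deriv ψ x‖ₑ) _ < ∞
    rw [withDensity_apply _ measurableSet_Icc]
    exact (hloc.integrableOn_isCompact isCompact_Icc).hasFiniteIntegral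
  refine image_null_of_le_measure ν ?_ (withDensity_absolutelyContinuous _ _ hE)
  intro s t hst
  show _ ≤ volume.withDensity (fun x => ‖deriv ψ x‖ₑ) _
  rw [withDensity_apply _ measurableSet_Icc, ← (hψ s t).integral_deriv_eq_sub]
  rw [intervalIntegral.integral_of_le hst]
  have h1 := enorm_integral_le_lintegral_enorm (μ := volume.restrict (Ioc s t)) (deriv ψ)
  calc ENNReal.ofReal |∫ x in Ioc s t, deriv ψ x| = ‖∫ x in Ioc s t, deriv ψ x‖ₑ := by
        rw [Real.enorm_eq_ofReal_abs]
    _ ≤ ∫⁻ x in Ioc s t, ‖deriv ψ x‖ₑ := h1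
    _ ≤ ∫⁻ x in Icc s t, ‖deriv ψ x‖ₑ := lintegral_mono_set Ioc_subset_Icc_self

/-- Main one dimensional statement. -/
theorem ac_of_contact {T : ℝ → ℝ} (hc : Continuous T)
    (hbv : ∀ a b, BoundedVariationOn T (uIcc a b))
    {ψ : ℕ → ℝ → ℝ} (hψ : ∀ n a b, AbsolutelyContinuousOnInterval (ψ n) a b)
    (hcontact : ∀ t, ∃ n, T t = ψ n t) (a b : ℝ) :
    AbsolutelyContinuousOnInterval T a b := by
  have hint : ∀ a b, IntervalIntegrable (deriv T) volume a b :=
    fun a b => (hbv a b).intervalIntegrable_deriv
  have hloc : LocallyIntegrable (deriv T) volume := locallyIntegrable_of_intervalIntegrable hint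
  let I : ℝ → ℝ := fun t => ∫ v in (0:ℝ)..t, deriv T v
  have hIac : ∀ a b, AbsolutelyContinuousOnInterval I a b := by
    intro a b
    have h0 : AbsolutelyContinuousOnInterval I (min a (min b 0)) (max a (max b 0)) := by
      refine (hint _ _).absolutelyContinuousOnInterval_intervalIntegral ?_
      rw [mem_uIcc]; left
      exact ⟨by simp, by simp⟩
    refine h0.mono ?_
    apply uIcc_subset_uIcc <;> rw [mem_uIcc] <;> left <;> constructor <;> simp
  let S : ℝ → ℝ := fun t => T t - I t
  have hIcont : Continuous I := by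
    refine continuous_iff_continuousAt.2 fun x => ?_
    have h := (hIac (x - 1) (x + 1)).continuousOn
    exact h.continuousAt (by
      rw [uIcc_of_le (by linarith)]
      exact Icc_mem_nhds (by linarith) (by linarith))
  have hScont : Continuous S := hc.sub hIcont
  have hTdiff : ∀ᵐ x, DifferentiableAt ℝ T x := by
    have hn : ∀ n : ℕ, ∀ᵐ x, x ∈ uIcc (-(n:ℝ)) n → DifferentiableAt ℝ T x :=
      fun n => (hbv _ _).ae_differentiableAt_of_mem_uIcc
    filter_upwards [ae_all_iff.2 hn] with x hx
    obtain ⟨n, hn⟩ := exists_nat_gt (|x|)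
    apply hx n
    rw [uIcc_of_le (by linarith [abs_nonneg x, (abs_nonneg x).trans_lt hn])]
    exact ⟨by linarith [neg_abs_le x], by linarith [le_abs_self x]⟩
  have hSderiv : ∀ᵐ x, HasDerivAt S 0 x := by
    filter_upwards [hTdiff, LocallyIntegrable.ae_hasDerivAt_integral hloc] with x h1 h2
    have h3 := h1.hasDerivAt.sub (h2 0)
    rw [sub_self] at h3
    exact h3
  have hfam : ∀ n a b, AbsolutelyContinuousOnInterval (fun t => ψ n t - I t) a b :=
    fun n a b => (hψ n a b).sub (hIac a b)
  -- the image of S is null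
  let A : Set ℝ := {x | HasDerivAt S 0 x}
  have hAc : volume Aᶜ = 0 := by
    have : ∀ᵐ x, x ∈ A := hSderiv
    rwa [ae_iff] at this
  have himA : volume (S '' A) = 0 := by
    refine addHaar_image_eq_zero_of_det_fderivWithin_eq_zero (μ := volume)
      (f' := fun _ => (0 : ℝ →L[ℝ] ℝ)) ?_ ?_
    · intro x hx
      have : HasDerivAt S 0 x := hx
      have h2 := this.hasFDerivAt.hasFDerivWithinAt (s := A)
      simpa using h2
    · intro x _
      simp
  have himAc : volume (S '' Aᶜ) = 0 := by
    have hsub : S '' Aᶜ ⊆ ⋃ n, (fun t => ψ n t - I t) '' Aᶜ := by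
      rintro _ ⟨x, hx, rfl⟩
      obtain ⟨n, hn⟩ := hcontact x
      exact mem_iUnion.2 ⟨n, x, hx, by simp [S, hn]⟩
    refine measure_mono_null hsub (measure_iUnion_null fun n => ?_)
    exact image_null_of_ac (hfam n) hAc
  have himU : volume (range S) = 0 := by
    rw [← image_univ, ← union_compl_self A, image_union]
    exact measure_union_null himA himAc
  have hconst : ∀ t, S t = S 0 := by
    intro t
    by_contra hne
    have hcon : IsPreconnected (range S) := isPreconnected_range hScont
    have hord : (range S).OrdConnected := hcon.ordConnected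
    have hsub : uIcc (S t) (S 0) ⊆ range S :=
      hord.uIcc_subset (mem_range_self t) (mem_range_self 0)
    have h1 := measure_mono_null hsub himU
    rw [uIcc, Real.volume_Icc, ENNReal.ofReal_eq_zero, max_sub_min_eq_abs] at h1
    have : |S 0 - S t| = 0 := le_antisymm h1 (abs_nonneg _)
    apply hne
    have := abs_eq_zero.1 this
    linarith
  have hT : T = fun t => I t + S 0 := by
    funext t
    have := hconst t
    simp only [S] at this ⊢
    linarith
  rw [hT]
  refine (hIac a b).add ?_
  exact (LipschitzWith.const (α := ℝ) (S 0)).lipschitzOnWith.absolutelyContinuousOnInterval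

end Vale.Agent.Lib.P137W
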