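import Vale.Agent.Lib.P137W.Final

/-! Translation of the Sobolev layer to the extended valued maximal function. -/

open MeasureTheory Metric Set Filter Topology
open scoped ENNReal RealInnerProductSpace ContDiff

noncomputable section

namespace ValeP137

variable {d : ℕ} {f : E d → ℝ} {G : E d → E d} {K : ℝ}

/-- The uncentered maximal function of `f`, with values in `[0, ∞]`. -/
def maxE (f : E d → ℝ) (x : E d) : ℝ≥0∞ :=
  ⨆ (c : E d) (r : ℝ) (_ : 0 < r) (_ : x ∈ ball c r),
    (∫⁻ y in ball c r, ‖f y‖ₑ) / volume (ball c r)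

theorem ratio_eq_ofReal_mean (hf : Integrable f volume) (c : E d) {r : ℝ} (hr : 0 < r) :
    (∫⁻ y in ball c r, ‖f y‖ₑ) / volume (ball c r) = ENNReal.ofReal (⨍ y in ball c r, |f y|) := by
  have hvpos : volume (ball c r) ≠ 0 := (measure_ball_pos volume c hr).ne'
  have hvtop : volume (ball c r) ≠ ⊤ := measure_ball_lt_top.ne
  have hint : (∫⁻ y in ball c r, ‖f y‖ₑ) ≠ ⊤ := (hf.restrict (s := ball c r)).hasFiniteIntegral.ne
  have h1 : ∫ y in ball c r, |f y| = (∫⁻ y in ball c r, ‖f y‖ₑ).toReal := by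
    have := integral_norm_eq_lintegral_enorm (μ := volume.restrict (ball c r))
      hf.aestronglyMeasurable.restrict
    simpa [Real.norm_eq_abs] using this
  rw [setAverage_eq, smul_eq_mul, h1, Measure.real]
  rw [ENNReal.div_eq_inv_mul, ENNReal.ofReal_mul (by positivity), ENNReal.ofReal_inv_of_pos
    (ENNReal.toReal_pos hvpos hvtop), ENNReal.ofReal_toReal hvtop, ENNReal.ofReal_toReal hint]

/-- Where the means are bounded the two forms of the maximal function agree. -/
theorem maxE_eq (hf : Integrable f volume) {x : E d} (hb : BddAbove (avgSet f x)) :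
    maxE f x = ENNReal.ofReal (Mtilde f x) := by
  have hne : (avgSet f x).Nonempty := ⟨_, x, 1, one_pos, mem_ball_self one_pos, rfl⟩
  apply le_antisymm
  · refine iSup_le fun c => iSup_le fun r => iSup_le fun hr => iSup_le fun hx => ?_
    rw [ratio_eq_ofReal_mean hf c hr]
    exact ENNReal.ofReal_le_ofReal (le_csSup hb ⟨c, r, hr, hx, rfl⟩)
  · refine ENNReal.ofReal_le_of_le_toReal ?_
    have hfin : maxE f x ≠ ⊤ := by
      refine ne_top_of_le_ne_top (ENNReal.ofReal_ne_top (r := Mtilde f x)) ?_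
      refine iSup_le fun c => iSup_le fun r => iSup_le fun hr => iSup_le fun hx => ?_
      rw [ratio_eq_ofReal_mean hf c hr]
      exact ENNReal.ofReal_le_ofReal (le_csSup hb ⟨c, r, hr, hx, rfl⟩)
    refine csSup_le hne ?_
    rintro _ ⟨c, r, hr, hx, rfl⟩
    refine (ENNReal.ofReal_le_iff_le_toReal hfin).1 ?_
    rw [← ratio_eq_ofReal_mean hf c hr]
    exact le_iSup_of_le c (le_iSup_of_le r (le_iSup_of_le hr (le_iSup_of_le hx le_rfl)))

theorem enorm_gradient_eq (g : E d → ℝ) (w : E d) : ‖fderiv ℝ g w‖ₑ = ‖gradient g w‖ₑ := by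
  have h : ‖gradient g w‖ = ‖fderiv ℝ g w‖ := by
    unfold gradient
    simp
  rw [← ofReal_norm, ← ofReal_norm, h]

/-- The Sobolev theorem in terms of the extended valued maximal function. -/
theorem sobolev_maxE (hd : 1 ≤ d) (hK : BVc d K) (hK0 : 0 ≤ K)
    (hf : Integrable f volume) (hG : Integrable G volume)
    (hw : ∀ φ : E d → ℝ, ContDiff ℝ ∞ φ → HasCompactSupport φ → ∀ v : E d,
      ∫ x, f x * fderiv ℝ φ x v = - ∫ x, φ x * inner ℝ (G x) v) :
    (∀ᵐ x : E d, maxE f x ≠ ⊤) ∧ LocallyIntegrable (fun x => (maxE f x).toReal) volume ∧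
      ∃ H : E d → E d, Integrable H volume ∧
        (∀ φ : E d → ℝ, ContDiff ℝ ∞ φ → HasCompactSupport φ → ∀ v : E d,
          ∫ x, (maxE f x).toReal * fderiv ℝ φ x v = - ∫ x, φ x * inner ℝ (H x) v) ∧
        ∫ x, ‖H x‖ ≤ (d * K) * ∫ x, ‖G x‖ := by
  have hW : IsWeakGrad f G := ⟨hf.locallyIntegrable, hG.locallyIntegrable, hw⟩
  obtain ⟨hb, H, hHint, hHw, hHle⟩ := sobolev_of_bvc hd hK hK0 hf hG hW
  have hae : (fun x => (maxE f x).toReal) =ᵐ[volume] Mtilde f := by
    filter_upwards [hb] with x hx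
    rw [maxE_eq hf hx, ENNReal.toReal_ofReal]
    exact Real.sSup_nonneg (by
      rintro _ ⟨c, r, hr, -, rfl⟩
      rw [setAverage_eq, smul_eq_mul]
      have h2 : 0 ≤ ∫ y in ball c r, |f y| := integral_nonneg fun _ => abs_nonneg _
      positivity)
  refine ⟨?_, ?_, H, hHint, ?_, ?_⟩
  · filter_upwards [hb] with x hx
    rw [maxE_eq hf hx]
    exact ENNReal.ofReal_ne_top
  · exact (locallyIntegrable_congr hae).2 hHw.locInt_u
  · intro φ hφ hφc v
    rw [← hHw.ibp φ hφ hφc v]
    refine integral_congr_ae ?_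
    filter_upwards [hae] with x hx
    rw [hx]
  · rw [integral_norm_eq_lintegral_enorm hHint.aestronglyMeasurable,
      integral_norm_eq_lintegral_enorm hG.aestronglyMeasurable]
    have h1 : (0 : ℝ) ≤ d * K := by positivity
    calc (∫⁻ x, ‖H x‖ₑ).toReal
        ≤ (ENNReal.ofReal (d * K) * ∫⁻ x, ‖G x‖ₑ).toReal :=
          ENNReal.toReal_mono (ENNReal.mul_ne_top ENNReal.ofReal_ne_top
            hG.hasFiniteIntegral.ne) hHle
      _ = (d * K) * (∫⁻ x, ‖G x‖ₑ).toReal := by
          rw [ENNReal.toReal_mul, ENNReal.toReal_ofReal h1]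

end ValeP137
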